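import Vale.Agent.P181.Defs

/-! Shared definitions for the case `a = 6` of Foulkes' conjecture. -/

namespace Vale.Agent.P181

open MvPolynomial Module

/-- weights of `GL_6` -/
abbrev Wt := Fin 6 →₀ ℕ

/-- the staircase `(5,4,3,2,1,0)` -/
noncomputable def dl : Wt := Finsupp.equivFunOnFinite.symm fun i => 5 - (i : ℕ)

@[simp] theorem dl_apply (i : Fin 6) : dl i = 5 - (i : ℕ) := rfl

/-- the alternant `a_ν = ∑_w sgn(w) x^(w ν)` -/
noncomputable def altn (ν : Wt) : MvPolynomial (Fin 6) ℤ :=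
  ∑ w : Equiv.Perm (Fin 6), monomial (ν.mapDomain w) ((Equiv.Perm.sign w : ℤˣ) : ℤ)

/-- exponents of the monomials of degree `m` in six variables -/
noncomputable def mons (m : ℕ) : Finset Wt := Finset.univ.finsuppAntidiag m

theorem mem_mons {m : ℕ} {β : Wt} : β ∈ mons m ↔ ∑ i, β i = m := by
  simp [mons, Finset.mem_finsuppAntidiag]

/-- the complete homogeneous symmetric polynomial -/
noncomputable def hh (m : ℕ) : MvPolynomial (Fin 6) ℤ := ∑ β ∈ mons m, monomial β 1

/-- the plethysm `p_k[h_m]` -/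
noncomputable def ph (k m : ℕ) : MvPolynomial (Fin 6) ℤ := ∑ β ∈ mons m, monomial (k • β) 1

/-- the weight of a monomial in the variables `y_β` -/
noncomputable def wt (c : Wt →₀ ℕ) : Wt := c.sum fun β n => n • β

/-- the character of `Sym^a (Sym^m ℂ^6)` -/
noncomputable def gf (a m : ℕ) : MvPolynomial (Fin 6) ℤ :=
  ∑ c ∈ (mons m).finsuppAntidiag a, monomial (wt c) 1

/-- the antisymmetrized character -/
noncomputable def agf (a m : ℕ) : MvPolynomial (Fin 6) ℤ := altn dl * gf a m

/-- the multiplicity of the Schur module of `l` in `Sym^a (Sym^m ℂ^6)`, by Weyl's formula -/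
noncomputable def mult (a m : ℕ) (l : Wt) : ℤ := coeff (l + dl) (agf a m)

/-! ### the polynomial model -/

/-- monomials in the `y_β` of degree `a`, with all `|β| = m`, of weight `l` -/
noncomputable def monSet (a m : ℕ) (l : Wt) : Finset (Wt →₀ ℕ) :=
  ((mons m).finsuppAntidiag a).filter fun c => wt c = l

/-- the weight space of `Sym^a (Sym^m ℂ^6)` -/
noncomputable def WS (a m : ℕ) (l : Wt) : Submodule ℂ (MvPolynomial Wt ℂ) :=
  restrictSupport ℂ (monSet a m l : Set (Wt →₀ ℕ))

/-- the operator `E_{ij}` (replace a letter `j` by `i`) as a derivation -/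
noncomputable def DD (i j : Fin 6) : Derivation ℂ (MvPolynomial Wt ℂ) (MvPolynomial Wt ℂ) :=
  mkDerivation ℂ fun β => (β j : ℂ) • X (β - Finsupp.single j 1 + Finsupp.single i 1)

/-- highest weight vectors of weight `l` in `Sym^a (Sym^m ℂ^6)` -/
noncomputable def HW (a m : ℕ) (l : Wt) : Submodule ℂ (MvPolynomial Wt ℂ) :=
  WS a m l ⊓ ⨅ (i : Fin 6) (j : Fin 6) (_ : i < j), LinearMap.ker (DD i j).toLinearMap

/-! ### group algebra -/

section

variable {G : Type} [Group G] [Fintype G]

open Classical in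
/-- the averaging idempotent of a subgroup -/
noncomputable def eH (H : Subgroup G) : MonoidAlgebra ℂ G :=
  (Nat.card H : ℂ)⁻¹ • ∑ g ∈ Finset.univ.filter (· ∈ H), MonoidAlgebra.of ℂ G g

/-- vectors fixed by a subgroup -/
def Inv {Y : Type*} [AddCommGroup Y] [Module ℂ Y] (ρ : Representation ℂ G Y) (H : Subgroup G) :
    Submodule ℂ Y where
  carrier := {x | ∀ h ∈ H, ρ h x = x}
  add_mem' := by
    intro x y hx hy h hh
    rw [map_add, hx h hh, hy h hh]
  zero_mem' := by
    intro h _
    exact map_zero _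
  smul_mem' := by
    intro c x hx h hh
    rw [map_smul, hx h hh]

end

/-! ### the tensor model -/

section

variable {P : Type} [Fintype P] [DecidableEq P]

/-- `(ℂ^6)^{⊗ P}` as functions on words -/
abbrev XX (P : Type) := (P → Fin 6) → ℂ

variable (P) in
/-- permuting the positions -/
def rho : Representation ℂ (Equiv.Perm P) (XX P) where
  toFun g := LinearMap.funLeft ℂ ℂ fun w : P → Fin 6 => w ∘ g
  map_one' := rfl
  map_mul' _ _ := rfl

omit [Fintype P] [DecidableEq P] in
@[simp] theorem rho_apply (g : Equiv.Perm P) (f : XX P) (w : P → Fin 6) :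
    rho P g f w = f (w ∘ g) := rfl

/-- the content of a word -/
noncomputable def cont (w : P → Fin 6) : Wt := ∑ p, Finsupp.single (w p) 1

variable (P) in
/-- the weight space -/
def XW (α : Wt) : Submodule ℂ (XX P) where
  carrier := {f | ∀ w, cont w ≠ α → f w = 0}
  add_mem' := by
    intro x y hx hy w hw
    rw [Pi.add_apply, hx w hw, hy w hw, add_zero]
  zero_mem' := fun _ _ => rfl
  smul_mem' := by
    intro c x hx w hw
    rw [Pi.smul_apply, hx w hw, smul_zero]

variable (P) in
/-- the operator `E_{ij}` (replace a letter `j` by `i`) on functions on words -/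
noncomputable def EE (i j : Fin 6) : XX P →ₗ[ℂ] XX P where
  toFun f w := ∑ p ∈ Finset.univ.filter fun p => w p = i, f (Function.update w p j)
  map_add' f g := by
    ext w
    simp [Finset.sum_add_distrib]
  map_smul' c f := by
    ext w
    simp [Finset.mul_sum]

variable (P) in
/-- highest weight vectors of weight `l` -/
noncomputable def TT (l : Wt) : Submodule ℂ (XX P) :=
  XW P l ⊓ ⨅ (i : Fin 6) (j : Fin 6) (_ : i < j), LinearMap.ker (EE P i j)

/-- the Young subgroup fixing a word -/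
def stab (w₀ : P → Fin 6) : Subgroup (Equiv.Perm P) where
  carrier := {g | w₀ ∘ g = w₀}
  mul_mem' := by
    intro g h hg hh
    change (w₀ ∘ g) ∘ h = w₀
    rw [hg, hh]
  one_mem' := rfl
  inv_mem' := by
    intro g hg
    funext p
    have := congrFun hg (g⁻¹ p)
    simpa using this.symm

/-- the wreath product `S_m ≀ S_a` for an arrangement of the positions in `a` rows of length `m` -/
def wr {a m : ℕ} (κ : P ≃ Fin a × Fin m) : Subgroup (Equiv.Perm P) where
  carrier := {g | ∃ (π : Equiv.Perm (Fin a)) (τ : Fin a → Equiv.Perm (Fin m)),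
    ∀ i j, κ (g (κ.symm (i, j))) = (π i, τ i j)}
  mul_mem' := by
    rintro g h ⟨π, τ, hg⟩ ⟨π', τ', hh⟩
    refine ⟨π * π', fun i => τ (π' i) * τ' i, fun i j => ?_⟩
    have e : h (κ.symm (i, j)) = κ.symm (π' i, τ' i j) := by rw [← hh, Equiv.symm_apply_apply]
    rw [Equiv.Perm.mul_apply, e, hg]
    rfl
  one_mem' := ⟨1, fun _ => 1, fun i j => by simp⟩
  inv_mem' := by
    rintro g ⟨π, τ, hg⟩
    refine ⟨π⁻¹, fun i => (τ (π⁻¹ i))⁻¹, fun i j => ?_⟩
    have e := hg (π⁻¹ i) ((τ (π⁻¹ i))⁻¹ j)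
    simp only [Equiv.Perm.coe_inv, Equiv.apply_symm_apply] at e
    rw [← e]
    simp

/-- the character of the fixed vectors of a subgroup -/
noncomputable def GH (H : Subgroup (Equiv.Perm P)) : MvPolynomial (Fin 6) ℤ :=
  ∑ α ∈ mons (Fintype.card P), monomial α (finrank ℂ ↥(XW P α ⊓ Inv (rho P) H) : ℤ)

end

/-! ### the stable multiplicity -/

/-- `(1 - x) / ∏_{k ∈ ρ} (1 - x^k)` -/
noncomputable def phiS (ρ : List ℕ) : PowerSeries ℤ :=
  (1 - PowerSeries.X) * (ρ.map fun k => PowerSeries.mk fun n => if k ∣ n then (1 : ℤ) else 0).prod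

/-- its coefficients, extended by zero -/
noncomputable def phiZ (ρ : List ℕ) (n : ℤ) : ℤ :=
  if 0 ≤ n then PowerSeries.coeff n.toNat (phiS ρ) else 0

/-- the cycle types of `S_6` with their class sizes -/
def cyc : List (ℤ × List ℕ) :=
  [(1, [1, 1, 1, 1, 1, 1]), (15, [2, 1, 1, 1, 1]), (45, [2, 2, 1, 1]), (15, [2, 2, 2]),
    (40, [3, 1, 1, 1]), (120, [3, 2, 1]), (40, [3, 3]), (90, [4, 1, 1]), (90, [4, 2]),
    (144, [5, 1]), (120, [6])]

/-- `720` times the stable multiplicity, in terms of `ν_i = λ_{i+2} + 4 - i` -/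
noncomputable def U720 (ν : Fin 5 → ℕ) : ℤ :=
  (cyc.map fun c => c.1 * (Matrix.of fun i j : Fin 5 =>
    phiZ c.2 ((ν i : ℤ) - (4 - (j : ℕ) : ℤ))).det).sum

end Vale.Agent.P181
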