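import Vale.Agent.P181.Six.Basic

/-! Artin-Wedderburn blocks of a group algebra and averaging idempotents. -/

namespace Vale.Agent.P181

open Module

namespace Blocks

/-- a linear functional on matrices that kills commutators is a multiple of the trace -/
theorem functional_eq_trace {d : ℕ} [NeZero d] (ψ : Matrix (Fin d) (Fin d) ℂ →ₗ[ℂ] ℂ)
    (h : ∀ X Y, ψ (X * Y) = ψ (Y * X)) (X : Matrix (Fin d) (Fin d) ℂ) :
    ψ X = X.trace * ψ (Matrix.single 0 0 1) := by
  have h1 : ∀ (p q : Fin d) (c : ℂ),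
      ψ (Matrix.single p q c) = if p = q then c * ψ (Matrix.single 0 0 1) else 0 := by
    intro p q c
    have e : Matrix.single p q c = Matrix.single p (0 : Fin d) c * Matrix.single 0 q 1 := by
      rw [Matrix.single_mul_single_same, mul_one]
    rw [e, h]
    split_ifs with hpq
    · subst hpq
      rw [Matrix.single_mul_single_same, one_mul, ← smul_eq_mul, ← map_smul, Matrix.smul_single,
        smul_eq_mul, mul_one]
    · rw [Matrix.single_mul_single_of_ne _ _ _ _ (Ne.symm hpq), map_zero]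
  generalize ψ (Matrix.single 0 0 1) = z at h1
  conv_lhs => rw [Matrix.matrix_eq_sum_single X]
  simp [h1, Matrix.trace, Finset.sum_mul]

theorem trace_eq_rank {d : ℕ} {E : Matrix (Fin d) (Fin d) ℂ} (hE : IsIdempotentElem E) :
    E.trace = E.rank := by
  have h : IsIdempotentElem (Matrix.toLin' E) := hE.map Matrix.toLinAlgEquiv'
  rw [← Matrix.trace_toLin'_eq, (LinearMap.IsIdempotentElem.isProj_range _ h).trace]
  rfl

theorem exists_uv_end {W : Type} [AddCommGroup W] [Module ℂ W] [FiniteDimensional ℂ W]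
    {f₁ f₂ : Module.End ℂ W} (h₂ : IsIdempotentElem f₂)
    (h : finrank ℂ (LinearMap.range f₁) ≤ finrank ℂ (LinearMap.range f₂)) :
    ∃ u v : Module.End ℂ W, v * u = f₁ ∧ f₂ * u = u := by
  obtain ⟨i, hi⟩ := finrank_le_iff_exists_linearMap.mp h
  obtain ⟨g, hg⟩ := i.exists_leftInverse_of_injective (LinearMap.ker_eq_bot.mpr hi)
  have h3 : ∀ y : LinearMap.range f₂, f₂ y = y := fun y =>
    (LinearMap.IsIdempotentElem.isProj_range _ h₂).map_id _ y.2
  refine ⟨(LinearMap.range f₂).subtype ∘ₗ i ∘ₗ f₁.rangeRestrict,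
    (LinearMap.range f₁).subtype ∘ₗ g ∘ₗ f₂.rangeRestrict, ?_, ?_⟩
  · ext x
    have h4 : f₂.rangeRestrict (i (f₁.rangeRestrict x)) = i (f₁.rangeRestrict x) :=
      Subtype.ext (h3 _)
    have h5 := LinearMap.congr_fun hg (f₁.rangeRestrict x)
    simp only [LinearMap.comp_apply, LinearMap.id_apply] at h5
    simp only [Module.End.mul_apply, LinearMap.comp_apply, Submodule.subtype_apply, h4, h5]
    rfl
  · ext x
    exact h3 _

theorem exists_uv {d : ℕ} {E₁ E₂ : Matrix (Fin d) (Fin d) ℂ}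
    (h₂ : IsIdempotentElem E₂) (h : E₁.rank ≤ E₂.rank) :
    ∃ U V : Matrix (Fin d) (Fin d) ℂ, V * U = E₁ ∧ E₂ * U = U := by
  obtain ⟨u, v, h3, h4⟩ := exists_uv_end (f₁ := Matrix.toLinAlgEquiv' E₁)
    (h₂.map Matrix.toLinAlgEquiv') h
  refine ⟨Matrix.toLinAlgEquiv'.symm u, Matrix.toLinAlgEquiv'.symm v, ?_, ?_⟩
  · rw [← map_mul, h3, AlgEquiv.symm_apply_apply]
  · refine (Matrix.toLinAlgEquiv' (R := ℂ)).injective ?_
    rw [map_mul, AlgEquiv.apply_symm_apply, h4]

/-- a vector placed in the first row of a matrix -/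
def rowZero (d : ℕ) [NeZero d] : (Fin d → ℂ) →ₗ[ℂ] Matrix (Fin d) (Fin d) ℂ where
  toFun x := Matrix.of fun p q => if p = 0 then x q else 0
  map_add' x y := by
    ext p q
    by_cases h : p = 0 <;> simp [h]
  map_smul' c x := by
    ext p q
    by_cases h : p = 0 <;> simp [h]

theorem single_mul_eq {d : ℕ} [NeZero d] (X : Matrix (Fin d) (Fin d) ℂ) :
    Matrix.single 0 0 1 * X = rowZero d (X 0) := by
  ext p q
  by_cases h : p = 0
  · subst h
    simp [rowZero]
  · simp [rowZero, h, Matrix.single_mul_apply_of_ne]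

variable {A : Type} [Ring A] [Algebra ℂ A] {n : ℕ} {d : Fin n → ℕ} [∀ j, NeZero (d j)]
  (φ : A ≃ₐ[ℂ] ∀ j, Matrix (Fin (d j)) (Fin (d j)) ℂ)

/-- the primitive idempotent of a block -/
noncomputable def eps (j : Fin n) : A := φ.symm (Pi.single j (Matrix.single 0 0 1))

theorem eps_idem (j : Fin n) : IsIdempotentElem (eps φ j) := by
  refine IsIdempotentElem.map ?_ φ.symm
  rw [IsIdempotentElem, ← Pi.single_mul, Matrix.single_mul_single_same, mul_one]

omit [∀ j, NeZero (d j)] in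
theorem idem_apply {e : A} (he : IsIdempotentElem e) (j : Fin n) : IsIdempotentElem (φ e j) :=
  congrFun (he.map φ) j

theorem functional_eq (τ : A →ₗ[ℂ] ℂ) (h : ∀ a b, τ (a * b) = τ (b * a)) (a : A) :
    τ a = ∑ j, (φ a j).trace * τ (eps φ j) := by
  have e : a = ∑ j, φ.symm (Pi.single j (φ a j)) := by
    rw [← map_sum, Finset.univ_sum_single, AlgEquiv.symm_apply_apply]
  conv_lhs => rw [e, map_sum]
  refine Finset.sum_congr rfl fun j _ => ?_
  exact functional_eq_trace (τ ∘ₗ φ.symm.toLinearMap ∘ₗ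
      LinearMap.single ℂ (fun j => Matrix (Fin (d j)) (Fin (d j)) ℂ) j) (fun X Y => by
    simp only [LinearMap.comp_apply, LinearMap.coe_single, AlgEquiv.toLinearMap_apply,
      Pi.single_mul, map_mul]
    exact h _ _) _

theorem finrank_range_eq {W : Type} [AddCommGroup W] [Module ℂ W] [FiniteDimensional ℂ W]
    (σ : A →ₐ[ℂ] Module.End ℂ W) {e : A} (he : IsIdempotentElem e) :
    finrank ℂ (LinearMap.range (σ e)) =
      ∑ j, (φ e j).rank * finrank ℂ (LinearMap.range (σ (eps φ j))) := by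
  have h1 : ∀ a, IsIdempotentElem a →
      LinearMap.trace ℂ W (σ a) = finrank ℂ (LinearMap.range (σ a)) := fun a ha =>
    (LinearMap.IsIdempotentElem.isProj_range _ (ha.map σ)).trace
  have h2 := functional_eq φ (LinearMap.trace ℂ W ∘ₗ σ.toLinearMap) (fun a b => by
    simp only [LinearMap.comp_apply, AlgHom.toLinearMap_apply, map_mul]
    exact LinearMap.trace_mul_comm _ _ _) e
  simp only [LinearMap.comp_apply, AlgHom.toLinearMap_apply, h1 _ he, h1 _ (eps_idem φ _),
    trace_eq_rank (idem_apply φ he _)] at h2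
  exact_mod_cast h2

theorem finrank_corner (e : A) (j : Fin n) : finrank ℂ (LinearMap.range
    (LinearMap.mulLeft ℂ (eps φ j) ∘ₗ LinearMap.mulRight ℂ e)) = (φ e j).rank := by
  let Φ : (Fin (d j) → ℂ) →ₗ[ℂ] A :=
    φ.symm.toLinearMap ∘ₗ LinearMap.single ℂ _ j ∘ₗ rowZero (d j)
  have hΦ : ∀ x, φ (Φ x) j 0 = x := fun x => by
    funext q
    simp [Φ, rowZero]
  let π : A →ₗ[ℂ] (Fin (d j) → ℂ) :=
    { toFun := fun a => φ a j 0
      map_add' := fun a b => by rw [map_add]; rfl
      map_smul' := fun c a => by rw [map_smul]; rfl }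
  have h1 : LinearMap.mulLeft ℂ (eps φ j) ∘ₗ LinearMap.mulRight ℂ e =
      Φ ∘ₗ (φ e j).vecMulLinear ∘ₗ π := by
    ext a
    refine φ.injective ?_
    simp only [LinearMap.comp_apply, LinearMap.mulLeft_apply, LinearMap.mulRight_apply, map_mul,
      eps, Φ, AlgEquiv.apply_symm_apply, AlgEquiv.toLinearMap_apply, LinearMap.coe_single]
    rw [← Pi.single_mul_left, single_mul_eq]
    rfl
  have h2 : LinearMap.range π = ⊤ := LinearMap.range_eq_top.mpr fun x => ⟨Φ x, hΦ x⟩
  have h3 : Function.Injective Φ := fun x y h => by rw [← hΦ x, h, hΦ]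
  rw [h1, LinearMap.range_comp, LinearMap.range_comp, h2, Submodule.map_top,
    ← (Submodule.equivMapOfInjective Φ h3 _).finrank_eq, ← Matrix.mulVecLin_transpose,
    ← Matrix.rank_transpose]
  rfl

end Blocks

variable {G : Type} [Group G] [Fintype G]

theorem of_mul_eH (H : Subgroup G) {g : G} (hg : g ∈ H) :
    MonoidAlgebra.of ℂ G g * eH H = eH H := by
  rw [eH, mul_smul_comm, Finset.mul_sum]
  congr 1
  refine Finset.sum_equiv (Equiv.mulLeft g) (fun x => ?_) fun x _ => ?_
  · simp [H.mul_mem_cancel_left hg]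
  · rw [← map_mul, Equiv.coe_mulLeft]

theorem eH_mul_of (H : Subgroup G) {g : G} (hg : g ∈ H) :
    eH H * MonoidAlgebra.of ℂ G g = eH H := by
  rw [eH, smul_mul_assoc, Finset.sum_mul]
  congr 1
  refine Finset.sum_equiv (Equiv.mulRight g) (fun x => ?_) fun x _ => ?_
  · simp [H.mul_mem_cancel_right hg]
  · rw [← map_mul, Equiv.coe_mulRight]

open Classical in
theorem Blocks.avg_const {Y : Type*} [AddCommGroup Y] [Module ℂ Y] (H : Subgroup G) (y : Y) :
    (Nat.card H : ℂ)⁻¹ • ∑ _g ∈ Finset.univ.filter (· ∈ H), y = y := by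
  have h : (Finset.univ.filter (· ∈ H)).card = Nat.card H := by
    rw [Nat.card_eq_fintype_card, Fintype.card_subtype]
  rw [Finset.sum_const, h, ← Nat.cast_smul_eq_nsmul ℂ, inv_smul_smul₀]
  exact_mod_cast Nat.card_pos.ne'

theorem eH_mul_of_le {H K : Subgroup G} (h : K ≤ H) : eH H * eH K = eH H := by
  classical
  conv_lhs => rw [eH.eq_1 K, mul_smul_comm, Finset.mul_sum]
  rw [Finset.sum_congr rfl fun g hg => eH_mul_of H (h (Finset.mem_filter.mp hg).2),
    Blocks.avg_const]

theorem eH_idem (H : Subgroup G) : IsIdempotentElem (eH H) := eH_mul_of_le le_rfl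

theorem map_eH {Y : Type*} [AddCommGroup Y] [Module ℂ Y] (ρ : Representation ℂ G Y)
    (H : Subgroup G) (M : Submodule ℂ Y) (hM : ∀ g, ∀ x ∈ M, ρ g x ∈ M) :
    M.map (ρ.asAlgebraHom (eH H)) = M ⊓ Inv ρ H := by
  classical
  have h1 : ∀ x, ρ.asAlgebraHom (eH H) x =
      (Nat.card H : ℂ)⁻¹ • ∑ g ∈ Finset.univ.filter (· ∈ H), ρ g x := fun x => by
    simp only [eH, map_smul, map_sum, Representation.asAlgebraHom_of, LinearMap.smul_apply,
      LinearMap.sum_apply]
  refine le_antisymm ?_ ?_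
  · rintro _ ⟨x, hx, rfl⟩
    refine ⟨?_, fun h hh => ?_⟩
    · rw [SetLike.mem_coe, h1]
      exact M.smul_mem _ (M.sum_mem fun g _ => hM g x hx)
    · rw [← Representation.asAlgebraHom_of, ← Module.End.mul_apply, ← map_mul, of_mul_eH H hh]
  · rintro x ⟨hx, hx'⟩
    refine ⟨x, hx, ?_⟩
    rw [h1, Finset.sum_congr rfl fun g hg => hx' g (Finset.mem_filter.mp hg).2]
    have := Blocks.avg_const H x
    congr

variable (G) in
theorem exists_blocks :
    ∃ (I : Type) (_ : Fintype I) (ε : I → MonoidAlgebra ℂ G) (r : MonoidAlgebra ℂ G → I → ℕ),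
      (∀ j, IsIdempotentElem (ε j)) ∧
      (∀ (Y : Type) [AddCommGroup Y] [Module ℂ Y] [FiniteDimensional ℂ Y]
        (ρ : Representation ℂ G Y) (M : Submodule ℂ Y), (∀ g, ∀ x ∈ M, ρ g x ∈ M) →
        ∀ e, IsIdempotentElem e → finrank ℂ (M.map (ρ.asAlgebraHom e)) =
          ∑ j, r e j * finrank ℂ (M.map (ρ.asAlgebraHom (ε j)))) ∧
      (∀ e, IsIdempotentElem e → ∀ j, finrank ℂ (LinearMap.range
        (LinearMap.mulLeft ℂ (ε j) ∘ₗ LinearMap.mulRight ℂ e)) = r e j) ∧
      (∀ e₁ e₂, IsIdempotentElem e₁ → IsIdempotentElem e₂ → (∀ j, r e₁ j ≤ r e₂ j) →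
        ∃ u v, v * u = e₁ ∧ e₂ * u = u) := by
  have : NeZero (Nat.card G : ℂ) := ⟨by exact_mod_cast Nat.card_pos.ne'⟩
  obtain ⟨n, d, hd, ⟨φ⟩⟩ :=
    IsSemisimpleRing.exists_algEquiv_pi_matrix_of_isAlgClosed ℂ (MonoidAlgebra ℂ G)
  refine ⟨Fin n, inferInstance, Blocks.eps φ, fun e j => (φ e j).rank, Blocks.eps_idem φ,
    fun Y _ _ _ ρ M hM e he => ?_, fun e _ j => Blocks.finrank_corner φ e j,
    fun e₁ e₂ _ h₂ h => ?_⟩
  · let σ := (ρ.subrepresentation M hM).asAlgebraHom
    have h1 : ∀ a (x : M), (σ a x : Y) = ρ.asAlgebraHom a x := fun a x => by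
      induction a using MonoidAlgebra.induction_on with
      | of g => simp only [σ, Representation.asAlgebraHom_of]; rfl
      | add a b ha hb => simp only [map_add, LinearMap.add_apply, Submodule.coe_add, ha, hb]
      | smul c a ha => simp only [map_smul, LinearMap.smul_apply, Submodule.coe_smul, ha]
    have h2 : ∀ a, finrank ℂ (M.map (ρ.asAlgebraHom a)) = finrank ℂ (LinearMap.range (σ a)) := by
      intro a
      rw [← Submodule.finrank_map_subtype_eq, ← LinearMap.range_comp,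
        show M.subtype ∘ₗ σ a = ρ.asAlgebraHom a ∘ₗ M.subtype from LinearMap.ext (h1 a),
        LinearMap.range_comp, Submodule.range_subtype]
    simp only [h2]
    exact Blocks.finrank_range_eq φ σ he
  · choose U V h3 h4 using fun j =>
      Blocks.exists_uv (Blocks.idem_apply φ h₂ j) (h j)
    refine ⟨φ.symm U, φ.symm V, ?_, φ.injective ?_⟩
    · rw [← map_mul, AlgEquiv.symm_apply_eq]
      exact funext h3
    · rw [map_mul, AlgEquiv.apply_symm_apply]
      exact funext h4

end Vale.Agent.P181
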