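import Vale.Agent.P181.Six.Blocks

/-! Elementary properties of the tensor model. -/

namespace Vale.Agent.P181

open Module

namespace Tri

theorem cont_apply {P : Type} [Fintype P] (w : P → Fin 6) (i : Fin 6) :
    cont w i = (Finset.univ.filter fun p => w p = i).card := by
  rw [cont, Finsupp.finsetSum_apply, Finset.card_filter]
  simp only [Finsupp.single_apply]

theorem cont_comp {P Q : Type} [Fintype P] [Fintype Q] (w : P → Fin 6) (e : Q ≃ P) :
    cont (w ∘ e) = cont w :=
  Equiv.sum_comp e fun p => (Finsupp.single (w p) 1 : Wt)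

theorem cont_perm {P : Type} [Fintype P] (w : P → Fin 6) (σ : Equiv.Perm (Fin 6)) :
    cont (σ ∘ w) = (cont w).mapDomain σ := by
  rw [cont, cont, Finsupp.mapDomain_finsetSum]
  simp only [Finsupp.mapDomain_single, Function.comp_apply]

theorem cont_update {P : Type} [Fintype P] [DecidableEq P] (w : P → Fin 6) (p : P) (j : Fin 6) :
    cont (Function.update w p j) + Finsupp.single (w p) 1 = cont w + Finsupp.single j 1 := by
  rw [cont, cont, ← Finset.add_sum_erase _ _ (Finset.mem_univ p),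
    ← Finset.add_sum_erase _ _ (Finset.mem_univ p), Function.update_self,
    Finset.sum_congr rfl (g := fun q => Finsupp.single (w q) 1)
      fun q hq => by rw [Function.update_of_ne (Finset.ne_of_mem_erase hq)]]
  abel

variable {P : Type} [Fintype P] [DecidableEq P]

theorem EE_apply (i j : Fin 6) (f : XX P) (w : P → Fin 6) :
    EE P i j f w = ∑ p ∈ Finset.univ.filter fun p => w p = i, f (Function.update w p j) := rfl

theorem EE_rho (i j : Fin 6) (g : Equiv.Perm P) (x : XX P) :
    EE P i j (rho P g x) = rho P g (EE P i j x) := by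
  funext w
  rw [rho_apply, EE_apply, EE_apply]
  symm
  refine Finset.sum_equiv g (fun p => by simp) fun p _ => ?_
  rw [rho_apply, Function.update_comp_eq_of_injective _ g.injective]

omit [Fintype P] [DecidableEq P] in
/-- a linear map intertwining the group action intertwines the action of the group algebra -/
theorem comm_alg {Y : Type*} [AddCommGroup Y] [Module ℂ Y] (L : XX P →ₗ[ℂ] Y)
    (T : MonoidAlgebra ℂ (Equiv.Perm P) →ₗ[ℂ] Y →ₗ[ℂ] Y)
    (h : ∀ g x, L (rho P g x) = T (MonoidAlgebra.of ℂ _ g) (L x))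
    (e : MonoidAlgebra ℂ (Equiv.Perm P)) (x : XX P) :
    L ((rho P).asAlgebraHom e x) = T e (L x) := by
  induction e using MonoidAlgebra.induction_on with
  | of g => rw [Representation.asAlgebraHom_of, h]
  | add a b ha hb => simp only [map_add, LinearMap.add_apply, ha, hb]
  | smul c a ha => simp only [map_smul, LinearMap.smul_apply, ha]

omit [Fintype P] [DecidableEq P] in
theorem alg_mem (M : Submodule ℂ (XX P)) (hM : ∀ g, ∀ x ∈ M, rho P g x ∈ M)
    (e : MonoidAlgebra ℂ (Equiv.Perm P)) (x : XX P) (hx : x ∈ M) :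
    (rho P).asAlgebraHom e x ∈ M := by
  induction e using MonoidAlgebra.induction_on with
  | of g => rw [Representation.asAlgebraHom_of]; exact hM g x hx
  | add a b ha hb => rw [map_add]; exact M.add_mem ha hb
  | smul c a ha => rw [map_smul]; exact M.smul_mem c ha

/-- the map from functions on words to the group algebra -/
noncomputable def Psi (w₀ : P → Fin 6) : XX P →ₗ[ℂ] MonoidAlgebra ℂ (Equiv.Perm P) where
  toFun f := ∑ g : Equiv.Perm P, f (w₀ ∘ g.symm) • MonoidAlgebra.of ℂ _ g
  map_add' f f' := by simp only [Pi.add_apply, add_smul, Finset.sum_add_distrib]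
  map_smul' c f := by
    simp only [Pi.smul_apply, smul_eq_mul, mul_smul, RingHom.id_apply, Finset.smul_sum]

theorem Psi_apply (w₀ : P → Fin 6) (f : XX P) :
    Psi w₀ f = ∑ g : Equiv.Perm P, f (w₀ ∘ g.symm) • MonoidAlgebra.of ℂ _ g := rfl

theorem Psi_rho (w₀ : P → Fin 6) (h : Equiv.Perm P) (f : XX P) :
    Psi w₀ (rho P h f) = MonoidAlgebra.of ℂ _ h * Psi w₀ f := by
  rw [Psi_apply, Psi_apply, Finset.mul_sum, ← Equiv.sum_comp (Equiv.mulLeft h)]
  refine Finset.sum_congr rfl fun g _ => ?_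
  rw [mul_smul_comm, ← map_mul, rho_apply]
  congr 2
  funext p
  simp [Equiv.Perm.mul_def]

theorem Psi_mul_of (w₀ : P → Fin 6) {k : Equiv.Perm P} (hk : k ∈ stab w₀) (f : XX P) :
    Psi w₀ f * MonoidAlgebra.of ℂ _ k = Psi w₀ f := by
  rw [Psi_apply, Finset.sum_mul]
  conv_rhs => rw [← Equiv.sum_comp (Equiv.mulRight k)]
  refine Finset.sum_congr rfl fun g _ => ?_
  rw [smul_mul_assoc, ← map_mul]
  congr 2
  have h1 : w₀ ∘ (k⁻¹ : Equiv.Perm P) = w₀ := (stab w₀).inv_mem hk
  conv_lhs => rw [← h1]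
  rfl

theorem Psi_coeff (w₀ : P → Fin 6) (f : XX P) (g : Equiv.Perm P) :
    (Psi w₀ f).coeff g = f (w₀ ∘ g.symm) := by
  rw [Psi_apply, MonoidAlgebra.coeff_sum, Finsupp.finsetSum_apply, Finset.sum_eq_single g]
  · simp
  · intro h _ hh
    simp [hh]
  · simp

theorem card_filter_mem (H : Subgroup (Equiv.Perm P)) [DecidablePred (· ∈ H)] :
    (Finset.univ.filter (· ∈ H)).card = Nat.card H := by
  rw [Nat.card_eq_fintype_card, Fintype.card_subtype]

theorem Psi_mul_eH (w₀ : P → Fin 6) (f : XX P) : Psi w₀ f * eH (stab w₀) = Psi w₀ f := by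
  classical
  rw [eH, mul_smul_comm, Finset.mul_sum, Finset.sum_congr rfl (g := fun _ => Psi w₀ f)
    fun k hk => Psi_mul_of w₀ (Finset.mem_filter.1 hk).2 f, Finset.sum_const, card_filter_mem,
    ← Nat.cast_smul_eq_nsmul ℂ, smul_smul, inv_mul_cancel₀, one_smul]
  exact Nat.cast_ne_zero.2 Nat.card_pos.ne'

theorem Psi_single (w₀ : P → Fin 6) :
    Psi w₀ ((Nat.card (stab w₀) : ℂ)⁻¹ • Pi.single w₀ 1) = eH (stab w₀) := by
  classical
  rw [map_smul, eH, Psi_apply, Finset.sum_filter]
  congr 1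
  refine Finset.sum_congr rfl fun g _ => ?_
  by_cases hg : g ∈ stab w₀
  · have h1 : w₀ ∘ g.symm = w₀ := (stab w₀).inv_mem hg
    rw [if_pos hg, h1, Pi.single_eq_same, one_smul]
  · have h1 : w₀ ∘ g.symm ≠ w₀ := fun h => hg ((stab w₀).inv_mem_iff.1 h)
    rw [if_neg hg, Pi.single_eq_of_ne h1, zero_smul]

end Tri

open Tri

variable {P : Type} [Fintype P] [DecidableEq P]

theorem sum_cont (w : P → Fin 6) : ∑ i, cont w i = Fintype.card P := by
  simp only [cont_apply]
  rw [Finset.sum_card_fiberwise_eq_card_filter]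
  simp

theorem exists_cont {α : Wt} (h : ∑ i, α i = Fintype.card P) : ∃ w : P → Fin 6, cont w = α := by
  have e : P ≃ Σ i : Fin 6, Fin (α i) := Fintype.equivOfCardEq (by simp [h])
  refine ⟨Sigma.fst ∘ e, ?_⟩
  rw [cont_comp, cont, Fintype.sum_sigma]
  ext i
  simp

theorem cont_eq_iff (w w' : P → Fin 6) :
    cont w = cont w' ↔ ∃ g : Equiv.Perm P, w' = w ∘ g := by
  constructor
  · intro h
    have e : ∀ i, {p // w' p = i} ≃ {p // w p = i} := fun i => Fintype.equivOfCardEq (by
      rw [Fintype.card_subtype, Fintype.card_subtype, ← cont_apply, ← cont_apply, h])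
    exact ⟨Equiv.ofFiberEquiv e, funext fun p => (Equiv.ofFiberEquiv_map e p).symm⟩
  · rintro ⟨g, rfl⟩
    exact (cont_comp w g).symm

theorem rho_mem_XW (α : Wt) (g : Equiv.Perm P) : ∀ x ∈ XW P α, rho P g x ∈ XW P α := by
  intro x hx w hw
  exact hx _ (by rwa [cont_comp])

theorem rho_mem_TT (l : Wt) (g : Equiv.Perm P) : ∀ x ∈ TT P l, rho P g x ∈ TT P l := by
  intro x hx
  simp only [TT, Submodule.mem_inf, Submodule.mem_iInf, LinearMap.mem_ker] at hx ⊢
  refine ⟨rho_mem_XW l g x hx.1, fun i j hij => ?_⟩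
  rw [EE_rho, hx.2 i j hij, map_zero]

theorem EE_comm (i j : Fin 6) (e : MonoidAlgebra ℂ (Equiv.Perm P)) (x : XX P) :
    EE P i j ((rho P).asAlgebraHom e x) = (rho P).asAlgebraHom e (EE P i j x) :=
  comm_alg (EE P i j) (rho P).asAlgebraHom.toLinearMap
    (fun g x => by
      rw [EE_rho]; exact congrArg (· (EE P i j x)) ((rho P).asAlgebraHom_of g).symm) e x

/-- `E_{ij}` with `i < j` kills a weight space or raises the weight lexicographically -/
theorem EE_raise {i j : Fin 6} (hij : i < j) (α : Wt) :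
    (∀ x ∈ XW P α, EE P i j x = 0) ∨
      ∃ β : Wt, toLex α < toLex β ∧ ∀ x ∈ XW P α, EE P i j x ∈ XW P β := by
  refine Or.inr ⟨α + Finsupp.single i 1 - Finsupp.single j 1, ?_, fun x hx w hw => ?_⟩
  · refine Finsupp.Lex.lt_iff.2 ⟨i, fun k hk => ?_, ?_⟩
    · simp [hk.ne', (hk.trans hij).ne']
    · simp [hij.ne']
  · rw [EE_apply]
    refine Finset.sum_eq_zero fun p hp => hx _ fun h => hw ?_
    have h1 := cont_update w p j
    rw [h, (Finset.mem_filter.1 hp).2] at h1
    rw [h1, add_tsub_cancel_right]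

/-- permuting the letters -/
theorem finrank_map_XW_perm (σ : Equiv.Perm (Fin 6)) (α : Wt)
    (e : MonoidAlgebra ℂ (Equiv.Perm P)) :
    finrank ℂ ((XW P (α.mapDomain σ)).map ((rho P).asAlgebraHom e)) =
      finrank ℂ ((XW P α).map ((rho P).asAlgebraHom e)) := by
  let L : XX P ≃ₗ[ℂ] XX P := LinearEquiv.funCongrLeft ℂ ℂ (Equiv.arrowCongr (Equiv.refl P) σ)
  have hL : ∀ f w, L f w = f (σ ∘ w) := fun f w => rfl
  have h1 : (XW P (α.mapDomain σ)).map (L : XX P →ₗ[ℂ] XX P) = XW P α := by
    ext f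
    obtain ⟨f, rfl⟩ := L.surjective f
    rw [Submodule.mem_map_equiv, LinearEquiv.symm_apply_apply]
    constructor
    · intro hf w hw
      refine (hL f w).trans (hf _ fun h => hw ?_)
      rw [cont_perm] at h
      exact Finsupp.mapDomain_injective σ.injective h
    · intro hf w hw
      have h2 : w = σ ∘ (σ.symm ∘ w) := by funext p; simp
      rw [h2] at hw ⊢
      refine (hL f _).symm.trans (hf _ fun h => hw ?_)
      rw [cont_perm, h]
  have h2 : (L : XX P →ₗ[ℂ] XX P) ∘ₗ (rho P).asAlgebraHom e =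
      (rho P).asAlgebraHom e ∘ₗ (L : XX P →ₗ[ℂ] XX P) :=
    LinearMap.ext (comm_alg (L : XX P →ₗ[ℂ] XX P) (rho P).asAlgebraHom.toLinearMap
      (fun g x => congrArg (· (L x)) ((rho P).asAlgebraHom_of g).symm) e)
  rw [← L.finrank_map_eq, ← Submodule.map_comp, h2, Submodule.map_comp, h1]

/-- a weight space is the left ideal generated by the idempotent of a Young subgroup -/
theorem finrank_map_XW_cont (w₀ : P → Fin 6) (e : MonoidAlgebra ℂ (Equiv.Perm P)) :
    finrank ℂ ((XW P (cont w₀)).map ((rho P).asAlgebraHom e)) =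
      finrank ℂ (LinearMap.range
        (LinearMap.mulLeft ℂ e ∘ₗ LinearMap.mulRight ℂ (eH (stab w₀)))) := by
  have hc : ∀ a x, Psi w₀ ((rho P).asAlgebraHom a x) = a * Psi w₀ x :=
    comm_alg (Psi w₀) (LinearMap.mul ℂ _) (Psi_rho w₀)
  have h1 : (XW P (cont w₀)).map (Psi w₀) =
      LinearMap.range (LinearMap.mulRight ℂ (eH (stab w₀))) := by
    apply le_antisymm
    · rintro _ ⟨f, -, rfl⟩
      exact ⟨_, Psi_mul_eH w₀ f⟩
    · rintro _ ⟨a, rfl⟩
      refine ⟨(rho P).asAlgebraHom a ((Nat.card (stab w₀) : ℂ)⁻¹ • Pi.single w₀ 1),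
        alg_mem _ (rho_mem_XW _) a _ (Submodule.smul_mem _ _ fun w hw => ?_), ?_⟩
      · exact Pi.single_eq_of_ne (fun h => hw (by rw [h])) _
      · rw [hc, Psi_single]; rfl
  have h2 : Psi w₀ ∘ₗ (rho P).asAlgebraHom e = LinearMap.mulLeft ℂ e ∘ₗ Psi w₀ :=
    LinearMap.ext (hc e)
  have h3 : Function.Injective
      ((Psi w₀).domRestrict ((XW P (cont w₀)).map ((rho P).asAlgebraHom e))) := by
    rw [injective_iff_map_eq_zero]
    rintro ⟨_, ⟨x, hx, rfl⟩⟩ h
    refine Subtype.ext (funext fun w => ?_)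
    by_cases hw : cont w = cont w₀
    · obtain ⟨g, rfl⟩ := (cont_eq_iff w₀ w).1 hw.symm
      have h4 := Psi_coeff w₀ ((rho P).asAlgebraHom e x) g.symm
      rw [show Psi w₀ ((rho P).asAlgebraHom e x) = 0 from h] at h4
      exact h4.symm
    · exact alg_mem _ (rho_mem_XW _) e x hx w hw
  rw [← LinearMap.finrank_range_of_inj h3, LinearMap.range_domRestrict, ← Submodule.map_comp, h2,
    Submodule.map_comp, h1, LinearMap.range_comp]

/-- triangularity: a highest weight vector fixed by a Young subgroup -/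
theorem lex_le_of_TT_inv (l : Wt) (w₀ : P → Fin 6) (h : TT P l ⊓ Inv (rho P) (stab w₀) ≠ ⊥) :
    toLex (cont w₀) ≤ toLex l := by
  classical
  obtain ⟨t, ⟨ht1, ht2⟩, ht0⟩ := (Submodule.ne_bot_iff _).1 h
  simp only [TT, SetLike.mem_coe, Submodule.mem_inf, Submodule.mem_iInf,
    LinearMap.mem_ker] at ht1
  obtain ⟨w, hw, hmax⟩ := Finset.exists_max_image (Finset.univ.filter fun w => t w ≠ 0)
    (fun w => ∑ p, (w₀ p : ℤ) * (w p : ℤ)) (by
      obtain ⟨w, hw⟩ := Function.ne_iff.1 ht0
      exact ⟨w, by simpa using hw⟩)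
  have hw0 : t w ≠ 0 := (Finset.mem_filter.1 hw).2
  have hle : ∀ p, w p ≤ w₀ p := by
    by_contra hc
    push Not at hc
    obtain ⟨p, hp, hmin⟩ := Finset.exists_min_image (Finset.univ.filter fun p => w₀ p < w p) w₀
      (by obtain ⟨p, hp⟩ := hc; exact ⟨p, by simpa using hp⟩)
    have hp' : w₀ p < w p := (Finset.mem_filter.1 hp).2
    have h1 := congrFun (ht1.2 _ _ hp') (Function.update w p (w₀ p))
    rw [EE_apply, Finset.sum_congr rfl (g := fun q => if w₀ q = w₀ p then t w else 0),
      ← Finset.sum_filter, Finset.sum_const, Pi.zero_apply, smul_eq_zero,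
      Finset.card_eq_zero] at h1
    · refine hw0 (h1.resolve_left (Finset.ne_empty_of_mem (a := p) ?_))
      simp
    · intro q hq
      have hq' := (Finset.mem_filter.1 hq).2
      by_cases hqp : q = p
      · subst hqp
        simp
      rw [Function.update_of_ne hqp] at hq'
      have h2 : Function.update (Function.update w p (w₀ p)) q (w p) = w ∘ Equiv.swap p q := by
        rw [Equiv.comp_swap_eq_update, hq', Function.update_comm hqp]
      rw [h2]
      split_ifs with h3
      · refine congrFun (ht2 (Equiv.swap p q) ?_) w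
        change w₀ ∘ Equiv.swap p q = w₀
        funext x
        exact Equiv.apply_swap_eq_self h3.symm x
      · by_contra h4
        have h5 := hmax _ (Finset.mem_filter.2 ⟨Finset.mem_univ _, h4⟩)
        have h6 : w₀ p < w₀ q := by
          rcases lt_trichotomy (w₀ p) (w₀ q) with h6 | h6 | h6
          · exact h6
          · exact absurd h6.symm h3
          · exact absurd (hmin q (by simpa [hq'] using h6)) (not_le.2 h6)
        have h7 : q ∈ Finset.univ.erase p := by simpa using hqp
        rw [← Finset.add_sum_erase _ _ (Finset.mem_univ p), ← Finset.add_sum_erase _ _ h7,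
          ← Finset.add_sum_erase _ _ (Finset.mem_univ p), ← Finset.add_sum_erase _ _ h7,
          Finset.sum_congr rfl (g := fun x => (w₀ x : ℤ) * (w x : ℤ)) fun x hx => by
            rw [Function.comp_apply, Equiv.swap_apply_of_ne_of_ne
              (Finset.ne_of_mem_erase (Finset.mem_of_mem_erase hx))
              (Finset.ne_of_mem_erase hx)]] at h5
        simp only [Function.comp_apply, Equiv.swap_apply_left, Equiv.swap_apply_right, hq'] at h5
        have h8 : (w₀ p : ℤ) < w₀ q := by exact_mod_cast h6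
        have h9 : (w₀ p : ℤ) < w p := by exact_mod_cast hp'
        nlinarith [mul_pos (sub_pos.2 h8) (sub_pos.2 h9)]
  have hl : cont w = l := by
    by_contra h1
    exact hw0 (ht1.1 w h1)
  rw [← hl]
  by_contra hc
  obtain ⟨i, hi1, hi2⟩ := Finsupp.Lex.lt_iff.1 (not_le.1 hc)
  have h1 : ∑ k ∈ Finset.Iic i, cont w k < ∑ k ∈ Finset.Iic i, cont w₀ k := by
    refine Finset.sum_lt_sum (fun k hk => ?_) ⟨i, by simp, hi2⟩
    rcases (Finset.mem_Iic.1 hk).lt_or_eq with h2 | rfl
    · exact (hi1 k h2).le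
    · exact hi2.le
  simp only [cont_apply, Finset.sum_card_fiberwise_eq_card_filter] at h1
  refine absurd (Finset.card_le_card fun p hp => ?_) (not_le.2 h1)
  simp only [Finset.mem_filter, Finset.mem_univ, true_and, Finset.mem_Iic] at hp ⊢
  exact (hle p).trans hp

end Vale.Agent.P181
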