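import Vale.Agent.P181.Six.Orbit
import Vale.Agent.P181.Six.Tri

/-! Highest weight vectors in the polynomial model. -/

namespace Vale.Agent.P181

open MvPolynomial Module

namespace PolyModel

theorem cont_apply {Q : Type} [Fintype Q] (v : Q → Fin 6) (j : Fin 6) :
    cont v j = ∑ s, if v s = j then 1 else 0 := by
  simp only [cont, Finsupp.finsetSum_apply, Finsupp.single_apply]

theorem cont_update {Q : Type} [Fintype Q] [DecidableEq Q] (v : Q → Fin 6) (s : Q) (i : Fin 6) :
    cont (Function.update v s i) = cont v - Finsupp.single (v s) 1 + Finsupp.single i 1 := by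
  have h1 : cont v = Finsupp.single (v s) 1 + ∑ p ∈ Finset.univ.erase s, Finsupp.single (v p) 1 :=
    (Finset.add_sum_erase _ _ (Finset.mem_univ s)).symm
  have h2 : cont (Function.update v s i) = Finsupp.single (Function.update v s i s) 1 +
      ∑ p ∈ Finset.univ.erase s, Finsupp.single (Function.update v s i p) 1 :=
    (Finset.add_sum_erase _ _ (Finset.mem_univ s)).symm
  rw [h2, h1, add_tsub_cancel_left, Function.update_self, add_comm]
  congr 1
  exact Finset.sum_congr rfl fun p hp => by rw [Function.update_of_ne (Finset.ne_of_mem_erase hp)]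

variable {P : Type} [Fintype P] [DecidableEq P] {a m : ℕ} (κ : P ≃ Fin a × Fin m)

omit [Fintype P] [DecidableEq P] in
theorem mon_rowc (w : P → Fin 6) : (monomial (rowc κ w) 1 : MvPolynomial Wt ℂ) =
    ∏ r, X (cont fun s : Fin m => w (κ.symm (r, s))) := by
  rw [rowc, monomial_sum_one]
  rfl

theorem der_prod {A ι : Type} [CommRing A] [Algebra ℂ A] [DecidableEq ι] (D : Derivation ℂ A A)
    (s : Finset ι) (f : ι → A) : D (∏ i ∈ s, f i) = ∑ i ∈ s, (∏ j ∈ s.erase i, f j) • D (f i) := by
  induction s using Finset.induction_on with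
  | empty => simp
  | insert a s ha ih =>
    rw [Finset.prod_insert ha, Finset.sum_insert ha, Derivation.leibniz, ih,
      Finset.erase_insert ha, add_comm, Finset.smul_sum]
    congr 1
    refine Finset.sum_congr rfl fun i hi => ?_
    rw [Finset.erase_insert_of_ne (by rintro rfl; exact ha hi),
      Finset.prod_insert fun h => ha (Finset.mem_of_mem_erase h), mul_smul]

theorem DD_mon (i j : Fin 6) (w : P → Fin 6) : DD i j (monomial (rowc κ w) 1) =
    ∑ p, if w p = j then monomial (rowc κ (Function.update w p i)) 1 else 0 := by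
  rw [mon_rowc, der_prod, ← κ.symm.sum_comp, Fintype.sum_prod_type]
  refine Finset.sum_congr rfl fun r _ => ?_
  rw [DD, mkDerivation_X, cont_apply]
  push_cast
  rw [Finset.sum_smul, Finset.smul_sum]
  refine Finset.sum_congr rfl fun s _ => ?_
  split_ifs with h
  · rw [one_smul, mon_rowc, ← Finset.mul_prod_erase _ _ (Finset.mem_univ r), smul_eq_mul,
      mul_comm]
    have e : (fun s' : Fin m => Function.update w (κ.symm (r, s)) i (κ.symm (r, s'))) =
        Function.update (fun s' : Fin m => w (κ.symm (r, s'))) s i := by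
      funext s'
      by_cases hs : s' = s
      · subst hs
        simp
      · rw [Function.update_of_ne hs, Function.update_of_ne (by simpa using hs)]
    rw [e, cont_update, h]
    congr 1
    refine Finset.prod_congr rfl fun r' hr' => ?_
    congr 2
    funext s'
    rw [Function.update_of_ne (by simpa using fun h => absurd h (Finset.ne_of_mem_erase hr'))]
  · rw [zero_smul, smul_zero]

/-- from functions on words to polynomials -/
noncomputable def Pm : XX P →ₗ[ℂ] MvPolynomial Wt ℂ :=
  ∑ w : P → Fin 6, monomial (rowc κ w) ∘ₗ LinearMap.proj w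

theorem Pm_apply (f : XX P) : Pm κ f = ∑ w, monomial (rowc κ w) (f w) := by
  simp [Pm, LinearMap.sum_apply]

theorem Pm_EE (i j : Fin 6) (f : XX P) : Pm κ (EE P i j f) = DD i j (Pm κ f) := by
  have h1 : DD i j (Pm κ f) = ∑ x ∈ Finset.univ.filter fun x : (P → Fin 6) × P => x.1 x.2 = j,
      monomial (rowc κ (Function.update x.1 x.2 i)) (f x.1) := by
    rw [Pm_apply, map_sum, Finset.sum_filter, Fintype.sum_prod_type]
    refine Finset.sum_congr rfl fun w _ => ?_
    have e : (monomial (rowc κ w) (f w) : MvPolynomial Wt ℂ) = f w • monomial (rowc κ w) 1 := by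
      rw [smul_monomial, smul_eq_mul, mul_one]
    rw [e, Derivation.map_smul, DD_mon, Finset.smul_sum]
    refine Finset.sum_congr rfl fun p _ => ?_
    split_ifs
    · rw [smul_monomial, smul_eq_mul, mul_one]
    · rw [smul_zero]
  have h2 : Pm κ (EE P i j f) = ∑ x ∈ Finset.univ.filter fun x : (P → Fin 6) × P => x.1 x.2 = i,
      monomial (rowc κ x.1) (f (Function.update x.1 x.2 j)) := by
    rw [Pm_apply, Finset.sum_filter, Fintype.sum_prod_type]
    refine Finset.sum_congr rfl fun w _ => ?_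
    change monomial _ (∑ p ∈ Finset.univ.filter fun p => w p = i, f (Function.update w p j)) = _
    rw [map_sum, Finset.sum_filter]
  rw [h1, h2]
  refine Finset.sum_nbij' (fun x => (Function.update x.1 x.2 j, x.2))
    (fun x => (Function.update x.1 x.2 i, x.2)) (by simp) (by simp) ?_ ?_ ?_
  · intro x hx
    simp only [Finset.mem_filter, Finset.mem_univ, true_and] at hx
    simp [← hx]
  · intro x hx
    simp only [Finset.mem_filter, Finset.mem_univ, true_and] at hx
    simp [← hx]
  · intro x hx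
    simp only [Finset.mem_filter, Finset.mem_univ, true_and] at hx
    simp [← hx]

theorem coeff_Pm (f : XX P) (c : Wt →₀ ℕ) :
    coeff c (Pm κ f) = ∑ w ∈ Finset.univ.filter fun w => rowc κ w = c, f w := by
  rw [Pm_apply, coeff_sum, Finset.sum_filter]
  simp only [coeff_monomial]

theorem Pm_inj {f : XX P} (hf : f ∈ Inv (rho P) (wr κ)) (h : Pm κ f = 0) : f = 0 := by
  funext w0
  have h1 := coeff_Pm κ f (rowc κ w0)
  rw [h, coeff_zero, Finset.sum_congr rfl (g := fun _ => f w0), Finset.sum_const,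
    nsmul_eq_mul] at h1
  · refine (mul_eq_zero.1 h1.symm).resolve_left (Nat.cast_ne_zero.2 (Finset.card_ne_zero.2 ?_))
    exact ⟨w0, by simp⟩
  · intro w hw
    obtain ⟨g, hg, rfl⟩ := (rowc_eq_iff κ w0 w).1 (Finset.mem_filter.1 hw).2.symm
    exact congrFun (hf g hg) w0

theorem mem_TT {l : Wt} {f : XX P} : f ∈ TT P l ↔
    (∀ w, cont w ≠ l → f w = 0) ∧ ∀ i j, i < j → EE P i j f = 0 := by
  simp only [TT, Submodule.mem_inf, Submodule.mem_iInf, LinearMap.mem_ker]
  rfl

theorem mem_monSet {a m : ℕ} {l : Wt} {c : Wt →₀ ℕ} : c ∈ monSet a m l ↔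
    (c.sum fun _ n => n) = a ∧ (∀ β ∈ c.support, ∑ i, β i = m) ∧ wt c = l := by
  rw [monSet, Finset.mem_filter, Finset.mem_finsuppAntidiag', and_assoc]
  simp only [Finset.subset_iff, mem_mons]

theorem mem_HW {a m : ℕ} {l : Wt} {p : MvPolynomial Wt ℂ} : p ∈ HW a m l ↔
    (∀ c ∈ p.support, (c.sum fun _ n => n) = a ∧ (∀ β ∈ c.support, ∑ i, β i = m) ∧ wt c = l) ∧
      ∀ i j, i < j → DD i j p = 0 := by
  simp only [HW, WS, Submodule.mem_inf, Submodule.mem_iInf, LinearMap.mem_ker,
    mem_restrictSupport_iff, Finset.coe_subset, Finset.subset_iff, mem_monSet]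
  rfl

theorem mem_rowc {l : Wt} {c : Wt →₀ ℕ} :
    ((c.sum fun _ n => n) = a ∧ (∀ β ∈ c.support, ∑ i, β i = m) ∧ wt c = l) ↔
      ∃ w, cont w = l ∧ rowc κ w = c := by
  rw [← mem_monSet, ← image_rowc κ]
  simp only [Finset.mem_image, Finset.mem_filter, Finset.mem_univ, true_and]

instance (a m : ℕ) (l : Wt) : Module.Finite ℂ (WS a m l) :=
  Module.Finite.of_basis (basisRestrictSupport ℂ (monSet a m l : Set (Wt →₀ ℕ)))

instance (a m : ℕ) (l : Wt) : Module.Finite ℂ (HW a m l) :=
  Submodule.finiteDimensional_inf_left _ _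

theorem wt_add (c d : Wt →₀ ℕ) : wt (c + d) = wt c + wt d :=
  Finsupp.sum_add_index' (fun _ => zero_smul _ _) fun _ _ _ => add_smul _ _ _

theorem algHom_der {σ : Type*} (φ : MvPolynomial σ ℂ →ₐ[ℂ] MvPolynomial σ ℂ)
    (D : Derivation ℂ (MvPolynomial σ ℂ) (MvPolynomial σ ℂ))
    (h : ∀ r, φ (D (X r)) = D (φ (X r))) (G : MvPolynomial σ ℂ) : φ (D G) = D (φ G) := by
  induction G using MvPolynomial.induction_on with
  | C c =>
    have : φ (C c) = C c := φ.commutes c
    rw [this, derivation_C, map_zero]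
  | add p q hp hq => simp only [map_add, hp, hq]
  | mul_X p s hp =>
    simp only [Derivation.leibniz, smul_eq_mul, map_add, map_mul, hp, h]

end PolyModel

open PolyModel

theorem finrank_TT_wr {P : Type} [Fintype P] [DecidableEq P] {a m : ℕ} (κ : P ≃ Fin a × Fin m)
    (l : Wt) : finrank ℂ ↥(TT P l ⊓ Inv (rho P) (wr κ)) = finrank ℂ (HW a m l) := by
  have h1 : ∀ f ∈ TT P l ⊓ Inv (rho P) (wr κ), Pm κ f ∈ HW a m l := by
    intro f hf
    obtain ⟨h2, h3⟩ := mem_TT.1 hf.1
    refine mem_HW.2 ⟨fun c hc => ?_, fun i j hij => by rw [← Pm_EE, h3 i j hij, map_zero]⟩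
    rw [MvPolynomial.mem_support_iff, coeff_Pm] at hc
    obtain ⟨w, hw, hw'⟩ := Finset.exists_ne_zero_of_sum_ne_zero hc
    refine (mem_rowc κ).2 ⟨w, ?_, (Finset.mem_filter.1 hw).2⟩
    by_contra h
    exact hw' (h2 w h)
  refine (LinearEquiv.ofBijective ((Pm κ).restrict h1) ⟨?_, ?_⟩).finrank_eq
  · rw [injective_iff_map_eq_zero]
    intro f hf
    exact Subtype.ext (Pm_inj κ f.2.2 (congrArg Subtype.val hf))
  · rintro ⟨p, hp⟩
    obtain ⟨h2, h3⟩ := mem_HW.1 hp
    let f : XX P := fun w => coeff (rowc κ w) p /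
      ((Finset.univ.filter fun w' => rowc κ w' = rowc κ w).card : ℂ)
    have a1 : f ∈ Inv (rho P) (wr κ) := fun g hg => funext fun w => by
      have := (rowc_eq_iff κ w (w ∘ g)).2 ⟨g, hg, rfl⟩
      simp only [rho_apply, f, ← this]
    have a2 : Pm κ f = p := by
      ext c
      rw [coeff_Pm, Finset.sum_congr rfl (g := fun _ => coeff c p /
        ((Finset.univ.filter fun w' => rowc κ w' = c).card : ℂ))
        (fun w hw => by simp only [f, (Finset.mem_filter.1 hw).2]), Finset.sum_const, nsmul_eq_mul]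
      by_cases hc : coeff c p = 0
      · rw [hc, zero_div, mul_zero]
      · obtain ⟨w, -, hw⟩ := (mem_rowc κ).1 (h2 c (MvPolynomial.mem_support_iff.2 hc))
        exact mul_div_cancel₀ _ (Nat.cast_ne_zero.2 (Finset.card_ne_zero.2 ⟨w, by simpa using hw⟩))
    refine ⟨⟨f, mem_TT.2 ⟨fun w hw => ?_, fun i j hij => ?_⟩, a1⟩, Subtype.ext a2⟩
    · have : coeff (rowc κ w) p = 0 := by
        by_contra h
        exact hw (((mem_rowc κ).2 ⟨w, rfl, rfl⟩).2.2.symm.trans
          (h2 _ (MvPolynomial.mem_support_iff.2 h)).2.2)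
      simp only [f, this, zero_div]
    · refine Pm_inj κ (fun g hg => ?_) (by rw [Pm_EE, a2, h3 i j hij])
      have := EE_comm i j (MonoidAlgebra.of ℂ _ g) f
      rw [Representation.asAlgebraHom_of, a1 g hg] at this
      exact this.symm

theorem hw_semigroup {a d m : ℕ} {l μ : Wt} (h : 0 < finrank ℂ (HW d m μ)) :
    finrank ℂ (HW a m l) ≤ finrank ℂ (HW (a + d) m (l + μ)) := by
  obtain ⟨g, hg⟩ := Module.finrank_pos_iff_exists_ne_zero.1 h
  have hg0 : (g : MvPolynomial Wt ℂ) ≠ 0 := fun h => hg (Subtype.ext h)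
  obtain ⟨g1, g2⟩ := mem_HW.1 g.2
  have h1 : ∀ p ∈ HW a m l, LinearMap.mulRight ℂ (g : MvPolynomial Wt ℂ) p ∈
      HW (a + d) m (l + μ) := by
    intro p hp
    obtain ⟨p1, p2⟩ := mem_HW.1 hp
    rw [LinearMap.mulRight_apply]
    refine mem_HW.2 ⟨fun c hc => ?_, fun i j hij => ?_⟩
    · obtain ⟨c1, hc1, c2, hc2, e⟩ := Finset.mem_add.1 (support_mul _ _ hc)
      rw [← e]
      obtain ⟨a1, a2, a3⟩ := p1 c1 hc1
      obtain ⟨b1, b2, b3⟩ := g1 c2 hc2
      refine ⟨?_, fun β hβ => ?_, by rw [wt_add, a3, b3]⟩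
      · rw [Finsupp.sum_add_index' (fun _ => rfl) fun _ _ _ => rfl, a1, b1]
      · exact (Finset.mem_union.1 (Finsupp.support_add hβ)).elim (a2 β) (b2 β)
    · rw [Derivation.leibniz, p2 i j hij, g2 i j hij, smul_zero, smul_zero, add_zero]
  refine LinearMap.finrank_le_finrank_of_injective
    (f := (LinearMap.mulRight ℂ (g : MvPolynomial Wt ℂ)).restrict h1) fun p q hpq => ?_
  exact Subtype.ext (mul_right_cancel₀ hg0 (congrArg Subtype.val hpq))

theorem hw_mono (a m : ℕ) (l : Wt) :
    finrank ℂ (HW a m l) ≤ finrank ℂ (HW a (m + 1) (l + Finsupp.single 0 a)) := by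
  let s : Wt → Wt := fun β => β + Finsupp.single 0 1
  have hs : Function.Injective s := add_left_injective _
  have h1 : ∀ p ∈ HW a m l, (rename s : MvPolynomial Wt ℂ →ₐ[ℂ] _).toLinearMap p ∈
      HW a (m + 1) (l + Finsupp.single 0 a) := by
    intro p hp
    obtain ⟨p1, p2⟩ := mem_HW.1 hp
    rw [AlgHom.toLinearMap_apply]
    refine mem_HW.2 ⟨fun c hc => ?_, fun i j hij => ?_⟩
    · rw [support_rename_of_injective hs] at hc
      obtain ⟨c, hc', e⟩ := Finset.mem_image.1 hc
      rw [← e]
      obtain ⟨a1, a2, a3⟩ := p1 c hc'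
      refine ⟨?_, fun β hβ => ?_, ?_⟩
      · rw [Finsupp.sum_mapDomain_index (fun _ => rfl) fun _ _ _ => rfl, a1]
      · obtain ⟨β, hβ', rfl⟩ := Finset.mem_image.1 (Finsupp.mapDomain_support hβ)
        simp only [s, Finsupp.add_apply, Finset.sum_add_distrib, a2 β hβ', Finsupp.single_apply,
          Finset.sum_ite_eq, Finset.mem_univ, if_true]
      · rw [wt, Finsupp.sum_mapDomain_index (h := fun (β : Wt) (n : ℕ) => n • β)
          (fun _ => zero_smul _ _) fun _ _ _ => add_smul _ _ _, ← a3, ← a1, wt]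
        simp only [s, smul_add, Finsupp.sum, Finset.sum_add_distrib, ← Finset.sum_smul]
        rw [Finsupp.smul_single, smul_eq_mul, mul_one]
    · rw [← algHom_der (rename s) (DD i j) fun β => ?_, p2 i j hij, map_zero]
      have hj : (0 : Fin 6) ≠ j := (lt_of_le_of_lt (Fin.zero_le i) hij).ne
      rw [rename_X, DD, mkDerivation_X, mkDerivation_X, map_smul, rename_X]
      have e1 : s β j = β j := by simp [s, hj]
      rw [e1]
      congr 2
      ext k
      simp only [s, Finsupp.add_apply, Finsupp.tsub_apply, Finsupp.single_apply]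
      by_cases h0 : (0 : Fin 6) = k
      · rw [if_neg (h0 ▸ hj.symm : ¬ j = k)]
        omega
      · rw [if_neg h0]
        omega
  refine LinearMap.finrank_le_finrank_of_injective (f := LinearMap.restrict _ h1) fun p q hpq => ?_
  exact Subtype.ext (rename_injective s hs (congrArg Subtype.val hpq))

end Vale.Agent.P181
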