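import Vale.Agent.P181.Six.Newton

/-! The stable multiplicity as a sum of determinants. -/

namespace Vale.Agent.P181

open MvPolynomial

namespace Stable

open Newton

/-- `1 / (1 - x^k)` -/
noncomputable def Ek (k : ℕ) : PowerSeries ℤ :=
  PowerSeries.mk fun n => if k ∣ n then (1 : ℤ) else 0

/-- `1 / ∏_{k ∈ ρ} (1 - x^k)` -/
noncomputable def Psi (ρ : List ℕ) : PowerSeries ℤ := (ρ.map Ek).prod

/-- its coefficients, extended by zero -/
noncomputable def psiZ (ρ : List ℕ) (n : ℤ) : ℤ :=
  if 0 ≤ n then PowerSeries.coeff n.toNat (Psi ρ) else 0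

theorem phiZ_eq (ρ : List ℕ) (n : ℤ) : phiZ ρ n = psiZ ρ n - psiZ ρ (n - 1) := by
  have e : phiS ρ = Psi ρ - PowerSeries.X * Psi ρ := by
    rw [← one_sub_mul]
    rfl
  unfold phiZ psiZ
  rw [e]
  by_cases h : 0 ≤ n
  · obtain ⟨k, rfl⟩ := Int.eq_ofNat_of_zero_le h
    rw [if_pos h, if_pos h, map_sub, Int.toNat_natCast]
    congr 1
    rcases k with _ | k
    · simp
    · rw [PowerSeries.coeff_succ_X_mul, if_pos (by push_cast; omega)]
      congr 2
      push_cast
      omega
  · rw [if_neg h, if_neg h, if_neg (by omega), sub_zero]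

theorem coeff_Ek_mul {k : ℕ} (hk : 1 ≤ k) {n M : ℕ} (hn : n ≤ M) (F : PowerSeries ℤ) :
    PowerSeries.coeff n (Ek k * F) = ∑ b ∈ Finset.range (M + 1),
      if k * b ≤ n then PowerSeries.coeff (n - k * b) F else 0 := by
  rw [PowerSeries.coeff_mul, Finset.Nat.sum_antidiagonal_eq_sum_range_succ_mk, ← Finset.sum_filter]
  symm
  refine Finset.sum_of_injOn (fun b => k * b) ?_ ?_ ?_ ?_
  · intro b _ b' _ h
    exact Nat.eq_of_mul_eq_mul_left hk h
  · intro b hb
    simp only [Finset.coe_filter, Finset.mem_range, Set.mem_ofPred_eq] at hb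
    simp only [Finset.coe_range, Set.mem_Iio]
    omega
  · intro i hi hni
    have hd : ¬ k ∣ i := by
      rintro ⟨b, rfl⟩
      apply hni
      rw [Finset.mem_range] at hi
      refine ⟨b, ?_, rfl⟩
      simp only [Finset.coe_filter, Finset.mem_range, Set.mem_ofPred_eq]
      have : b ≤ k * b := Nat.le_mul_of_pos_left b hk
      omega
    simp [Ek, hd]
  · intro b _
    simp [Ek]

theorem coeff_prod_ph (m : ℕ) (ρ : List ℕ) (hρ : ∀ k ∈ ρ, 1 ≤ k) (α : Wt)
    (hα : ∑ i, α i = ρ.sum * m) (hm : ∑ i : Fin 5, α i.succ ≤ m) :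
    coeff α (ρ.map fun k => ph k m).prod =
      ∏ i : Fin 5, PowerSeries.coeff (α i.succ) (Psi ρ) := by
  induction ρ generalizing α with
  | nil =>
    have h0 : α = 0 := by
      ext i
      have := Finset.single_le_sum (f := fun i => α i) (fun _ _ => Nat.zero_le _)
        (Finset.mem_univ i)
      simp only [List.sum_nil, zero_mul] at hα
      simp only [Finsupp.coe_zero, Pi.zero_apply]
      omega
    subst h0
    simp [Psi]
  | cons k ρ ih =>
    have hk : 1 ≤ k := hρ k List.mem_cons_self
    have hρ' : ∀ j ∈ ρ, 1 ≤ j := fun j hj => hρ j (List.mem_cons_of_mem _ hj)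
    have hαi : ∀ i : Fin 5, α i.succ ≤ m := fun i =>
      (Finset.single_le_sum (f := fun i : Fin 5 => α i.succ) (fun _ _ => Nat.zero_le _)
        (Finset.mem_univ i)).trans hm
    have hP : Psi (k :: ρ) = Ek k * Psi ρ := by
      unfold Psi
      rw [List.map_cons, List.prod_cons]
    rw [List.map_cons, List.prod_cons, hP,
      Finset.prod_congr rfl fun i _ => coeff_Ek_mul hk (hαi i) (Psi ρ), Finset.prod_univ_sum,
      ph, Finset.sum_mul, coeff_sum]
    rw [List.sum_cons, Fin.sum_univ_succ] at hα
    refine Finset.sum_of_injOn (fun (b : Wt) (i : Fin 5) => b i.succ) ?_ ?_ ?_ ?_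
    · intro b hb b' hb' h
      have e := mem_mons.1 (Finset.mem_coe.1 hb)
      have e' := mem_mons.1 (Finset.mem_coe.1 hb')
      rw [Fin.sum_univ_succ] at e e'
      have h' : ∀ i : Fin 5, b i.succ = b' i.succ := fun i => congrFun h i
      rw [Finset.sum_congr rfl fun i _ => h' i] at e
      ext i
      refine Fin.cases ?_ h' i
      omega
    · intro b hb
      have e := mem_mons.1 (Finset.mem_coe.1 hb)
      rw [Finset.mem_coe, Fintype.mem_piFinset]
      intro i
      rw [Finset.mem_range, Nat.lt_succ_iff, ← e]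
      exact Finset.single_le_sum (f := fun i => b i) (fun _ _ => Nat.zero_le _)
        (Finset.mem_univ i.succ)
    · intro c _ hc
      by_contra hne
      apply hc
      have hle : ∀ i : Fin 5, k * c i ≤ α i.succ := by
        intro i
        by_contra hi
        exact hne (Finset.prod_eq_zero (Finset.mem_univ i) (if_neg hi))
      have hs : ∑ i, c i ≤ m := by
        refine le_trans (Finset.sum_le_sum fun i _ => ?_) hm
        exact (Nat.le_mul_of_pos_left _ hk).trans (hle i)
      refine ⟨Finsupp.equivFunOnFinite.symm (Fin.cons (m - ∑ i, c i) c : Fin 6 → ℕ), ?_, ?_⟩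
      · rw [Finset.mem_coe, mem_mons, Fin.sum_univ_succ]
        simp only [Finsupp.equivFunOnFinite_symm_apply_apply, Fin.cons_zero, Fin.cons_succ]
        omega
      · funext i
        simp
    · intro b hb
      have e := mem_mons.1 hb
      rw [Fin.sum_univ_succ] at e
      rw [coeff_monomial_mul', one_mul]
      by_cases hle : k • b ≤ α
      · have hle' : ∀ i, k * b i ≤ α i := fun i => hle i
        have hsub : ∀ i, (α - k • b) i = α i - k * b i := fun i => rfl
        rw [if_pos hle, ih hρ' (α - k • b)]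
        · refine Finset.prod_congr rfl fun i _ => ?_
          rw [if_pos (hle' _), hsub]
        · simp only [hsub]
          rw [Finset.sum_tsub_distrib _ fun i _ => hle' i, ← Finset.mul_sum, mem_mons.1 hb,
            Fin.sum_univ_succ, hα, add_mul, Nat.add_sub_cancel_left]
        · refine le_trans (Finset.sum_le_sum fun i _ => ?_) hm
          rw [hsub]
          exact Nat.sub_le _ _
      · rw [if_neg hle]
        symm
        by_contra hne
        apply hle
        have hle' : ∀ i : Fin 5, k * b i.succ ≤ α i.succ := by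
          intro i
          by_contra hi
          exact hne (Finset.prod_eq_zero (Finset.mem_univ i) (if_neg hi))
        intro i
        change k * b i ≤ α i
        refine Fin.cases ?_ hle' i
        have h1 : k * b 0 + k * ∑ i : Fin 5, b i.succ = k * m := by rw [← mul_add, e]
        rw [add_mul] at hα
        rcases ρ with _ | ⟨j, ρ⟩
        · have h2 : ∀ i : Fin 5, α i.succ = k * b i.succ := by
            intro i
            by_contra hi
            refine hne (Finset.prod_eq_zero (Finset.mem_univ i) ?_)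
            have := hle' i
            rw [if_pos this]
            simp only [Psi, List.map_nil, List.prod_nil]
            rw [PowerSeries.coeff_one, if_neg (by omega)]
          rw [Finset.sum_congr rfl fun i _ => h2 i, ← Finset.mul_sum] at hα
          omega
        · have hj : 1 ≤ j := hρ' j List.mem_cons_self
          have h2 : m ≤ (j :: ρ).sum * m := by
            refine Nat.le_mul_of_pos_left _ ?_
            rw [List.sum_cons]
            omega
          omega

theorem coeff_altn_prod_ph (m : ℕ) (ρ : List ℕ) (hρ : ∀ k ∈ ρ, 1 ≤ k) (h6 : ρ.sum = 6) (ν : Wt)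
    (hν : ∑ i, ν i = 6 * m + 15) (hm : ∑ i : Fin 5, ν i.succ ≤ m) :
    coeff ν (altn dl * (ρ.map fun k => ph k m).prod) =
      (Matrix.of fun i j : Fin 5 => phiZ ρ ((ν i.succ : ℤ) - (4 - (j : ℕ) : ℤ))).det := by
  let M : Matrix (Fin 6) (Fin 6) ℤ := Matrix.of fun i j =>
    (Fin.cons 1 fun i : Fin 5 => psiZ ρ ((ν i.succ : ℤ) - (5 - (j : ℕ) : ℤ)) : Fin 6 → ℤ) i
  have M0 : ∀ j, M 0 j = 1 := fun j => rfl
  have MS : ∀ (i : Fin 5) (j : Fin 6),
      M i.succ j = psiZ ρ ((ν i.succ : ℤ) - (5 - (j : ℕ) : ℤ)) := fun i j => rfl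
  let B : Matrix (Fin 6) (Fin 6) ℤ := Matrix.of fun i j =>
    (Fin.cons (M i 0) fun j : Fin 5 => M i j.succ - M i j.castSucc : Fin 6 → ℤ) j
  have B0 : ∀ i, B i 0 = M i 0 := fun i => rfl
  have BS : ∀ i (j : Fin 5), B i j.succ = M i j.succ - M i j.castSucc := fun i j => rfl
  have hMB : M.det = B.det :=
    Matrix.det_eq_of_forall_col_eq_smul_add_pred (fun _ => 1) (fun i => (B0 i).symm)
      (fun i j => by rw [BS]; ring)
  have hB : B.det =
      (Matrix.of fun i j : Fin 5 => phiZ ρ ((ν i.succ : ℤ) - (4 - (j : ℕ) : ℤ))).det := by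
    rw [Matrix.det_succ_row_zero, Fin.sum_univ_succ, Finset.sum_eq_zero, add_zero, B0, M0]
    · simp only [Fin.val_zero, pow_zero, mul_one, one_mul, Fin.succAbove_zero]
      congr 1
      ext i j
      rw [Matrix.submatrix_apply, BS, MS, MS, Matrix.of_apply, phiZ_eq]
      congr 2
      · simp only [Fin.val_succ]
        push_cast
        ring
      · simp only [Fin.val_castSucc]
        ring
    · intro j _
      rw [BS, M0, M0, sub_self, mul_zero, zero_mul]
  rw [← hB, ← hMB, coeff_altn_mul, Matrix.det_apply']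
  refine Finset.sum_congr rfl fun w _ => ?_
  rw [Int.cast_id]
  congr 1
  have hw : ∀ i, (dl.mapDomain w) i = 5 - (w.symm i : ℕ) := fun i => by
    rw [Finsupp.mapDomain_equiv_apply, dl_apply]
  rw [← Equiv.prod_comp w.symm]
  simp only [Equiv.apply_symm_apply]
  rw [Fin.prod_univ_succ, M0, one_mul]
  simp only [MS]
  by_cases hle : dl.mapDomain w ≤ ν
  · have hle' : ∀ i, (dl.mapDomain w) i ≤ ν i := fun i => hle i
    have hsub : ∀ i, (ν - dl.mapDomain w) i = ν i - (dl.mapDomain w) i := fun i => rfl
    rw [if_pos hle, coeff_prod_ph m ρ hρ]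
    · refine Finset.prod_congr rfl fun i _ => ?_
      have h1 := hle' i.succ
      have h2 := (w.symm i.succ).isLt
      rw [hsub]
      rw [hw] at h1 ⊢
      unfold psiZ
      rw [if_pos (by omega)]
      congr 2
      omega
    · simp only [hsub]
      rw [Finset.sum_tsub_distrib _ fun i _ => hle' i, sum_mapDomain, sum_dl, hν, h6,
        Nat.add_sub_cancel]
    · refine le_trans (Finset.sum_le_sum fun i _ => ?_) hm
      rw [hsub]
      exact Nat.sub_le _ _
  · rw [if_neg hle]
    symm
    by_contra hne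
    apply hle
    intro i
    change (dl.mapDomain w) i ≤ ν i
    rw [hw]
    refine Fin.cases ?_ (fun i => ?_) i
    · rw [Fin.sum_univ_succ] at hν
      omega
    · by_contra hi
      refine hne (Finset.prod_eq_zero (Finset.mem_univ i) ?_)
      unfold psiZ
      have h2 := (w.symm i.succ).isLt
      rw [if_neg (by omega)]

theorem coeff_list_sum (ν : Wt) (A : MvPolynomial (Fin 6) ℤ) {ι : Type*} (L : List ι)
    (c : ι → ℤ) (f : ι → MvPolynomial (Fin 6) ℤ) :
    coeff ν (A * (L.map fun x => C (c x) * f x).sum) =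
      (L.map fun x => c x * coeff ν (A * f x)).sum := by
  induction L with
  | nil => simp
  | cons x L ih =>
    rw [List.map_cons, List.map_cons, List.sum_cons, List.sum_cons, mul_add, coeff_add, ih,
      mul_left_comm, coeff_C_mul]

theorem cyc_spec : ∀ c ∈ cyc, (∀ k ∈ c.2, 1 ≤ k) ∧ c.2.sum = 6 := by decide

end Stable

open Stable

theorem agf_six_stable (m : ℕ) (ν : Wt) (hν : ∑ i, ν i = 6 * m + 15)
    (hm : ∑ i : Fin 5, ν i.succ ≤ m) :
    720 * coeff ν (agf 6 m) = U720 fun i => ν i.succ := by
  have e : 720 * coeff ν (agf 6 m) = coeff ν (altn dl * (720 * gf 6 m)) := by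
    rw [mul_left_comm, agf, ← coeff_C_mul]
    rfl
  rw [e, gf_six, coeff_list_sum, U720]
  congr 1
  refine List.map_congr_left fun c hc => ?_
  rw [coeff_altn_prod_ph m c.2 (cyc_spec c hc).1 (cyc_spec c hc).2 ν hν hm]

end Vale.Agent.P181
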