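import Vale.Agent.P181.Six.Blocks

/-! From the group algebra of the symmetric group to equivariant injections. -/

namespace Vale.Agent.P181

namespace Transfer

open Module

variable {P : Type} [Fintype P] [DecidableEq P] (V : Type*) [AddCommGroup V] [Module ℂ V]

/-- the tensor power indexed by `P` -/
abbrev TP (P : Type) (V : Type*) [AddCommGroup V] [Module ℂ V] :=
  PiTensorProduct ℂ (fun _ : P => V)

variable (P) in
/-- permuting the tensor positions -/
noncomputable def rhoT : Representation ℂ (Equiv.Perm P) (TP P V) where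
  toFun g := PiTensorProduct.lift ((PiTensorProduct.tprod ℂ).domDomCongr g.symm)
  map_one' := by
    ext v
    simp [Equiv.Perm.one_def]
  map_mul' g h := by
    ext v
    simp [Equiv.Perm.mul_def]

variable {V}

omit [Fintype P] [DecidableEq P] in
theorem rhoT_tprod (g : Equiv.Perm P) (v : P → V) :
    rhoT P V g (PiTensorProduct.tprod ℂ v) = PiTensorProduct.tprod ℂ fun p => v (g.symm p) := by
  simp [rhoT]

omit [Fintype P] [DecidableEq P] in
theorem map_rhoT (f : V →ₗ[ℂ] V) (g : Equiv.Perm P) (t : TP P V) :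
    PiTensorProduct.map (fun _ => f) (rhoT P V g t) =
      rhoT P V g (PiTensorProduct.map (fun _ => f) t) := by
  have : PiTensorProduct.map (fun _ : P => f) ∘ₗ rhoT P V g =
      rhoT P V g ∘ₗ PiTensorProduct.map (fun _ => f) := by
    ext v
    simp [rhoT_tprod]
  exact LinearMap.congr_fun this t

omit [Fintype P] [DecidableEq P] in
theorem map_alg (f : V →ₗ[ℂ] V) (u : MonoidAlgebra ℂ (Equiv.Perm P)) (t : TP P V) :
    PiTensorProduct.map (fun _ => f) ((rhoT P V).asAlgebraHom u t) =
      (rhoT P V).asAlgebraHom u (PiTensorProduct.map (fun _ => f) t) := by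
  induction u using MonoidAlgebra.induction_on with
  | of g => simp only [Representation.asAlgebraHom_of, map_rhoT]
  | add x y hx hy => simp only [map_add, LinearMap.add_apply, hx, hy]
  | smul c x hx => simp only [map_smul, LinearMap.smul_apply, hx]

variable {a m : ℕ} (κ : P ≃ Fin a × Fin m)

variable (V) in
/-- the projection of the tensor power to the iterated symmetric power -/
noncomputable def proj : TP P V →ₗ[ℂ] SymmetricPower ℂ (Fin a) (SymmetricPower ℂ (Fin m) V) :=
  PiTensorProduct.lift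
    (((SymmetricPower.tprod ℂ (ι := Fin a) (M := SymmetricPower ℂ (Fin m) V)).compMultilinearMap
      fun _ => SymmetricPower.tprod ℂ (ι := Fin m) (M := V)).domDomCongr
        ((Equiv.sigmaEquivProd (Fin a) (Fin m)).trans κ.symm))

omit [Fintype P] [DecidableEq P] in
theorem proj_tprod (v : P → V) :
    proj V κ (PiTensorProduct.tprod ℂ v) = dprod fun i j => v (κ.symm (i, j)) := by
  rw [proj, PiTensorProduct.lift.tprod]
  rfl

theorem span_tprod' {W γ : Type*} [AddCommGroup W] [Module ℂ W] (n : ℕ) (g : γ → W)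
    (hg : Submodule.span ℂ (Set.range g) = ⊤) :
    Submodule.span ℂ (Set.range fun c : Fin n → γ =>
      (SymmetricPower.tprod ℂ fun j => g (c j) : SymmetricPower ℂ (Fin n) W)) = ⊤ := by
  have h := PiTensorProduct.submodule_span_eq_top (R := ℂ) (M := fun _ : Fin n => W)
    (γ := fun _ => γ) (g := fun _ j => g j) (fun _ => hg)
  have h2 := congrArg (Submodule.map (SymmetricPower.mk ℂ (Fin n) W)) h
  rw [Submodule.map_top, SymmetricPower.range_mk, Submodule.map_span, ← Set.range_comp] at h2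
  exact h2

omit [Fintype P] [DecidableEq P] in
theorem proj_surj : Function.Surjective (proj V κ) := by
  rw [← LinearMap.range_eq_top, eq_top_iff,
    ← span_tprod' a _ (SymmetricPower.span_tprod_eq_top ℂ (Fin m) V), Submodule.span_le]
  rintro _ ⟨f, rfl⟩
  refine ⟨PiTensorProduct.tprod ℂ fun p => f (κ p).1 (κ p).2, ?_⟩
  rw [proj_tprod]
  simp [dprod]

omit [Fintype P] [DecidableEq P] in
theorem proj_map (g : V ≃ₗ[ℂ] V) (t : TP P V) :
    proj V κ (PiTensorProduct.map (fun _ => (g : V →ₗ[ℂ] V)) t) = glAct a m g (proj V κ t) := by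
  have : proj V κ ∘ₗ PiTensorProduct.map (fun _ : P => (g : V →ₗ[ℂ] V)) =
      symMap a (symMap m (g : V →ₗ[ℂ] V)) ∘ₗ proj V κ := by
    ext v
    simp [proj_tprod, dprod, symMap_tprod]
  exact LinearMap.congr_fun this t

omit [Fintype P] [DecidableEq P] in
theorem proj_rhoT {h : Equiv.Perm P} (hh : h ∈ wr κ) (t : TP P V) :
    proj V κ (rhoT P V h t) = proj V κ t := by
  have : proj V κ ∘ₗ rhoT P V h = proj V κ := by
    ext v
    obtain ⟨π, τ, hπ⟩ := (wr κ).inv_mem hh
    simp only [LinearMap.compMultilinearMap_apply, LinearMap.comp_apply, rhoT_tprod, proj_tprod,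
      dprod]
    rw [← SymmetricPower.tprod_equiv π fun i => SymmetricPower.tprod ℂ fun j => v (κ.symm (i, j))]
    congr 1
    funext i
    rw [← SymmetricPower.tprod_equiv (τ i) fun j => v (κ.symm (π i, j))]
    congr 1
    funext j
    rw [← hπ i j, Equiv.symm_apply_apply]
    rfl
  exact LinearMap.congr_fun this t

theorem proj_eH (t : TP P V) : proj V κ ((rhoT P V).asAlgebraHom (eH (wr κ)) t) = proj V κ t := by
  classical
  rw [eH, map_smul, map_sum, LinearMap.smul_apply, LinearMap.sum_apply, map_smul, map_sum,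
    Finset.sum_congr rfl (g := fun _ => proj V κ t), Finset.sum_const, ← Nat.cast_smul_eq_nsmul ℂ,
    smul_smul]
  · have hc : (Finset.univ.filter (· ∈ wr κ)).card = Nat.card (wr κ) := by
      rw [Nat.card_eq_fintype_card, Fintype.card_subtype]
    rw [hc, inv_mul_cancel₀, one_smul]
    exact Nat.cast_ne_zero.2 Nat.card_pos.ne'
  · intro g hg
    rw [Representation.asAlgebraHom_of, proj_rhoT κ (Finset.mem_filter.1 hg).2]

variable (m V) in
/-- the symmetrizer -/
noncomputable def symz : SymmetricPower ℂ (Fin m) V →ₗ[ℂ] TP (Fin m) V :=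
  symLift (∑ τ : Equiv.Perm (Fin m), (PiTensorProduct.tprod ℂ).domDomCongr τ) (fun σ f => by
    simp only [sum_apply, MultilinearMap.domDomCongr_apply]
    exact Fintype.sum_equiv (Equiv.mulLeft σ) _ _ fun τ => rfl)

theorem symz_tprod (v : Fin m → V) : symz V m (SymmetricPower.tprod ℂ v) =
    ∑ τ : Equiv.Perm (Fin m), PiTensorProduct.tprod ℂ fun j => v (τ j) := by
  rw [symz, symLift_tprod]
  simp

variable {ι : Type*} (e : Basis ι ℂ V)

/-- associativity of tensor powers -/
noncomputable def asc : TP (Fin a) (TP (Fin m) V) →ₗ[ℂ] TP P V :=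
  (Basis.piTensorProduct fun _ : Fin a => Basis.piTensorProduct fun _ : Fin m => e).constr ℂ
    fun c => PiTensorProduct.tprod ℂ fun p => e (c (κ p).1 (κ p).2)

omit [Fintype P] [DecidableEq P] in
theorem asc_tprod (c : Fin a → Fin m → ι) :
    asc κ e (PiTensorProduct.tprod ℂ fun i => PiTensorProduct.tprod ℂ fun j => e (c i j)) =
      PiTensorProduct.tprod ℂ fun p => e (c (κ p).1 (κ p).2) := by
  have := (Basis.piTensorProduct fun _ : Fin a =>
    Basis.piTensorProduct fun _ : Fin m => e).constr_basis ℂ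
      (fun c => (PiTensorProduct.tprod ℂ fun p => e (c (κ p).1 (κ p).2) : TP P V)) c
  simp only [Basis.piTensorProduct_apply] at this
  exact this

/-- the double symmetrizer -/
noncomputable def sec : SymmetricPower ℂ (Fin a) (SymmetricPower ℂ (Fin m) V) →ₗ[ℂ] TP P V :=
  asc κ e ∘ₗ PiTensorProduct.map (fun _ => symz V m) ∘ₗ symz (SymmetricPower ℂ (Fin m) V) a

omit [Fintype P] [DecidableEq P] in
theorem sec_dprod (c : Fin a → Fin m → ι) :
    sec κ e (dprod fun i j => e (c i j)) =
      ∑ π : Equiv.Perm (Fin a), ∑ τ : Fin a → Equiv.Perm (Fin m),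
        PiTensorProduct.tprod ℂ fun p => e (c (π (κ p).1) (τ (κ p).1 (κ p).2)) := by
  simp only [sec, LinearMap.comp_apply, dprod, symz_tprod, map_sum, PiTensorProduct.map_tprod]
  refine Finset.sum_congr rfl fun π _ => ?_
  rw [MultilinearMap.map_sum (PiTensorProduct.tprod ℂ)
    (fun i (τ : Equiv.Perm (Fin m)) => (PiTensorProduct.tprod ℂ fun j => e (c (π i) (τ j)) :
      TP (Fin m) V)), map_sum]
  exact Finset.sum_congr rfl fun τ _ => asc_tprod κ e fun i j => c (π i) (τ i j)

theorem eH_sec_proj : (rhoT P V).asAlgebraHom (eH (wr κ)) ∘ₗ sec κ e ∘ₗ proj V κ =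
    ((Fintype.card (Equiv.Perm (Fin a)) * Fintype.card (Fin a → Equiv.Perm (Fin m)) : ℕ) : ℂ) •
      (rhoT P V).asAlgebraHom (eH (wr κ)) := by
  refine (Basis.piTensorProduct fun _ : P => e).ext fun w => ?_
  simp only [Basis.piTensorProduct_apply, LinearMap.comp_apply, proj_tprod, LinearMap.smul_apply]
  rw [sec_dprod κ e fun i j => w (κ.symm (i, j)), map_sum,
    Finset.sum_congr rfl (g := fun _ => Fintype.card (Fin a → Equiv.Perm (Fin m)) •
      (rhoT P V).asAlgebraHom (eH (wr κ)) (PiTensorProduct.tprod ℂ fun p => e (w p))),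
    Finset.sum_const, smul_smul, Nat.cast_smul_eq_nsmul, Finset.card_univ]
  intro π _
  rw [map_sum, ← Finset.card_univ, ← Finset.sum_const]
  refine Finset.sum_congr rfl fun τ _ => ?_
  let h : Equiv.Perm P :=
    κ.trans (((Equiv.prodCongrRight τ).trans (Equiv.prodCongr π (Equiv.refl _))).trans κ.symm)
  have hh : h ∈ wr κ := ⟨π, τ, fun i j => by simp [h]⟩
  have e1 : (PiTensorProduct.tprod ℂ fun p => e (w (κ.symm (π (κ p).1, τ (κ p).1 (κ p).2))) :
      TP P V) = rhoT P V h⁻¹ (PiTensorProduct.tprod ℂ fun p => e (w p)) := by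
    rw [rhoT_tprod]
    rfl
  rw [e1, ← Representation.asAlgebraHom_of, ← Module.End.mul_apply, ← map_mul,
    eH_mul_of _ ((wr κ).inv_mem hh)]

variable (V) in
theorem exists_section :
    ∃ s : SymmetricPower ℂ (Fin a) (SymmetricPower ℂ (Fin m) V) →ₗ[ℂ] TP P V,
      ∀ t, s (proj V κ t) = (rhoT P V).asAlgebraHom (eH (wr κ)) t := by
  have h := eH_sec_proj κ (Basis.ofVectorSpace ℂ V)
  set c : ℂ :=
    ((Fintype.card (Equiv.Perm (Fin a)) * Fintype.card (Fin a → Equiv.Perm (Fin m)) : ℕ) : ℂ)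
  have hc : c ≠ 0 := Nat.cast_ne_zero.2 (Nat.mul_pos Fintype.card_pos Fintype.card_pos).ne'
  refine ⟨c⁻¹ • ((rhoT P V).asAlgebraHom (eH (wr κ)) ∘ₗ sec κ (Basis.ofVectorSpace ℂ V)),
    fun t => ?_⟩
  have h1 := LinearMap.congr_fun h t
  simp only [LinearMap.comp_apply, LinearMap.smul_apply] at h1 ⊢
  rw [h1, smul_smul, inv_mul_cancel₀ hc, one_smul]

end Transfer

open Transfer in
theorem inj_of_uv {a b : ℕ} (u v : MonoidAlgebra ℂ (Equiv.Perm (Fin a × Fin b)))
    (h1 : v * u = eH (wr (Equiv.refl (Fin a × Fin b))))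
    (h2 : eH (wr (Equiv.prodComm (Fin a) (Fin b))) * u = u)
    (V : Type*) [AddCommGroup V] [Module ℂ V] :
    ∃ Ψ : SymmetricPower ℂ (Fin a) (SymmetricPower ℂ (Fin b) V) →ₗ[ℂ]
        SymmetricPower ℂ (Fin b) (SymmetricPower ℂ (Fin a) V),
      Function.Injective Ψ ∧ ∀ (g : V ≃ₗ[ℂ] V) x, Ψ (glAct a b g x) = glAct b a g (Ψ x) := by
  obtain ⟨s₁, hs₁⟩ := exists_section V (Equiv.refl (Fin a × Fin b))
  obtain ⟨s₂, hs₂⟩ := exists_section V (Equiv.prodComm (Fin a) (Fin b))
  set ρ := (rhoT (Fin a × Fin b) V).asAlgebraHom with hρ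
  refine ⟨proj V (Equiv.prodComm (Fin a) (Fin b)) ∘ₗ ρ u ∘ₗ s₁, ?_, ?_⟩
  · rw [injective_iff_map_eq_zero]
    intro x hx
    obtain ⟨t, rfl⟩ := proj_surj (Equiv.refl (Fin a × Fin b)) x
    have h3 := congrArg s₂ hx
    simp only [LinearMap.comp_apply] at h3
    rw [hs₂, hs₁, map_zero, ← Module.End.mul_apply, ← map_mul, h2] at h3
    have h4 := congrArg (ρ v) h3
    rw [map_zero, ← Module.End.mul_apply, ← map_mul, h1] at h4
    have h5 := congrArg (proj V (Equiv.refl (Fin a × Fin b))) h4
    rwa [hρ, proj_eH, proj_eH, map_zero] at h5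
  · intro g x
    obtain ⟨t, rfl⟩ := proj_surj (Equiv.refl (Fin a × Fin b)) x
    simp only [LinearMap.comp_apply]
    rw [← proj_map, hs₁, hs₁, ← proj_map, hρ, map_alg, map_alg]

end Vale.Agent.P181
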