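import Vale.Agent.P181.Six.Tensor
import Vale.Agent.P181.Six.Transfer
import Vale.Agent.P181.Six.PolyModel
import Vale.Agent.P181.Six.Stable

/-! The facts about multiplicities used by the computation. -/

namespace Vale.Agent.P181

open MvPolynomial Module

theorem finrank_HW {a m : ℕ} {l : Wt} (hl : Antitone l) (hn : ∑ i, l i = a * m) :
    (finrank ℂ (HW a m l) : ℤ) = mult a m l := by
  rw [← finrank_TT_wr (Equiv.refl (Fin a × Fin m)), tensor_weyl _ hl (by simpa using hn), GH_wr]
  rfl

theorem mult_nonneg {a m : ℕ} {l : Wt} (hl : Antitone l) (hn : ∑ i, l i = a * m) :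
    0 ≤ mult a m l := by
  rw [← finrank_HW hl hn]
  exact Int.natCast_nonneg _

theorem mult_semigroup {a d m : ℕ} {l μ : Wt} (hl : Antitone l) (hn : ∑ i, l i = a * m)
    (hμ : Antitone μ) (hd : ∑ i, μ i = d * m) (h : 0 < mult d m μ) :
    mult a m l ≤ mult (a + d) m (l + μ) := by
  have h1 : Antitone (l + μ : Wt) := fun i j hij => Nat.add_le_add (hl hij) (hμ hij)
  have h2 : ∑ i, (l + μ : Wt) i = (a + d) * m := by
    simp only [Finsupp.add_apply, Finset.sum_add_distrib, hn, hd, add_mul]
  rw [← finrank_HW hμ hd] at h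
  rw [← finrank_HW hl hn, ← finrank_HW h1 h2]
  exact_mod_cast hw_semigroup (by exact_mod_cast h)

theorem antitone_add_single {l : Wt} (hl : Antitone l) (t : ℕ) :
    Antitone (l + Finsupp.single 0 t : Wt) := by
  intro i j hij
  have := hl hij
  simp only [Finsupp.add_apply, Finsupp.single_apply]
  by_cases hi : 0 = i
  · by_cases hj : 0 = j
    · simp [← hi, ← hj]
    · simp only [if_pos hi, if_neg hj]
      omega
  · have hj : ¬ 0 = j := by
      rintro rfl
      exact hi (Fin.le_zero_iff.1 hij).symm
    simp only [if_neg hi, if_neg hj]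
    omega

theorem mult_mono {a m : ℕ} {l : Wt} (hl : Antitone l) (hn : ∑ i, l i = a * m) (t : ℕ) :
    mult a m l ≤ mult a (m + t) (l + Finsupp.single 0 (a * t)) := by
  induction t with
  | zero => simp
  | succ t ih =>
    have s : ∀ t, ∑ i, (l + Finsupp.single 0 (a * t) : Wt) i = a * (m + t) := by
      intro t
      simp [Finset.sum_add_distrib, hn, mul_add, Finsupp.single_apply]
    refine ih.trans ?_
    rw [← finrank_HW (antitone_add_single hl _) (s t),
      ← finrank_HW (antitone_add_single hl _) (s (t + 1))]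
    have := hw_mono a (m + t) (l + Finsupp.single 0 (a * t))
    rw [add_assoc l, ← Finsupp.single_add] at this
    exact_mod_cast this

/-- the stable upper bound -/
theorem mult_le_U720 {b : ℕ} {l : Wt} (hl : Antitone l) (hn : ∑ i, l i = 6 * b) :
    720 * mult 6 b l ≤ U720 fun i => (l + dl : Wt) i.succ := by
  have h1 := mult_mono hl hn (6 * b + 15)
  have hs : ∑ i, (dl : Wt) i = 15 := by
    simp [Fin.sum_univ_succ]
  have h2 := agf_six_stable (b + (6 * b + 15)) (l + Finsupp.single 0 (6 * (6 * b + 15)) + dl)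
    (by
      simp only [Finsupp.add_apply, Finset.sum_add_distrib, hn, hs]
      simp [Finsupp.single_apply]
      ring)
    (by
      have := Fin.sum_univ_succ (fun i => l i + dl i)
      simp only [Finset.sum_add_distrib, hn, hs] at this
      simp only [Finsupp.add_apply, Finsupp.single_apply, (Fin.succ_ne_zero _).symm, if_false,
        add_zero, Finset.sum_add_distrib]
      omega)
  have e : (fun i : Fin 5 => (l + Finsupp.single 0 (6 * (6 * b + 15)) + dl : Wt) i.succ) =
      fun i => (l + dl : Wt) i.succ := by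
    funext i
    simp [Finsupp.single_apply]
  rw [e] at h2
  rw [← h2]
  unfold mult at h1 ⊢
  omega

/-- multiplicity inequalities give an equivariant injection -/
theorem inj_of_mult (b : ℕ)
    (h : ∀ l : Wt, Antitone l → ∑ i, l i = 6 * b → mult 6 b l ≤ mult b 6 l)
    (V : Type*) [AddCommGroup V] [Module ℂ V] :
    ∃ Ψ : SymmetricPower ℂ (Fin 6) (SymmetricPower ℂ (Fin b) V) →ₗ[ℂ]
        SymmetricPower ℂ (Fin b) (SymmetricPower ℂ (Fin 6) V),
      Function.Injective Ψ ∧ ∀ (g : V ≃ₗ[ℂ] V) x, Ψ (glAct 6 b g x) = glAct b 6 g (Ψ x) := by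
  obtain ⟨u, v, h1, h2⟩ := tensor_uv (wr (Equiv.refl (Fin 6 × Fin b)))
    (wr (Equiv.prodComm (Fin 6) (Fin b))) Prod.fst (by
      intro g hg
      have hg' : ∀ p : Fin 6 × Fin b, (g p).1 = p.1 := fun p => congrFun hg p
      refine ⟨1, fun i => Equiv.ofBijective (fun j => (g (i, j)).2)
        (Finite.injective_iff_bijective.1 fun j j' hj => ?_), fun i j => ?_⟩
      · have : g (i, j) = g (i, j') := Prod.ext (by rw [hg', hg']) hj
        simpa using this
      · exact Prod.ext (hg' _) rfl) (by
      intro l hl hn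
      have hn' : ∑ i, l i = 6 * b := by simpa using hn
      rw [finrank_TT_wr, finrank_TT_wr]
      have := h l hl hn'
      rw [← finrank_HW hl hn', ← finrank_HW hl (by rw [hn', mul_comm])] at this
      exact_mod_cast this)
  exact inj_of_uv u v h1 h2 V

end Vale.Agent.P181
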