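import Vale.Agent.P181.Six.Basic

/-! Alternants and the Jacobi-Trudi identity in six variables. -/

namespace Vale.Agent.P181

open MvPolynomial

namespace JT

theorem mapDomain_perm (ν : Wt) (w : Equiv.Perm (Fin 6)) (i : Fin 6) :
    ν.mapDomain w i = ν (w.symm i) := Finsupp.mapDomain_equiv_apply ν i

theorem strictAnti_add_dl {l : Wt} (hl : Antitone l) : StrictAnti (l + dl : Wt) := by
  intro i j hij
  have h1 := hl hij.le
  have h2 : (i : ℕ) < j := hij
  have h3 := j.2
  simp only [Finsupp.coe_add, Pi.add_apply, dl_apply]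
  omega

theorem perm_eq_one {w : Equiv.Perm (Fin 6)} (h : StrictMono w) : w = 1 := by
  have := Subsingleton.elim (h.orderIsoOfSurjective w w.surjective) (OrderIso.refl _)
  ext i
  exact congrArg Fin.val (congrArg (fun f : Fin 6 ≃o Fin 6 => f i) this)

theorem lex_lt {w : Equiv.Perm (Fin 6)} (hw : w ≠ 1) (l : Wt) :
    toLex l < toLex (l + dl - dl.mapDomain w) := by
  have h1 : ∃ i, w.symm i ≠ i := by
    by_contra h
    push Not at h
    apply hw
    ext i
    have := congrArg w (h i)
    rw [Equiv.apply_symm_apply] at this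
    rw [← this]; rfl
  obtain ⟨i, hi, hmin⟩ := (wellFounded_lt (α := Fin 6)).has_min {i | w.symm i ≠ i} h1
  have hj : ∀ j < i, w.symm j = j := by
    intro j hj
    by_contra h
    exact hmin j h hj
  have hlt : i < w.symm i := by
    rcases lt_trichotomy i (w.symm i) with h | h | h
    · exact h
    · exact absurd h.symm hi
    · exact absurd (w.symm.injective (hj _ h)) hi
  refine Finsupp.Lex.lt_iff.2 ⟨i, fun j hji => ?_, ?_⟩
  · simp only [ofLex_toLex, Finsupp.coe_tsub, Pi.sub_apply, Finsupp.coe_add, Pi.add_apply,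
      mapDomain_perm, hj j hji]
    omega
  · have h2 : (i : ℕ) < w.symm i := hlt
    have h3 := (w.symm i).2
    simp only [ofLex_toLex, Finsupp.coe_tsub, Pi.sub_apply, Finsupp.coe_add, Pi.add_apply,
      mapDomain_perm, dl_apply]
    omega

theorem altn_eq_det (ν : Wt) :
    altn ν = (Matrix.of fun k i : Fin 6 => (X k : MvPolynomial (Fin 6) ℤ) ^ ν i).det := by
  rw [Matrix.det_apply', altn]
  refine Finset.sum_congr rfl fun w _ => ?_
  rw [monomial_eq, Finsupp.prod_fintype _ _ (by simp), ← Equiv.prod_comp w]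
  simp

/-- the Jacobi-Trudi matrix -/
noncomputable def HM (ν : Wt) : Matrix (Fin 6) (Fin 6) (MvPolynomial (Fin 6) ℤ) :=
  Matrix.of fun j i => if dl j ≤ ν i then hh (ν i - dl j) else 0

theorem det_HM (ν : Wt) : (HM ν).det =
    ∑ w : Equiv.Perm (Fin 6), ((Equiv.Perm.sign w : ℤˣ) : ℤ) •
      (if dl.mapDomain w ≤ ν then ∏ i, hh ((ν - dl.mapDomain w) i) else 0) := by
  rw [Matrix.det_apply', ← Equiv.sum_comp (Equiv.inv (Equiv.Perm (Fin 6)))]
  refine Finset.sum_congr rfl fun w _ => ?_
  rw [Equiv.inv_apply, Equiv.Perm.sign_inv, zsmul_eq_mul]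
  congr 1
  simp only [HM, Matrix.of_apply, Finset.prod_ite_zero, Finsupp.le_def, mapDomain_perm,
    Finsupp.coe_tsub, Pi.sub_apply, Finset.mem_univ, forall_true_left, Equiv.Perm.inv_def]

theorem hh_zero : hh 0 = 1 := by
  simp [hh, mons]

theorem det_HM_dl : (HM dl).det = 1 := by
  rw [Matrix.det_of_isLowerTriangular]
  · simp only [HM, Matrix.of_apply, le_refl, if_true, Nat.sub_self, hh_zero, Finset.prod_const_one]
  · intro j i hij
    have h1 : (j : ℕ) < i := hij
    have h2 := i.2
    exact if_neg (by simp only [dl_apply]; omega)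

/-- the product of the `1 - x_i t` over `i ≠ k` -/
noncomputable def PP (k : Fin 6) : Polynomial (MvPolynomial (Fin 6) ℤ) :=
  ∏ i ∈ Finset.univ.erase k, (1 - Polynomial.C (X i) * Polynomial.X)

theorem natDegree_PP (k : Fin 6) : (PP k).natDegree ≤ 5 := by
  refine (Polynomial.natDegree_prod_le _ _).trans ?_
  refine (Finset.sum_le_sum (g := fun _ => 1) fun i _ => ?_).trans (by simp)
  compute_degree

theorem geom (a : MvPolynomial (Fin 6) ℤ) :
    (1 - PowerSeries.C a * PowerSeries.X) * PowerSeries.mk (fun n => a ^ n) = 1 := by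
  ext1 n
  rw [sub_mul, one_mul, map_sub, mul_assoc, PowerSeries.coeff_C_mul]
  cases n with
  | zero => simp
  | succ n => simp [PowerSeries.coeff_succ_X_mul, pow_succ', PowerSeries.coeff_one]

theorem mk_hh : PowerSeries.mk hh =
    ∏ i : Fin 6, PowerSeries.mk fun n => (X i : MvPolynomial (Fin 6) ℤ) ^ n := by
  ext1 n
  rw [PowerSeries.coeff_prod, PowerSeries.coeff_mk, hh, mons]
  refine Finset.sum_congr rfl fun β _ => ?_
  rw [monomial_eq, Finsupp.prod_fintype _ _ (by simp)]
  simp

theorem PP_mul (k : Fin 6) : (PP k : PowerSeries (MvPolynomial (Fin 6) ℤ)) * PowerSeries.mk hh =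
    PowerSeries.mk fun n => (X k : MvPolynomial (Fin 6) ℤ) ^ n := by
  rw [mk_hh, ← Finset.prod_erase_mul _ _ (Finset.mem_univ k), ← mul_assoc, PP,
    ← Polynomial.coeToPowerSeries.ringHom_apply, map_prod, ← Finset.prod_mul_distrib,
    Finset.prod_eq_one, one_mul]
  intro i _
  rw [← geom (X i)]
  simp

theorem X_pow_eq (k : Fin 6) (n : ℕ) : (X k : MvPolynomial (Fin 6) ℤ) ^ n =
    ∑ j : Fin 6, (PP k).coeff (dl j) * if dl j ≤ n then hh (n - dl j) else 0 := by
  have h := congrArg (PowerSeries.coeff n) (PP_mul k)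
  rw [PowerSeries.coeff_mk, PowerSeries.coeff_mul,
    Finset.Nat.sum_antidiagonal_eq_sum_range_succ
      (fun a b => PowerSeries.coeff a (PP k : PowerSeries (MvPolynomial (Fin 6) ℤ)) *
        PowerSeries.coeff b (PowerSeries.mk hh))] at h
  simp only [Polynomial.coeff_coe, PowerSeries.coeff_mk] at h
  let g : ℕ → MvPolynomial (Fin 6) ℤ := fun m => (PP k).coeff m * if m ≤ n then hh (n - m) else 0
  have h1 : ∑ j : Fin 6, g (dl j) = ∑ m ∈ Finset.range 6, g m := by
    simp only [Fin.sum_univ_six, Finset.sum_range_succ, dl_apply, Finset.sum_range_zero]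
    norm_num
    abel
  have h2 : ∑ m ∈ Finset.range 6, g m = ∑ m ∈ Finset.range (n + 6), g m := by
    refine Finset.sum_subset (Finset.range_subset_range.2 (by omega)) fun m _ hm => ?_
    rw [Finset.mem_range] at hm
    simp only [g]
    rw [Polynomial.coeff_eq_zero_of_natDegree_lt ((natDegree_PP k).trans_lt (by omega)), zero_mul]
  have h3 : ∑ m ∈ Finset.range (n + 1), g m = ∑ m ∈ Finset.range (n + 6), g m := by
    refine Finset.sum_subset (Finset.range_subset_range.2 (by omega)) fun m _ hm => ?_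
    rw [Finset.mem_range] at hm
    simp only [g]
    rw [if_neg (by omega), mul_zero]
  rw [← h]
  refine Eq.trans ?_ (h1.trans (h2.trans h3.symm)).symm
  refine Finset.sum_congr rfl fun m hm => ?_
  rw [Finset.mem_range] at hm
  simp only [g]
  rw [if_pos (by omega)]

theorem altn_eq_mul (ν : Wt) : altn ν =
    (Matrix.of fun k j : Fin 6 => (PP k).coeff (dl j)).det * (HM ν).det := by
  rw [altn_eq_det, ← Matrix.det_mul]
  congr 1
  ext1 k i
  rw [Matrix.mul_apply, Matrix.of_apply, X_pow_eq]
  rfl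

end JT

open JT

theorem coeff_altn_mul (μ ν : Wt) (F : MvPolynomial (Fin 6) ℤ) :
    coeff ν (altn μ * F) = ∑ w : Equiv.Perm (Fin 6), ((Equiv.Perm.sign w : ℤˣ) : ℤ) *
      (if μ.mapDomain w ≤ ν then coeff (ν - μ.mapDomain w) F else 0) := by
  rw [altn, Finset.sum_mul, coeff_sum]
  refine Finset.sum_congr rfl fun w _ => ?_
  rw [coeff_monomial_mul', mul_ite, mul_zero]

theorem rename_altn (σ : Equiv.Perm (Fin 6)) (ν : Wt) :
    rename σ (altn ν) = ((Equiv.Perm.sign σ : ℤˣ) : ℤ) • altn ν := by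
  rw [altn, map_sum, Finset.smul_sum]
  conv_rhs => rw [← Equiv.sum_comp (Equiv.mulLeft σ)]
  refine Finset.sum_congr rfl fun w _ => ?_
  rw [rename_monomial, smul_monomial, ← Finsupp.mapDomain_comp, Equiv.coe_mulLeft,
    Equiv.Perm.sign_mul, Units.val_mul, smul_eq_mul, ← mul_assoc, Int.units_coe_mul_self, one_mul]
  rfl

theorem coeff_altn_dl {l μ : Wt} (hl : Antitone l) (hμ : Antitone μ) :
    coeff (l + dl) (altn (μ + dl)) = if l = μ then 1 else 0 := by
  classical
  rw [altn, coeff_sum, Finset.sum_eq_single 1]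
  · rw [coeff_monomial]
    simp only [Equiv.Perm.coe_one, Finsupp.mapDomain_id, add_left_inj, eq_comm]
    simp
  · intro w _ hw
    rw [coeff_monomial, if_neg]
    intro h
    apply hw
    have h1 : StrictMono w.symm := by
      intro i j hij
      have h2 := strictAnti_add_dl hl hij
      rw [← h, mapDomain_perm, mapDomain_perm] at h2
      exact (strictAnti_add_dl hμ).lt_iff_gt.1 h2
    exact inv_eq_one.1 (perm_eq_one h1)
  · simp

/-- if all weights of `F` are lexicographically at most `l`, only the identity contributes -/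
theorem coeff_altn_mul_of_top (l : Wt) (F : MvPolynomial (Fin 6) ℤ)
    (hF : ∀ α, coeff α F ≠ 0 → toLex α ≤ toLex l) :
    coeff (l + dl) (altn dl * F) = coeff l F := by
  rw [coeff_altn_mul, Finset.sum_eq_single 1]
  · simp
  · intro w _ hw
    split_ifs with h
    · by_contra h1
      exact absurd (hF _ (right_ne_zero_of_mul h1)) (not_le.2 (lex_lt hw l))
    · rw [mul_zero]
  · simp

/-- Jacobi-Trudi -/
theorem altn_mul_jt (ν : Wt) :
    altn dl * (∑ w : Equiv.Perm (Fin 6), ((Equiv.Perm.sign w : ℤˣ) : ℤ) •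
      (if dl.mapDomain w ≤ ν then ∏ i, hh ((ν - dl.mapDomain w) i) else 0)) = altn ν := by
  rw [← det_HM, altn_eq_mul ν, altn_eq_mul dl, det_HM_dl, mul_one]

end Vale.Agent.P181
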