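/-! Kernel-evaluated arithmetic on packed arrays: the plethysm recurrence. -/

namespace Vale.Agent.P181.K

inductive Ls (α : Type) : Type
  | nil : Ls α
  | cons : α → Ls α → Ls α

/-- a number `v` together with a checksum `h` (which only serves to spread hash values) -/
structure Sv : Type where
  v : Nat
  h : Nat

/-- a signed number; `bad` marks a failed check -/
inductive Ent : Type
  | zero : Ent
  | pos : Sv → Ent
  | neg : Sv → Ent
  | bad : Ent

/-- lists of pairs (positive part, negative part) -/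
inductive Acc : Type
  | nil : Acc
  | cons : Nat → Nat → Acc → Acc

structure PN : Type where
  p : Nat
  n : Nat

abbrev L1 := Ls Ent
abbrev L2 := Ls L1
abbrev L3 := Ls L2

noncomputable section

/-- evaluate `n` to a literal before passing it on -/
def force {α : Type} (n : Nat) (f : Nat → α) : α :=
  Nat.rec (motive := fun _ => α) (f 0) (fun k _ => f (Nat.succ k)) n

def Ls.tail {α : Type} (l : Ls α) : Ls α :=
  Ls.rec (motive := fun _ => Ls α) Ls.nil (fun _ t _ => t) l

def Ls.drop {α : Type} (l : Ls α) : Nat → Ls α :=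
  Ls.rec (motive := fun _ => Nat → Ls α) (fun _ => Ls.nil)
    (fun h t ih n => Nat.rec (motive := fun _ => Ls α) (Ls.cons h t) (fun k _ => ih k) n) l

def Ls.get {α : Type} (l : Ls α) (d : α) : Nat → α :=
  Ls.rec (motive := fun _ => Nat → α) (fun _ => d)
    (fun h _ ih n => Nat.rec (motive := fun _ => α) h (fun k _ => ih k) n) l

def Ls.map {α β : Type} (f : α → β) (l : Ls α) : Ls β :=
  Ls.rec (motive := fun _ => Ls β) Ls.nil (fun h _ ih => Ls.cons (f h) ih) l

def Ls.append {α : Type} (l m : Ls α) : Ls α :=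
  Ls.rec (motive := fun _ => Ls α) m (fun h _ ih => Ls.cons h ih) l

def Ls.all {α : Type} (f : α → Bool) (l : Ls α) : Bool :=
  Ls.rec (motive := fun _ => Bool) true
    (fun h _ ih => Bool.rec (motive := fun _ => Bool) false ih (f h)) l

def Ls.beq {α : Type} (f : α → α → Bool) (l : Ls α) : Ls α → Bool :=
  Ls.rec (motive := fun _ => Ls α → Bool)
    (fun m => Ls.rec (motive := fun _ => Bool) true (fun _ _ _ => false) m)
    (fun h _ ih m => Ls.rec (motive := fun _ => Bool) false
      (fun h' t' _ => Bool.rec (motive := fun _ => Bool) false (ih t') (f h h')) m) l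

/-- `[f (n-1), ..., f 0]` -/
def desc {α : Type} (f : Nat → α) (n : Nat) : Ls α :=
  Nat.rec (motive := fun _ => Ls α) Ls.nil (fun k ih => Ls.cons (f k) ih) n

/-- `[f (lo+n-1), ..., f lo]` -/
def descFrom {α : Type} (f : Nat → α) (lo n : Nat) : Ls α :=
  Nat.rec (motive := fun _ => Ls α) Ls.nil
    (fun k ih => Ls.cons (force (Nat.add lo k) f) ih) n

/-- `[f lo, ..., f (lo+n-1)]` -/
def asc {α : Type} (f : Nat → α) (n : Nat) : Nat → Ls α :=
  Nat.rec (motive := fun _ => Nat → Ls α) (fun _ => Ls.nil)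
    (fun _ ih lo => Ls.cons (f lo) (force (Nat.succ lo) ih)) n

def ite' {α : Type} (b : Bool) (x y : α) : α := Bool.rec (motive := fun _ => α) y x b

def sv (v : Nat) : Sv := ⟨v, Nat.mod v 4294967291⟩

def Sv.beq (s t : Sv) : Bool := ite' (Nat.beq s.h t.h) (Nat.beq s.v t.v) false

/-- equality test that fails on `bad` -/
def Ent.beq (e f : Ent) : Bool :=
  Ent.rec (motive := fun _ => Bool)
    (Ent.rec (motive := fun _ => Bool) true (fun _ => false) (fun _ => false) false f)
    (fun v => Ent.rec (motive := fun _ => Bool) false (fun u => Sv.beq v u) (fun _ => false) false f)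
    (fun v => Ent.rec (motive := fun _ => Bool) false (fun _ => false) (fun u => Sv.beq v u) false f)
    false e

def Ent.ok (e : Ent) : Bool :=
  Ent.rec (motive := fun _ => Bool) true (fun _ => true) (fun _ => true) false e

def Ent.flip (e : Ent) : Ent :=
  Ent.rec (motive := fun _ => Ent) Ent.zero Ent.neg Ent.pos Ent.bad e

/-- `p - n` as a signed number -/
def Ent.sub (p n : Nat) : Ent :=
  ite' (Nat.beq p n) Ent.zero 
    (ite' (Nat.ble n p) (Ent.pos (sv (Nat.sub p n))) (Ent.neg (sv (Nat.sub n p))))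

/-! ### the convolution over the last three variables -/

def addE (e : Ent) (p n : Nat) (r : Acc) : Acc :=
  Ent.rec (motive := fun _ => Acc) (Acc.cons p n r) (fun s => Acc.cons (Nat.add p s.v) n r)
    (fun s => Acc.cons p (Nat.add n s.v) r) (Acc.cons p n r) e

def inner (k1 : Nat) (acc : Acc) : L1 → Acc :=
  Acc.rec (motive := fun _ => L1 → Acc) (fun _ => Acc.nil)
    (fun p n t ih l => Ls.rec (motive := fun _ => Acc) (Acc.cons p n t)
      (fun e l' _ => addE e p n (ih (l'.drop k1))) l) acc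

def lay {α : Type} (f : Acc → α → Acc) (k1 : Nat) (fuel : Acc) : Acc → Ls α → Acc :=
  Acc.rec (motive := fun _ => Acc → Ls α → Acc) (fun acc _ => acc)
    (fun _ _ _ ih acc l => Ls.rec (motive := fun _ => Acc) acc
      (fun x l' _ => Acc.rec (motive := fun _ => Acc) Acc.nil
        (fun p n t _ => Acc.cons p n (ih t (l'.drop k1))) (f acc x)) l) fuel

def mid (k1 : Nat) (acc : Acc) (l : L2) : Acc := lay (inner k1) k1 acc acc l

def outer (k1 : Nat) (acc : Acc) (l : L3) : Acc := lay (mid k1) k1 acc acc l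

def zeros (n : Nat) : Acc :=
  Nat.rec (motive := fun _ => Acc) Acc.nil (fun _ ih => Acc.cons 0 0 ih) n

/-- multiply the groups by the factors for the first three variables -/
def grp (mask : Nat) (acc : Acc) : Ls Nat → Nat → Nat → PN :=
  Acc.rec (motive := fun _ => Ls Nat → Nat → Nat → PN) (fun _ P N => ⟨P, N⟩)
    (fun p n _ ih ts P N => Ls.rec (motive := fun _ => PN) ⟨P, N⟩
      (fun t ts' _ => ite' (Nat.beq p n) (ih ts' P N)
        (ite' (Nat.ble n p)
          (ih ts' (Nat.add P (Nat.mul (Nat.land (Nat.sub p n) mask) (Nat.land t mask))) N)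
          (ih ts' P (Nat.add N (Nat.mul (Nat.land (Nat.sub n p) mask) (Nat.land t mask)))))) ts) acc

def overK (mask : Nat) (zs : Acc) (bs : Ls L3) : Ls (Ls Nat) → Nat → Nat → Nat → PN :=
  Ls.rec (motive := fun _ => Ls (Ls Nat) → Nat → Nat → Nat → PN) (fun _ _ P N => ⟨P, N⟩)
    (fun b _ ih tt k1 P N => Ls.rec (motive := fun _ => PN) ⟨P, N⟩
      (fun ts tt' _ => (fun r : PN => ih tt' (Nat.succ k1) r.p r.n)
        (grp mask (outer k1 zs b) ts P N)) tt) bs

/-- divide `P - N` by `a` digitwise, checking the size of the digits -/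
def fin (a mask off high : Nat) (r : PN) : Ent :=
  (fun R : Nat => (fun E : Nat =>
    ite' (Nat.beq (Nat.mul E a) R)
      (ite' (Nat.beq (Nat.land E high) 0) (Ent.sub E (Nat.land off mask)) Ent.bad) Ent.bad)
    (Nat.div R a))
  (Nat.land (Nat.add (Nat.sub (Nat.add (Nat.land r.p mask) (Nat.succ mask)) (Nat.land r.n mask))
    (Nat.mul a off)) mask)

/-- `2^n - 1` -/
def msk (n : Nat) : Nat := Nat.sub (Nat.shiftLeft 1 n) 1

/-- `∑_{p < n} 2^(W p)` -/
def ones (W n : Nat) : Nat := Nat.div (msk (Nat.mul W n)) (msk W)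

structure TS : Type where
  g : Nat
  t : Nat
  l : Ls Nat

/-- `[T_m, ..., T_0]` with `T_j = h_j(1, z^k, z^(S k))` modulo `mask + 1` -/
def tList (S W mask k m : Nat) : Ls Nat :=
  (Nat.rec (motive := fun _ => TS) ⟨1, 1, Ls.cons 1 Ls.nil⟩
    (fun j s => (fun g : Nat => (fun t : Nat => (⟨g, t, Ls.cons t s.l⟩ : TS))
        (Nat.land (Nat.add g (Nat.shiftLeft s.t (Nat.mul W (Nat.mul S k)))) mask))
      (Nat.land (Nat.add s.g (Nat.shiftLeft 1 (Nat.mul W (Nat.mul k (Nat.succ j))))) mask)) m).l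

/-- the parameters of a computation -/
structure Job : Type where
  m : Nat
  S : Nat
  W : Nat
  C : Nat
  n4 : Nat
  n5 : Nat
  n6 : Nat

/-- the data shared by all keys of one level -/
structure Lev : Type where
  a : Nat
  off : Nat
  high : Nat
  zs : Acc
  tt : Ls (Ls Nat)

def Job.rows (J : Job) (s : Nat) : Nat := Nat.div (Nat.sub J.C s) 3

def Job.ones (J : Job) : Nat := K.ones J.W (Nat.mul J.S (J.rows 0))

def Job.off (J : Job) (w : Nat) : Nat := Nat.shiftLeft J.ones w

def Job.lev (J : Job) (a w : Nat) : Lev :=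
  ⟨a, J.off w, Nat.mul J.ones (Nat.sub (Nat.shiftLeft 1 J.W) (Nat.shiftLeft 2 w)), zeros (Nat.succ J.m),
    asc (fun k => tList J.S J.W (msk (Nat.mul J.W (Nat.mul J.S (J.rows 0)))) k J.m) a 1⟩

def key (J : Job) (L : Lev) (s : Nat) (bs : Ls L3) : Ent :=
  ite' (Nat.ble s (Nat.add (Nat.mul L.a J.m) 15))
    ((fun mask : Nat => fin L.a mask L.off L.high (overK mask L.zs bs L.tt 0 0 0))
      (msk (Nat.mul J.W (Nat.mul J.S (J.rows s)))))
    Ent.zero

/-- the entries for `x = lo + n - 1, ..., lo`, where `s0 = y + z + lo` -/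
def rowGo (J : Job) (L : Lev) (s0 n : Nat) : Ls L3 → L1 :=
  Nat.rec (motive := fun _ => Ls L3 → L1) (fun _ => Ls.nil)
    (fun i ih bs => Ls.cons (key J L (Nat.add s0 i) bs)
      (ih (bs.map (Ls.map (Ls.map Ls.tail))))) n

def pad (n : Nat) (l : L1) : L1 :=
  Nat.rec (motive := fun _ => L1) l (fun _ ih => Ls.cons Ent.zero ih) n

/-- the entries `(x, y, z)` for `x = n4 - 1, ..., y + 1`; computed for `x < mx` only -/
def row (J : Job) (L : Lev) (boxes : Ls L3) (mx y z : Nat) : L1 :=
  ite' (Nat.ble mx (Nat.succ y)) Ls.nil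
    (pad (Nat.sub J.n4 mx) (rowGo J L (Nat.add (Nat.add y z) (Nat.succ y)) (Nat.sub mx (Nat.succ y))
      (boxes.map fun b => (b.drop (Nat.sub J.n6 (Nat.succ z))).map fun l2 =>
        (l2.drop (Nat.sub J.n5 (Nat.succ y))).map fun l1 => l1.drop (Nat.sub J.n4 mx))))

/-- lookup in a table of bounds -/
def mxOf (t : Ls (Ls Nat)) (y z : Nat) : Nat := (t.get Ls.nil z).get 0 y

/-- the rows `y = lo, ..., lo + n - 1` -/
def chunk (J : Job) (L : Lev) (boxes : Ls L3) (t : Ls (Ls Nat)) (z lo n : Nat) : L2 :=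
  asc (fun y => ite' (Nat.ble y z) Ls.nil (force (mxOf t y z) fun mx => row J L boxes mx y z)) n lo

/-- lookup of a sorted key in a table -/
def look (J : Job) (tb : L3) (x y z : Nat) : Ent :=
  ((tb.get Ls.nil z).get Ls.nil y).get Ent.zero (Nat.sub J.n4 (Nat.succ x))

def look2 (J : Job) (tb : L3) (x y z : Nat) : Ent :=
  ite' (Nat.beq y z) Ent.zero (ite' (Nat.ble z y) (look J tb x y z) (look J tb x z y).flip)

/-- lookup of an arbitrary key, by antisymmetry -/
def look3 (J : Job) (tb : L3) (x y z : Nat) : Ent :=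
  ite' (Nat.ble x y)
    (ite' (Nat.ble y z) (ite' (Nat.beq y z) Ent.zero (look2 J tb z x y))
      (ite' (Nat.beq x y) Ent.zero (look2 J tb y x z).flip))
    (ite' (Nat.ble x z) (ite' (Nat.beq x z) Ent.zero (look2 J tb z x y)) (look2 J tb x y z))

def mkBox (J : Job) (tb : L3) : L3 :=
  desc (fun z => desc (fun y => desc (fun x => look3 J tb x y z) J.n4) J.n5) J.n6

/-! ### level zero -/

def cmpE (u v : Nat) (e : Ent) : Ent :=
  ite' (Nat.beq u v) Ent.zero (ite' (Nat.ble u v) e.flip e)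

def sgn6 (a b c d e f : Nat) : Ent :=
  cmpE a b (cmpE a c (cmpE a d (cmpE a e (cmpE a f (cmpE b c (cmpE b d (cmpE b e (cmpE b f
    (cmpE c d (cmpE c e (cmpE c f (cmpE d e (cmpE d f (cmpE e f (Ent.pos ⟨1, 1⟩)))))))))))))))

def ent0Go (J : Job) (x y z n : Nat) : PN :=
  Nat.rec (motive := fun _ => PN) ⟨0, 0⟩
    (fun i r => (fun u v : Nat => (fun s : Nat =>
      ite' (Nat.ble 10 s) (ite' (Nat.ble s 15)
        (Ent.rec (motive := fun _ => PN) r
          (fun _ => ⟨Nat.add r.p (Nat.shiftLeft 1 (Nat.mul J.W (Nat.add u (Nat.mul J.S v)))), r.n⟩)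
          (fun _ => ⟨r.p, Nat.add r.n (Nat.shiftLeft 1 (Nat.mul J.W (Nat.add u (Nat.mul J.S v))))⟩)
          r (sgn6 (Nat.sub 15 s) u v x y z)) r) r)
      (Nat.add (Nat.add (Nat.add u v) (Nat.add x y)) z)) (Nat.mod i 6) (Nat.div i 6)) n

def ent0 (J : Job) (x y z : Nat) : Ent :=
  ite' (Nat.ble x 5) ((fun r : PN => Ent.sub r.p r.n) (ent0Go J x y z 36)) Ent.zero

def tbl0 (J : Job) : L3 :=
  asc (fun z => asc (fun y => ite' (Nat.ble y z) Ls.nil
    (descFrom (fun x => ent0 J x y z) (Nat.succ y) (Nat.sub J.n4 (Nat.succ y)))) 5 0) 4 0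

/-! ### changing the layout -/

def relayRow (W B cap W2 n : Nat) : Nat → Nat :=
  Nat.rec (motive := fun _ => Nat → Nat) (fun _ => 0)
    (fun _ ih Y => (fun d : Nat => Nat.add (Nat.sub d (Nat.sub d cap))
        (Nat.shiftLeft (ih (Nat.shiftRight Y W)) W2))
      (Nat.sub (Nat.land Y (msk W)) B)) n

def relayGo (W sh B cap W2 sh2 n : Nat) : Nat → Nat → Nat :=
  Nat.rec (motive := fun _ => Nat → Nat → Nat) (fun _ _ => 0)
    (fun _ ih Q X => force (Nat.succ (Nat.div Q 2)) fun cnt =>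
      Nat.add (relayRow W B cap W2 cnt (Nat.land X (msk (Nat.mul W cnt))))
        (Nat.shiftLeft (ih (Nat.sub Q 3) (Nat.shiftRight X sh)) sh2)) n

/-- the dominant part of the entry `e` at the key `(x, y, z)`, `s = y + z`, in the layout `(S2, W2)` -/
def relay (J : Job) (a w off cap S2 W2 x s : Nat) (e : Ent) : Nat :=
  ite' (Nat.ble (Nat.add (Nat.mul 4 x) s) (Nat.add (Nat.mul a J.m) 9))
    ((fun Q : Nat => (fun g : Nat → Nat =>
      Ent.rec (motive := fun _ => Nat) 0 (fun s => g (Nat.add off s.v))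
        (fun s => g (Nat.sub off s.v)) 0 e)
      (fun E => relayGo J.W (Nat.mul J.W (Nat.succ J.S)) (Nat.shiftLeft 1 w) cap W2
        (Nat.mul W2 (Nat.succ S2)) (Nat.succ (Nat.div Q 3)) Q
        (Nat.shiftRight E (Nat.mul J.W (Nat.add (Nat.mul J.S (Nat.succ x)) (Nat.add x 2))))))
      (Nat.sub (Nat.add (Nat.mul a J.m) 9) (Nat.add (Nat.mul 4 x) s))) 0

/-- the entries for `x = y + 1, ..., mx - 1` -/
def relayL1 (J : Job) (a w off cap S2 W2 mx y z : Nat) (l : L1) : Ls Sv :=
  asc (fun x => sv (relay J a w off cap S2 W2 x (Nat.add y z)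
    (l.get Ent.zero (Nat.sub J.n4 (Nat.succ x))))) (Nat.sub mx (Nat.succ y)) (Nat.succ y)

def relayTbl (J : Job) (a w cap S2 W2 : Nat) (t : Ls (Ls Nat)) (tb : L3) (lo n : Nat) :
    Ls (Ls (Ls Sv)) :=
  (fun off : Nat => asc (fun z => asc (fun y => ite' (Nat.ble y z) Ls.nil
    (force (mxOf t y z) fun mx =>
      relayL1 J a w off cap S2 W2 mx y z ((tb.get Ls.nil z).get Ls.nil y))) J.n5 0) n lo) (J.off w)

structure Wrap {α : Type} (v : α) : Type where

def Wrap.val {α : Type} {v : α} (_ : Wrap v) : α := v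

end

end Vale.Agent.P181.K
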