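import Vale.Agent.P181.Six.K

/-! Kernel-evaluated arithmetic on packed arrays: the stable upper bound and the covering check.
The layout here has stride `80` and digit width `50`. -/

namespace Vale.Agent.P181.K

structure P5 : Type where
  a : Nat
  b : Nat
  c : Nat
  d : Nat
  e : Nat

structure T10 (α : Type) : Type where
  f01 : α
  f02 : α
  f03 : α
  f04 : α
  f12 : α
  f13 : α
  f14 : α
  f23 : α
  f24 : α
  f34 : α

/-- the data of one cycle type: class size, table of residues modulo `2^64`, two bounds -/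
structure Rho : Type where
  c : Nat
  tab : Ls P5
  r : P5
  s : P5

/-- the data of one cycle type for fixed `x` -/
structure RhoX : Type where
  c : Nat
  tab : Ls P5
  e : T10 Ent
  b : T10 Nat
  u : P5

/-- the data of one cycle type for fixed `x, y` -/
structure RhoY : Type where
  c : Nat
  tab : Ls P5
  e : T10 Ent
  b : T10 Nat
  m : T10 Nat

structure St : Type where
  p : Nat
  n : Nat
  b : Nat

structure Cv : Type where
  ok : Bool
  b : Nat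
  cov : Nat

/-- a table of lower bounds at a given level -/
structure Src : Type where
  a : Nat
  t : Ls (Ls (Ls Sv))

noncomputable section

def p50 : P5 := ⟨0, 0, 0, 0, 0⟩

/-- positive part of a residue modulo `2^64` -/
def rpos (r : Nat) : Nat := Nat.mul r (Nat.sub 1 (Nat.shiftRight r 63))

/-- negative part of a residue modulo `2^64` -/
def rneg (r : Nat) : Nat := Nat.mul (Nat.sub 18446744073709551616 r) (Nat.shiftRight r 63)

def hor (f : P5 → Nat) (sh n : Nat) : Ls P5 → PN :=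
  Nat.rec (motive := fun _ => Ls P5 → PN) (fun _ => ⟨0, 0⟩)
    (fun _ ih l => Ls.rec (motive := fun _ => PN) ⟨0, 0⟩
      (fun h t _ => (fun r : PN => ⟨Nat.add (rpos (f h)) (Nat.shiftLeft r.p sh),
        Nat.add (rneg (f h)) (Nat.shiftLeft r.n sh)⟩) (ih t)) l) n

/-- `r c' - r' c` -/
def det2 (r r' c c' : PN) : Ent :=
  Ent.sub
    (Nat.add (Nat.add (Nat.mul r.p c'.p) (Nat.mul r.n c'.n))
      (Nat.add (Nat.mul r'.p c.n) (Nat.mul r'.n c.p)))
    (Nat.add (Nat.add (Nat.mul r.p c'.n) (Nat.mul r.n c'.p))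
      (Nat.add (Nat.mul r'.p c.p) (Nat.mul r'.n c.n)))

def mkT10 {α β : Type} (f : α → α → α → α → β) (r0 r1 r2 r3 r4 c0 c1 c2 c3 c4 : α) : T10 β :=
  ⟨f r0 r1 c0 c1, f r0 r2 c0 c2, f r0 r3 c0 c3, f r0 r4 c0 c4, f r1 r2 c1 c2, f r1 r3 c1 c3,
    f r1 r4 c1 c4, f r2 r3 c2 c3, f r2 r4 c2 c4, f r3 r4 c3 c4⟩

def rhoX (x : Nat) (ρ : Rho) : RhoX :=
  (fun (lr lc : Ls P5) (n : Nat) =>
    ⟨ρ.c, ρ.tab,
      mkT10 det2 (hor P5.a 50 80 lr) (hor P5.b 50 80 lr) (hor P5.c 50 80 lr) (hor P5.d 50 80 lr)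
        (hor P5.e 50 80 lr) (hor P5.a 4000 n lc) (hor P5.b 4000 n lc) (hor P5.c 4000 n lc)
        (hor P5.d 4000 n lc) (hor P5.e 4000 n lc),
      mkT10 (fun r r' c c' => Nat.add (Nat.mul r c') (Nat.mul r' c)) ρ.r.a ρ.r.b ρ.r.c ρ.r.d ρ.r.e
        ρ.s.a ρ.s.b ρ.s.c ρ.s.d ρ.s.e,
      ρ.tab.get p50 x⟩)
  (ρ.tab.drop (Nat.add x 2)) (ρ.tab.drop (Nat.succ x))
  (Nat.succ (Nat.div (Nat.sub 153 (Nat.mul 4 x)) 3))

def rhoY (y : Nat) (ρ : RhoX) : RhoY :=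
  (fun v : P5 => ⟨ρ.c, ρ.tab, ρ.e, ρ.b,
    mkT10 (fun r r' c c' => Nat.land (Nat.add (Nat.mul r c')
        (Nat.mul 18446744073709551615 (Nat.mul r' c))) 18446744073709551615)
      ρ.u.a ρ.u.b ρ.u.c ρ.u.d ρ.u.e v.a v.b v.c v.d v.e⟩) (ρ.tab.get p50 y)

/-- add `t * e`, where `t` is a residue modulo `2^64` -/
def stepU (t : Nat) (e : Ent) (b : Nat) (s : St) : St :=
  ite' (Nat.ble t 9223372036854775807)
    (Ent.rec (motive := fun _ => St) ⟨s.p, s.n, Nat.add s.b (Nat.mul t b)⟩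
      (fun v => ⟨Nat.add s.p (Nat.mul t v.v), s.n, Nat.add s.b (Nat.mul t b)⟩)
      (fun v => ⟨s.p, Nat.add s.n (Nat.mul t v.v), Nat.add s.b (Nat.mul t b)⟩)
      ⟨s.p, s.n, Nat.add s.b (Nat.mul t b)⟩ e)
    ((fun t' : Nat => Ent.rec (motive := fun _ => St) ⟨s.p, s.n, Nat.add s.b (Nat.mul t' b)⟩
      (fun v => ⟨s.p, Nat.add s.n (Nat.mul t' v.v), Nat.add s.b (Nat.mul t' b)⟩)
      (fun v => ⟨Nat.add s.p (Nat.mul t' v.v), s.n, Nat.add s.b (Nat.mul t' b)⟩)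
      ⟨s.p, s.n, Nat.add s.b (Nat.mul t' b)⟩ e) (Nat.sub 18446744073709551616 t))

/-- `c (wa mbc - wb mac + wc mab)` modulo `2^64` -/
def min3 (c wa wb wc mbc mac mab : Nat) : Nat :=
  Nat.land (Nat.mul c (Nat.add (Nat.add (Nat.mul wa mbc) (Nat.mul wc mab))
    (Nat.mul 18446744073709551615 (Nat.mul wb mac)))) 18446744073709551615

def accU (z : Nat) (ρ : RhoY) (s : St) : St :=
  (fun (w : P5) (c' : Nat) =>
    stepU (min3 ρ.c w.c w.d w.e ρ.m.f34 ρ.m.f24 ρ.m.f23) ρ.e.f01 ρ.b.f01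
    (stepU (min3 c' w.b w.d w.e ρ.m.f34 ρ.m.f14 ρ.m.f13) ρ.e.f02 ρ.b.f02
    (stepU (min3 ρ.c w.b w.c w.e ρ.m.f24 ρ.m.f14 ρ.m.f12) ρ.e.f03 ρ.b.f03
    (stepU (min3 c' w.b w.c w.d ρ.m.f23 ρ.m.f13 ρ.m.f12) ρ.e.f04 ρ.b.f04
    (stepU (min3 ρ.c w.a w.d w.e ρ.m.f34 ρ.m.f04 ρ.m.f03) ρ.e.f12 ρ.b.f12
    (stepU (min3 c' w.a w.c w.e ρ.m.f24 ρ.m.f04 ρ.m.f02) ρ.e.f13 ρ.b.f13
    (stepU (min3 ρ.c w.a w.c w.d ρ.m.f23 ρ.m.f03 ρ.m.f02) ρ.e.f14 ρ.b.f14
    (stepU (min3 ρ.c w.a w.b w.e ρ.m.f14 ρ.m.f04 ρ.m.f01) ρ.e.f23 ρ.b.f23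
    (stepU (min3 c' w.a w.b w.d ρ.m.f13 ρ.m.f03 ρ.m.f01) ρ.e.f24 ρ.b.f24
    (stepU (min3 ρ.c w.a w.b w.c ρ.m.f12 ρ.m.f02 ρ.m.f01) ρ.e.f34 ρ.b.f34 s))))))))))
  (ρ.tab.get p50 z) (Nat.sub 18446744073709551616 ρ.c)

def sumU (z : Nat) (l : Ls RhoY) : St :=
  Ls.rec (motive := fun _ => St) ⟨0, 0, 0⟩ (fun h _ ih => accU z h ih) l

def ones50 : Nat := ones 50 4000

/-- the array of stable multiplicities with `n` rows -/
def uArr (z n : Nat) (l : Ls RhoY) : Ent :=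
  (fun s : St => ite' (Nat.ble s.b 1000000000000000)
    (fin 720 (msk (Nat.mul 4000 n)) (Nat.shiftLeft ones50 32)
      (Nat.mul ones50 1125891316908032) ⟨s.p, s.n⟩) Ent.bad) (sumU z l)

/-- digit one at the positions `i + 80 r` with `r ≤ i`, `2 i + r ≤ Q` -/
def tri (n : Nat) : Nat → Nat :=
  Nat.rec (motive := fun _ => Nat → Nat) (fun _ => 0)
    (fun _ ih Q => Nat.add (ones 50 (Nat.succ (Nat.div Q 2)))
      (Nat.shiftLeft (force (Nat.sub Q 3) ih) 4050)) n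

def dom (Q : Nat) : Nat := Nat.shiftLeft (force (Nat.succ (Nat.div Q 3)) fun n => tri n Q) 49

def srcGet (t : Ls (Ls (Ls Sv))) (i y z : Nat) : Nat :=
  (((t.get Ls.nil z).get Ls.nil y).get ⟨0, 0⟩ i).v

def src0 : Src := ⟨0, Ls.nil⟩

def fld (i lo n : Nat) : Nat := Nat.land (Nat.shiftRight i lo) n

def stepSrc (srcs : Ls Src) (ku x y z i : Nat) (s : Cv) : Cv :=
  force (fld i 2 31) fun t => force (fld i 7 31) fun y' => force (fld i 12 31) fun z' =>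
  force (fld i 17 63) fun i' => force (fld i 23 31) fun d =>
  force (Nat.sub (Nat.add y 1) y') fun Y => force (Nat.sub z z') fun Z =>
  force (Nat.sub (Nat.sub (Nat.add x 1) (Nat.add (Nat.succ y') i')) Y) fun I =>
  (fun (sa sd : Src) (pos : Nat) =>
    ite' (Nat.ble y' y) (ite' (Nat.ble z' z)
      (ite' (Nat.ble (Nat.add (Nat.add (Nat.succ y') i') Y) (Nat.add x 1))
        (ite' (Nat.ble (Nat.add sa.a sd.a) s.b)
          (ite' (Nat.beq (fld (srcGet sd.t I Y Z) pos 1125899906842623) 0) ⟨false, 0, 0⟩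
            ⟨s.ok, s.b, Nat.lor s.cov (Nat.add ku (Nat.shiftLeft (srcGet sa.t i' y' z') pos))⟩)
          ⟨false, 0, 0⟩) ⟨false, 0, 0⟩) ⟨false, 0, 0⟩) ⟨false, 0, 0⟩)
    (srcs.get src0 t) (srcs.get src0 d) (Nat.mul 50 (fld i 28 8191))

def stepChk (x y z i : Nat) (s : Cv) : Cv :=
  (fun b' k : Nat =>
    ite' (Nat.ble s.b b') (ite' (Nat.ble b' 24)
      (ite' (Nat.ble k (Nat.add (Nat.mul 6 b') 9))
        ((fun D : Nat => ite' (Nat.beq (Nat.land D s.cov) D) ⟨s.ok, Nat.succ b', s.cov⟩ ⟨false, 0, 0⟩)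
          (force (Nat.sub (Nat.add (Nat.mul 6 b') 9) k) dom))
        ⟨s.ok, Nat.succ b', s.cov⟩) ⟨false, 0, 0⟩) ⟨false, 0, 0⟩)
    (Nat.shiftRight i 2) (Nat.add (Nat.add (Nat.mul 4 x) y) z)

def stepSkip (ex : Ls (Ls (Ls Nat))) (x y z : Nat) (s : Cv) : Cv :=
  force s.b fun b => ite' (Nat.ble b 24)
    (ite' (Nat.ble (mxOf (ex.get Ls.nil b) y z) x) ⟨false, 0, 0⟩ ⟨s.ok, Nat.succ b, s.cov⟩)
    ⟨false, 0, 0⟩

def runCv (srcs : Ls Src) (ex : Ls (Ls (Ls Nat))) (ku x y z n : Nat) : Nat → Cv → Cv :=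
  Nat.rec (motive := fun _ => Nat → Cv → Cv) (fun _ s => s)
    (fun _ ih c s => (fun i : Nat =>
      (fun s' : Cv => ite' s'.ok (ih (Nat.shiftRight c 41) s') ⟨false, 0, 0⟩)
      (ite' (Nat.ble 2 (Nat.land i 3)) (stepSrc srcs ku x y z i s)
        (ite' (Nat.beq (Nat.land i 3) 0) (stepChk x y z i s) (stepSkip ex x y z s))))
      (Nat.land c 2199023255551)) n

def coverGo (srcs : Ls Src) (ex : Ls (Ls (Ls Nat))) (ku x y z c : Nat) : Bool :=
  (fun s : Cv => ite' s.ok (Nat.beq s.b 25) false)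
    (runCv srcs ex ku x y z (Nat.land c 1023) (Nat.shiftRight c 10) ⟨true, 7, ku⟩)

def coverKey (srcs : Ls Src) (ex : Ls (Ls (Ls Nat))) (l : Ls RhoY) (x y z c : Nat) : Bool :=
  force (Nat.succ (Nat.div (Nat.sub 153 (Nat.add (Nat.add (Nat.mul 4 x) y) z)) 3)) fun n =>
    (fun hm : Nat => Ent.rec (motive := fun _ => Bool) (coverGo srcs ex hm x y z c)
      (fun v => coverGo srcs ex (Nat.sub hm v.v) x y z c)
      (fun v => coverGo srcs ex (Nat.add hm v.v) x y z c) false (uArr z n l))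
    (Nat.land (Nat.shiftLeft ones50 49) (msk (Nat.mul 4000 n)))

/-- the keys `z, z + 1, ..., z + n - 1` -/
def coverRow (srcs : Ls Src) (ex : Ls (Ls (Ls Nat))) (l : Ls RhoY) (x y n : Nat) :
    Nat → Ls Nat → Bool :=
  Nat.rec (motive := fun _ => Nat → Ls Nat → Bool) (fun _ _ => true)
    (fun _ ih z cs => Ls.rec (motive := fun _ => Bool) false
      (fun c cs' _ => ite' (coverKey srcs ex l x y z c) (force (Nat.succ z) fun z' => ih z' cs') false)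
      cs) n

/-- the rows `y, y + 1, ..., y + n - 1` -/
def coverSlice (srcs : Ls Src) (ex : Ls (Ls (Ls Nat))) (l : Ls RhoX) (x n : Nat) :
    Nat → Ls (Ls Nat) → Bool :=
  Nat.rec (motive := fun _ => Nat → Ls (Ls Nat) → Bool) (fun _ _ => true)
    (fun _ ih y cs => Ls.rec (motive := fun _ => Bool) false
      (fun c cs' _ => ite' ((fun k : Nat => coverRow srcs ex (l.map (rhoY y)) x y
          (Nat.sub y (Nat.sub y k)) 0 c) (Nat.sub 154 (Nat.add (Nat.mul 4 x) y)))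
        (force (Nat.succ y) fun y' => ih y' cs') false) cs) n

def cover (srcs : Ls Src) (ex : Ls (Ls (Ls Nat))) (rhos : Ls Rho) (x y n : Nat)
    (cs : Ls (Ls Nat)) : Bool :=
  coverSlice srcs ex (rhos.map (rhoX x)) x n y cs

/-! ### exact comparison -/

structure M1 : Type where
  ok : Bool
  a : Nat
  bs : Ls L3
  tb : L3

def tblOf (J : Job) (L : Lev) (bs : Ls L3) (t : Ls (Ls Nat)) : L3 :=
  asc (fun z => chunk J L bs t z 0 J.n5) J.n6 0

/-- all levels of a small job at once -/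
def runJob (J : Job) (t : Ls (Ls Nat)) (ws : Ls Nat) : M1 → M1 :=
  Ls.rec (motive := fun _ => M1 → M1) (fun s => s)
    (fun w _ ih s => (fun bs : Ls L3 => (fun tb : L3 =>
      ih ⟨ite' s.ok (tb.all (Ls.all (Ls.all Ent.ok))) false, Nat.succ s.a, bs, tb⟩)
      (tblOf J (J.lev (Nat.succ s.a) w) bs t)) (Ls.cons (mkBox J s.tb) s.bs)) ws

/-- digitwise `u ≤ v` and `u < 2^40` -/
def cmpArr (u v : Nat) : Bool :=
  ite' (Nat.beq (Nat.land u (Nat.shiftLeft ones50 40)) 0)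
    ((fun hm : Nat => Nat.beq (Nat.land (Nat.sub (Nat.add hm v) u) hm) hm)
      (Nat.shiftLeft ones50 49)) false

def cmpRow (t2 : Ls (Ls (Ls Sv))) (y z : Nat) (l : Ls Sv) : Nat → Bool :=
  Ls.rec (motive := fun _ => Nat → Bool) (fun _ => true)
    (fun h _ ih i => ite' (cmpArr h.v (srcGet t2 i y z)) (force (Nat.succ i) ih) false) l

def cmpSlice (t2 : Ls (Ls (Ls Sv))) (z : Nat) (l : Ls (Ls Sv)) : Nat → Bool :=
  Ls.rec (motive := fun _ => Nat → Bool) (fun _ => true)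
    (fun h _ ih y => ite' (cmpRow t2 y z h 0) (force (Nat.succ y) ih) false) l

def cmpTbl (t2 : Ls (Ls (Ls Sv))) (l : Ls (Ls (Ls Sv))) : Nat → Bool :=
  Ls.rec (motive := fun _ => Nat → Bool) (fun _ => true)
    (fun h _ ih z => ite' (cmpSlice t2 z h 0) (force (Nat.succ z) ih) false) l

/-- compute the multiplicities in `Sym^6 Sym^m` and compare them with the table `t2` -/
def exact6 (J : Job) (t : Ls (Ls Nat)) (w1 w2 w3 w4 w5 w6 : Nat) (t2 : Ls (Ls (Ls Sv))) : Bool :=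
  (fun s : M1 => ite' s.ok
    (cmpTbl t2 (relayTbl J 6 w6 1099511627776 80 50 t s.tb 0 J.n6) 0) false)
  (runJob J t (Ls.cons w1 (Ls.cons w2 (Ls.cons w3 (Ls.cons w4 (Ls.cons w5 (Ls.cons w6 Ls.nil))))))
    ⟨true, 0, Ls.nil, tbl0 J⟩)

/-! ### checks on the tables of bounds -/

def Ls.len {α : Type} (l : Ls α) : Nat :=
  Ls.rec (motive := fun _ => Nat) 0 (fun _ _ ih => Nat.succ ih) l

def allLt (f : Nat → Bool) (n : Nat) : Bool :=
  Nat.rec (motive := fun _ => Bool) true (fun k ih => ite' (f k) ih false) n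

def tCheck (J : Job) (t : Ls (Ls Nat)) : Bool :=
  ite' (Nat.ble t.len J.n6)
    (t.all fun r => ite' (Nat.ble r.len J.n5) (r.all fun v => Nat.ble v J.n4) false) false

def tAnti (J : Job) (t : Ls (Ls Nat)) : Bool :=
  allLt (fun z => allLt (fun y => ite' (Nat.ble (mxOf t (Nat.succ y) z) (mxOf t y z))
    (Nat.ble (mxOf t y (Nat.succ z)) (mxOf t y z)) false) J.n5) J.n6

def tLe (J : Job) (t t' : Ls (Ls Nat)) : Bool :=
  allLt (fun z => allLt (fun y => Nat.ble (mxOf t y z) (mxOf t' y z)) J.n5) J.n6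

end

end Vale.Agent.P181.K
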