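import Vale.Agent.P181.Six.K2

/-! Large numbers stored compactly as trees of short pieces. -/

namespace Vale.Agent.P181.K

inductive T : Type
  | l : Nat → T
  | s : Nat → T → T
  | n : Nat → T → T → T
  | a : Nat → Nat → T → T
  | b : Nat → Nat → Nat → Nat → T → T

noncomputable section

/-- the low `b` bits of every digit -/
def dmask (on b : Nat) : Nat := Nat.sub (Nat.shiftLeft on b) on

/-- move the high bits of every digit up by `sh` -/
def ufA (on b sh Z : Nat) : Nat :=
  (fun low : Nat => Nat.add low (Nat.shiftLeft (Nat.shiftRight (Nat.xor Z low) b) sh))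
    (Nat.land Z (dmask on b))

def squash (sh c p : Nat) : Nat → Nat :=
  Nat.rec (motive := fun _ => Nat → Nat) (fun v => v)
    (fun _ ih v => Nat.add (Nat.land v (msk sh)) (ih (Nat.shiftRight v (Nat.sub sh c)))) p

/-- collect the high bits of `p + 1` blocks into a new block -/
def ufB (on b c sh p Z : Nat) : Nat :=
  (fun low : Nat => Nat.add low (Nat.shiftLeft
      (squash sh c p (Nat.shiftRight (Nat.xor Z low) b)) (Nat.mul sh (Nat.succ p))))
    (Nat.land Z (dmask on b))

def T.val (on : Nat) (t : T) : Nat :=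
  T.rec (motive := fun _ => Nat) (fun v => v) (fun sh _ ih => Nat.shiftLeft ih sh)
    (fun sh _ _ a b => Nat.add a (Nat.shiftLeft b sh)) (fun b sh _ ih => ufA on b sh ih)
    (fun b c sh p _ ih => ufB on b c sh p ih) t

/-- the offset for `r` rows -/
def om (J : Job) (w r : Nat) : Nat := Nat.land (J.off w) (msk (Nat.mul J.W (Nat.mul J.S r)))

def up (on o : Nat) (t : T) : Sv := sv (Nat.sub (Nat.xor (t.val on) o) o)

def un (on o : Nat) (t : T) : Sv := sv (Nat.sub o (Nat.xor (t.val on) o))

def ut (t : T) : Sv := sv (t.val ones50)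

def u0 : Sv := ⟨0, 0⟩

end

end Vale.Agent.P181.K
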