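import Vale.Agent.P181.Six.KNewton

/-! Antisymmetry of the tables; level zero. -/

namespace Vale.Agent.P181.K

open MvPolynomial

namespace Box

theorem coeff_swap {i j : Fin 6} (hij : i ≠ j) (a m : ℕ) {ν μ : Wt}
    (h : ∀ k, μ k = ν (Equiv.swap i j k)) : coeff μ (agf a m) = -coeff ν (agf a m) := by
  have e : μ = ν.mapDomain (Equiv.swap i j) := by
    ext k
    rw [Finsupp.mapDomain_equiv_apply, Equiv.symm_swap, h]
  rw [e, coeff_agf_perm, Equiv.Perm.sign_swap hij]
  simp

end Box

open K.Box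

theorem cf_swap45 (a m u v x y z : ℕ) : cf a m u v y x z = -cf a m u v x y z := by
  unfold cf
  rw [show u + v + y + x + z = u + v + x + y + z by omega]
  split_ifs
  · refine coeff_swap (i := 3) (j := 4) (by decide) a m fun k => ?_
    fin_cases k <;> rfl
  · rfl

theorem cf_swap56 (a m u v x y z : ℕ) : cf a m u v x z y = -cf a m u v x y z := by
  unfold cf
  rw [show u + v + x + z + y = u + v + x + y + z by omega]
  split_ifs
  · refine coeff_swap (i := 4) (j := 5) (by decide) a m fun k => ?_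
    fin_cases k <;> rfl
  · rfl

namespace Box

variable {J : Job} {t : Ls (Ls ℕ)} {a w x y z : ℕ} {e : Ent} {tb : L3}

theorem ent_neg {x' y' z' : ℕ} (hs : x' + y' + z' = x + y + z)
    (hc : ∀ u v, cf a J.m u v x' y' z' = -cf a J.m u v x y z) (h : EntOK J a w x y z e) :
    EntOK J a w x' y' z' e.flip := by
  rw [EntOK, hs, Ent.val_flip, h.1, pcf, pcf, ← pk_neg]
  refine ⟨pk_congr fun p _ => (hc _ _).symm, fun u v hu hv => ?_⟩
  rw [hc, abs_neg]
  exact h.2 u v hu hv

theorem swap45 (h : EntOK J a w x y z e) : EntOK J a w y x z e.flip :=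
  ent_neg (by omega) (fun u v => cf_swap45 a J.m u v x y z) h

theorem swap56 (h : EntOK J a w x y z e) : EntOK J a w x z y e.flip :=
  ent_neg (by omega) (fun u v => cf_swap56 a J.m u v x y z) h

theorem flip_flip (e : Ent) : e.flip.flip = e := by cases e <;> rfl

theorem cyc3 (h : EntOK J a w z x y e) : EntOK J a w x y z e :=
  flip_flip e ▸ swap56 (swap45 h)

theorem ent_zero (hc : ∀ u v, cf a J.m u v x y z = 0) : EntOK J a w x y z Ent.zero := by
  refine ⟨?_, fun u v _ _ => ?_⟩
  · rw [pcf, pk_congr (g := fun _ => 0) fun p _ => hc _ _, pk_zero]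
    rfl
  · rw [hc, abs_zero]
    positivity

theorem zero45 : EntOK J a w x x z Ent.zero :=
  ent_zero fun u v => by have := cf_swap45 a J.m u v x x z; omega

theorem zero56 : EntOK J a w x y y Ent.zero :=
  ent_zero fun u v => by have := cf_swap56 a J.m u v x y y; omega

theorem zero46 : EntOK J a w x y x Ent.zero := swap56 (e := Ent.zero) zero45

theorem look2_ok (ha : TAnti t) (h : TblOK J t a w tb) {Y Z : ℕ} (hy : y < x) (hz : z < x)
    (hx : x < mxOf t Y Z) (h1 : max y z ≤ Y) (h2 : min y z ≤ Z) :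
    EntOK J a w x y z (look2 J tb x y z) := by
  rw [look2, ite'_beq, ite'_ble]
  split_ifs with e1 e2
  · exact e1 ▸ zero56
  · exact h x y z (by omega) hy (hx.trans_le (ha _ _ _ _ (by omega) (by omega)))
  · exact swap56 (h x z y (by omega) hz (hx.trans_le (ha _ _ _ _ (by omega) (by omega))))

/-- the sign of a comparison -/
def cs (u v : ℕ) : ℤ := if u = v then 0 else if u ≤ v then -1 else 1

theorem val_cmpE (u v : ℕ) (e : Ent) : (cmpE u v e).val = cs u v * e.val := by
  rw [cmpE, ite'_beq, ite'_ble, cs]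
  split_ifs
  · rw [zero_mul]
    rfl
  · rw [Ent.val_flip, neg_one_mul]
  · rw [one_mul]

/-- a sign -/
def IsSgn (e : Ent) : Prop := e = Ent.zero ∨ e = Ent.pos ⟨1, 1⟩ ∨ e = Ent.neg ⟨1, 1⟩

theorem IsSgn.cmpE (u v : ℕ) (h : IsSgn e) : IsSgn (cmpE u v e) := by
  rw [K.cmpE, ite'_beq, ite'_ble]
  split_ifs
  · exact Or.inl rfl
  · rcases h with rfl | rfl | rfl
    exacts [Or.inl rfl, Or.inr (Or.inr rfl), Or.inr (Or.inl rfl)]
  · exact h

theorem isSgn_sgn6 (a b c d e f : ℕ) : IsSgn (sgn6 a b c d e f) := by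
  unfold sgn6
  iterate 15 refine IsSgn.cmpE _ _ ?_
  exact Or.inr (Or.inl rfl)

theorem val_sgn6 (ν : Wt) : (sgn6 (ν 0) (ν 1) (ν 2) (ν 3) (ν 4) (ν 5)).val =
    ∏ i, ∏ j ∈ Finset.Ioi i, cs (ν i) (ν j) := by
  have h0 : Finset.Ioi (0 : Fin 6) = {1, 2, 3, 4, 5} := by decide
  have h1 : Finset.Ioi (1 : Fin 6) = {2, 3, 4, 5} := by decide
  have h2 : Finset.Ioi (2 : Fin 6) = {3, 4, 5} := by decide
  have h3 : Finset.Ioi (3 : Fin 6) = {4, 5} := by decide
  have h4 : Finset.Ioi (4 : Fin 6) = {5} := by decide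
  have h5 : Finset.Ioi (5 : Fin 6) = ∅ := by decide
  have h6 : (Ent.pos ⟨1, 1⟩).val = 1 := rfl
  rw [Fin.prod_univ_six, h0, h1, h2, h3, h4, h5]
  repeat rw [Finset.prod_insert (by decide)]
  simp only [sgn6, val_cmpE, h6, Finset.prod_singleton, Finset.prod_empty]
  ring

theorem coeff_zero_level (m : ℕ) {ν : Wt} (h : ∀ i, ν i ≤ 5) :
    coeff ν (agf 0 m) = ∏ i, ∏ j ∈ Finset.Ioi i, cs (ν i) (ν j) := by
  by_cases hinj : Function.Injective ν
  · have hσ : Function.Injective fun i : Fin 6 => (⟨5 - ν i, by omega⟩ : Fin 6) := fun i j e => by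
      have e' : 5 - ν i = 5 - ν j := congrArg Fin.val e
      have := h i
      have := h j
      exact hinj (by omega)
    obtain ⟨σ, hs⟩ : ∃ σ : Equiv.Perm (Fin 6), ∀ i, (σ i : ℕ) = 5 - ν i :=
      ⟨Equiv.ofBijective _ (Finite.injective_iff_bijective.1 hσ), fun _ => rfl⟩
    have e : ν = dl.mapDomain σ.symm := by
      ext i
      have := h i
      rw [Finsupp.mapDomain_equiv_apply, Equiv.symm_symm, dl_apply, hs]
      omega
    have h1 := coeff_altn_dl (l := 0) (μ := 0) antitone_const antitone_const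
    rw [zero_add, if_pos rfl] at h1
    conv_lhs => rw [e, coeff_agf_perm, agf, gf_zero, mul_one, h1, mul_one, Equiv.Perm.sign_symm,
      Equiv.Perm.sign_eq_prod_prod_Ioi]
    push_cast
    refine Finset.prod_congr rfl fun i _ => Finset.prod_congr rfl fun j hj => ?_
    have hne : ν i ≠ ν j := fun e => (Finset.mem_Ioi.1 hj).ne (hinj e)
    have hi := h i
    have hj' := h j
    rw [cs, if_neg hne]
    by_cases hlt : σ i < σ j
    · have := Fin.lt_def.1 hlt
      rw [hs, hs] at this
      rw [if_pos hlt, if_neg (by omega)]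
      rfl
    · have := mt Fin.lt_def.2 hlt
      rw [hs, hs] at this
      rw [if_neg hlt, if_pos (by omega)]
      rfl
  · obtain ⟨i, j, hij, e⟩ : ∃ i j, i < j ∧ ν i = ν j := by
      by_contra hc
      push Not at hc
      exact hinj fun i j e => by
        rcases lt_trichotomy i j with h1 | h1 | h1
        exacts [absurd e (hc i j h1), h1, absurd e.symm (hc j i h1)]
    have h1 := coeff_swap hij.ne 0 m (ν := ν) (μ := ν) fun k => by
      rw [Equiv.swap_apply_def]
      split_ifs with e1 e2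
      · rw [e1, e]
      · rw [e2, e]
      · rfl
    have h2 : cs (ν i) (ν j) = 0 := if_pos e
    have h3 : ∏ k ∈ Finset.Ioi i, cs (ν i) (ν k) = 0 :=
      Finset.prod_eq_zero (Finset.mem_Ioi.2 hij) h2
    rw [Finset.prod_eq_zero (f := fun i => ∏ k ∈ Finset.Ioi i, cs (ν i) (ν k))
      (Finset.mem_univ i) h3]
    omega

theorem cf_zero_level (m : ℕ) {u v : ℕ} (hu : u ≤ 5) (hv : v ≤ 5) (hx : x ≤ 5) (hy : y ≤ 5)
    (hz : z ≤ 5) : cf 0 m u v x y z =
      if 10 ≤ u + v + (x + y) + z ∧ u + v + (x + y) + z ≤ 15 then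
        (sgn6 (15 - (u + v + (x + y) + z)) u v x y z).val else 0 := by
  rw [cf, zero_mul, zero_add, ← add_assoc (u + v)]
  by_cases h1 : u + v + x + y + z ≤ 15
  · rw [if_pos h1]
    by_cases h2 : 10 ≤ u + v + x + y + z
    · rw [if_pos ⟨h2, h1⟩, coeff_zero_level, ← val_sgn6]
      · rfl
      · intro i
        fin_cases i
        exacts [(by omega : 15 - (u + v + x + y + z) ≤ 5), hu, hv, hx, hy, hz]
    · rw [if_neg fun h => h2 h.1]
      by_contra hne
      have := (agf_support hne).2 0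
      rw [mk6_0] at this
      omega
  · rw [if_neg h1, if_neg fun h => h1 h.2]

theorem ent0Go_val (J : Job) (hx : x ≤ 5) (hy : y ≤ 5) (hz : z ≤ 5) {n : ℕ} (hn : n ≤ 36) :
    (ent0Go J x y z n).val = ∑ i ∈ Finset.range n,
      cf 0 J.m (i % 6) (i / 6) x y z * 2 ^ (J.W * (i % 6 + J.S * (i / 6))) := by
  induction n with
  | zero => rfl
  | succ n ih =>
    rw [Finset.sum_range_succ, ← ih (by omega), cf_zero_level J.m (by omega) (by omega) hx hy hz]
    change (ite' (Nat.ble 10 (n % 6 + n / 6 + (x + y) + z))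
      (ite' (Nat.ble (n % 6 + n / 6 + (x + y) + z) 15)
        (Ent.rec (motive := fun _ => PN) (ent0Go J x y z n)
          (fun _ => ⟨(ent0Go J x y z n).p + 1 <<< (J.W * (n % 6 + J.S * (n / 6))),
            (ent0Go J x y z n).n⟩)
          (fun _ => ⟨(ent0Go J x y z n).p,
            (ent0Go J x y z n).n + 1 <<< (J.W * (n % 6 + J.S * (n / 6)))⟩)
          (ent0Go J x y z n) (sgn6 (15 - (n % 6 + n / 6 + (x + y) + z)) (n % 6) (n / 6) x y z))
        (ent0Go J x y z n)) (ent0Go J x y z n)).val = _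
    rw [ite'_ble, ite'_ble]
    by_cases h1 : 10 ≤ n % 6 + n / 6 + (x + y) + z
    · by_cases h2 : n % 6 + n / 6 + (x + y) + z ≤ 15
      · rw [if_pos h1, if_pos h2, if_pos ⟨h1, h2⟩]
        rcases isSgn_sgn6 (15 - (n % 6 + n / 6 + (x + y) + z)) (n % 6) (n / 6) x y z with
          e | e | e <;> rw [e] <;> simp only [PN.val, Ent.val, Nat.shiftLeft_eq] <;> push_cast <;>
          ring
      · rw [if_pos h1, if_neg h2, if_neg fun h => h2 h.2, zero_mul, add_zero]
    · rw [if_neg h1, if_neg fun h => h1 h.1, zero_mul, add_zero]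

theorem cf_big {m u v : ℕ} (h : 5 < u ∨ 5 < v ∨ 5 < x) : cf 0 m u v x y z = 0 := by
  by_contra hne
  have := cf_support hne
  omega

theorem ent0_ok (h0 : ZeroCond J) (hz : z < y) (hy : y < x) : EntOK J 0 0 x y z (ent0 J x y z) := by
  rw [ent0, ite'_ble]
  split_ifs with hx
  swap
  · exact ent_zero fun u v => cf_big (by omega)
  refine ⟨?_, fun u v _ _ => ?_⟩
  · have hM : 6 ≤ J.rows (x + y + z) := by
      have := h0.2.1
      change 6 ≤ (J.C - (x + y + z)) / 3
      omega
    have h1 := pk_rows 0 6 6 fun u v => cf 0 J.m u v x y z * 2 ^ (J.W * (u + J.S * v))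
    simp only [pk, zero_mul, pow_zero, mul_one] at h1
    rw [Ent.val_sub, pcf, pk_rows J.W J.S _ fun u v => cf 0 J.m u v x y z]
    refine ((ent0Go_val J hx (by omega) (by omega) le_rfl).trans h1).trans ?_
    refine (Finset.sum_congr rfl fun v _ => ?_).trans
      (Finset.sum_subset (Finset.range_subset_range.2 hM) fun v _ hv => ?_)
    · refine Finset.sum_subset (Finset.range_subset_range.2 h0.1) fun u _ hu => ?_
      rw [Finset.mem_range] at hu
      rw [cf_big (by omega), zero_mul]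
    · rw [Finset.mem_range] at hv
      exact Finset.sum_eq_zero fun u _ => by rw [cf_big (by omega), zero_mul]
  · by_cases h : 5 < u ∨ 5 < v
    · rw [cf_big (by omega)]
      norm_num
    · rw [cf_zero_level J.m (by omega) (by omega) hx (by omega) (by omega)]
      split_ifs
      · rcases isSgn_sgn6 (15 - (u + v + (x + y) + z)) u v x y z with e | e | e <;> rw [e] <;>
          simp [Ent.val]
      · norm_num

end Box

theorem box_ok {J : Job} {t : Ls (Ls ℕ)} {a w : ℕ} {tb : L3} (ha : TAnti t)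
    (h : TblOK J t a w tb) : BoxOK J t a w (mkBox J tb) := by
  refine ⟨look3 J tb, rfl, fun x y z ⟨X, Y, Z, h1, h2, h3, h4, h5, h6⟩ => ?_⟩
  rw [look3, ite'_ble, ite'_ble, ite'_ble, ite'_beq, ite'_beq, ite'_beq]
  split_ifs with e1 e2 e3 e4 e5 e6
  · exact e3 ▸ zero56
  · exact cyc3 (look2_ok ha h (Y := Y) (Z := Z) (by omega) (by omega) (by omega) (by omega)
      (by omega))
  · exact e4 ▸ zero45
  · exact swap45 (look2_ok ha h (Y := Y) (Z := Z) (by omega) (by omega) (by omega) (by omega)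
      (by omega))
  · exact e6 ▸ zero46
  · exact cyc3 (look2_ok ha h (Y := Y) (Z := Z) (by omega) (by omega) (by omega) (by omega)
      (by omega))
  · exact look2_ok ha h (Y := Y) (Z := Z) (by omega) (by omega) (by omega) (by omega) (by omega)

theorem tbl0_ok {J : Job} {t : Ls (Ls ℕ)} (h0 : ZeroCond J) (ht : TOK J t) :
    TblOK J t 0 0 (tbl0 J) := by
  intro x y z hz hy hx
  have h4 := (ht y z).1
  rw [look, tbl0, get_asc]
  split_ifs with h1
  · rw [get_asc]
    split_ifs with h2
    · simp only [Nat.zero_add, Nat.sub_eq, Nat.succ_eq_add_one]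
      rw [ite'_ble, if_neg (by omega), get_descFrom, if_pos (by omega),
        show y + 1 + (J.n4 - (y + 1) - 1 - (J.n4 - (x + 1))) = x by omega]
      exact ent0_ok h0 hz hy
    · exact ent_zero fun u v => cf_big (by omega)
  · exact ent_zero fun u v => cf_big (by omega)

end Vale.Agent.P181.K
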