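import Vale.Agent.P181.Six.KKey

/-! Correctness of chunks and tables; soundness of the Boolean checks. -/

namespace Vale.Agent.P181.K

namespace Chunk

theorem beq_sound {α : Type} {f : α → α → Bool} {ok : α → Bool}
    (hf : ∀ a b, f a b = true → a = b ∧ ok a = true) (l m : Ls α) (h : Ls.beq f l m = true) :
    l = m ∧ l.all ok = true := by
  induction l generalizing m with
  | nil =>
    cases m with
    | nil => exact ⟨rfl, rfl⟩
    | cons b t => simp at h
  | cons a s ih =>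
    cases m with
    | nil => simp at h
    | cons b t =>
      rw [Ls.beq_cons_cons, Bool.and_eq_true] at h
      obtain ⟨h1, h2⟩ := hf a b h.1
      obtain ⟨h3, h4⟩ := ih t h.2
      rw [Ls.all_cons, h2, h4, h1, h3]
      exact ⟨rfl, rfl⟩

theorem sv_beq {s t : Sv} (h : Sv.beq s t = true) : s = t := by
  obtain ⟨v, k⟩ := s
  obtain ⟨v', k'⟩ := t
  rw [Sv.beq, ite'_beq] at h
  split_ifs at h with h1
  rw [Nat.beq_eq] at h
  dsimp only at h h1
  rw [h, h1]

theorem ent_beq (e f : Ent) (h : Ent.beq e f = true) : e = f ∧ e.ok = true := by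
  cases e <;> cases f <;> first
    | exact ⟨rfl, rfl⟩
    | exact absurd h Bool.false_ne_true
    | exact ⟨congrArg _ (sv_beq h), rfl⟩

theorem allLt_spec {f : ℕ → Bool} {n : ℕ} (h : allLt f n = true) {k : ℕ} (hk : k < n) :
    f k = true := by
  induction n with
  | zero => omega
  | succ n ih =>
    change ite' (f n) (allLt f n) false = true at h
    rw [ite'_eq] at h
    split_ifs at h with h1
    rcases Nat.lt_succ_iff_lt_or_eq.1 hk with h2 | rfl
    · exact ih h h2
    · exact h1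

theorem len_append {α : Type} (l m : Ls α) : (l.append m).len = l.len + m.len := by
  induction l with
  | nil => simp
  | cons a t ih => rw [Ls.append_cons, Ls.len_cons, Ls.len_cons, ih, Nat.add_right_comm]

theorem get_append {α : Type} (l m : Ls α) (d : α) (i : ℕ) :
    (l.append m).get d i = if i < l.len then l.get d i else m.get d (i - l.len) := by
  induction l generalizing i with
  | nil => simp
  | cons a t ih =>
    cases i with
    | zero => simp
    | succ i =>
      rw [Ls.append_cons, Ls.get_succ, ih, Ls.len_cons, Ls.get_succ, Nat.add_sub_add_right]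
      simp only [Nat.add_lt_add_iff_right]

theorem get_pad (k : ℕ) (l : L1) (i : ℕ) : (pad k l).get Ent.zero (i + k) = l.get Ent.zero i := by
  induction k with
  | zero => rfl
  | succ k ih => exact ih

theorem all_pad (k : ℕ) (l : L1) : (pad k l).all Ent.ok = l.all Ent.ok := by
  induction k with
  | zero => rfl
  | succ k ih => exact ih

/-- the boxes of the lower levels, cut to the given dimensions -/
inductive Cubes (J : Job) (t : Ls (Ls ℕ)) (n4 n5 n6 : ℕ) : ℕ → ℕ → Ls L3 → Prop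
  | nil : Cubes J t n4 n5 n6 0 0 Ls.nil
  | cons {a bnd w : ℕ} {g : ℕ → ℕ → ℕ → Ent} {bs : Ls L3} :
      (∀ x y z, Dom t x y z → EntOK J a w x y z (g x y z)) → Cubes J t n4 n5 n6 a bnd bs →
      Cubes J t n4 n5 n6 (a + 1) (bnd + 2 ^ w) (Ls.cons (cube g n4 n5 n6) bs)

theorem cubes_of_boxes {J : Job} {t : Ls (Ls ℕ)} {a bnd : ℕ} {bs : Ls L3}
    (h : BoxesOK J t a bnd bs) : Cubes J t J.n4 J.n5 J.n6 a bnd bs := by
  induction h with
  | nil => exact Cubes.nil
  | cons hB _ ih =>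
    obtain ⟨g, rfl, hg⟩ := hB
    exact Cubes.cons hg ih

theorem Cubes.map {J : Job} {t : Ls (Ls ℕ)} {n4 n5 n6 k4 k5 k6 a bnd : ℕ} {bs : Ls L3}
    {F : L3 → L3} (hF : ∀ g, F (cube g n4 n5 n6) = cube g k4 k5 k6)
    (h : Cubes J t n4 n5 n6 a bnd bs) : Cubes J t k4 k5 k6 a bnd (bs.map F) := by
  induction h with
  | nil => exact Cubes.nil
  | cons hg _ ih =>
    rw [Ls.map_cons, hF]
    exact Cubes.cons hg ih

theorem Cubes.cuts {J : Job} {t : Ls (Ls ℕ)} {x y z a bnd : ℕ} {bs : Ls L3}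
    (hz : z < y) (hy : y < x) (hx : x < mxOf t y z)
    (h : Cubes J t (x + 1) (y + 1) (z + 1) a bnd bs) : CutsOK J x y z a bnd bs := by
  induction h with
  | nil => exact CutsOK.nil
  | cons hg _ ih =>
    exact CutsOK.cons (fun x' y' z' h1 h2 h3 => hg _ _ _ ⟨x, y, z, hz, hy, hx, h1, h2, h3⟩) ih

theorem rowGo_succ (J : Job) (L : Lev) (s0 n : ℕ) (bs : Ls L3) :
    rowGo J L s0 (n + 1) bs = Ls.cons (key J L (s0 + n) bs)
      (rowGo J L s0 n (bs.map (Ls.map (Ls.map Ls.tail)))) := rfl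

theorem rowGo_ok {J : Job} {t : Ls (Ls ℕ)} {a w bnd y z : ℕ} (hL : LevOK J a w bnd) (hz : z < y)
    (n : ℕ) {bs : Ls L3} (hn : y + 1 + n ≤ mxOf t y z)
    (hb : Cubes J t (y + 1 + n) (y + 1) (z + 1) a bnd bs)
    (hok : (rowGo J (J.lev a w) (y + z + (y + 1)) n bs).all Ent.ok = true) {i j : ℕ}
    (hij : i + j + 1 = n) :
    EntOK J a w (y + 1 + i) y z ((rowGo J (J.lev a w) (y + z + (y + 1)) n bs).get Ent.zero j) := by
  induction n generalizing bs j with
  | zero => omega
  | succ n ih =>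
    rw [rowGo_succ, Ls.all_cons, Bool.and_eq_true] at hok
    rw [rowGo_succ]
    cases j with
    | zero =>
      obtain rfl : i = n := by omega
      rw [Ls.get_zero]
      rw [show y + z + (y + 1) + i = y + 1 + i + y + z by omega] at hok ⊢
      exact key_ok hL (hb.cuts hz (by omega) (by omega)) ((Ent.ok_iff _).1 hok.1)
    | succ j =>
      rw [Ls.get_succ]
      refine ih (by omega) (hb.map fun g => ?_) hok.2 (by omega)
      simp only [cube, map_desc]
      rfl

theorem row_ok {J : Job} {t tl : Ls (Ls ℕ)} {a w bnd x y z : ℕ} {bs : Ls L3}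
    (hL : LevOK J a w bnd) (ht : TOK J t) (hle : TLe t tl) (hb : BoxesOK J tl a bnd bs)
    (hz : z < y) (hy : y < x) (hx : x < mxOf t y z)
    (hok : (row J (J.lev a w) bs (mxOf t y z) y z).all Ent.ok = true) :
    EntOK J a w x y z ((row J (J.lev a w) bs (mxOf t y z) y z).get Ent.zero (J.n4 - (x + 1))) := by
  obtain ⟨h4, h56⟩ := ht y z
  obtain ⟨h5, h6⟩ := h56 (by omega)
  have hle' := hle y z
  generalize mxOf t y z = mx at *
  rw [row, ite'_ble, if_neg (by simp only [Nat.succ_eq_add_one]; omega)] at hok ⊢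
  rw [all_pad] at hok
  simp only [Nat.add_eq, Nat.sub_eq, Nat.succ_eq_add_one] at hok ⊢
  rw [show J.n4 - (x + 1) = mx - (x + 1) + (J.n4 - mx) by omega, get_pad]
  have h := rowGo_ok (t := tl) hL hz (mx - (y + 1)) (by omega)
    ((cubes_of_boxes hb).map fun g => ?_) hok (i := x - (y + 1)) (j := mx - (x + 1)) (by omega)
  · rwa [show y + 1 + (x - (y + 1)) = x by omega] at h
  · simp only [cube, map_desc, drop_desc]
    rw [show J.n6 - (J.n6 - (z + 1)) = z + 1 by omega, show J.n5 - (J.n5 - (y + 1)) = y + 1 by omega,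
      show J.n4 - (J.n4 - mx) = y + 1 + (mx - (y + 1)) by omega]

end Chunk

open K.Chunk

theorem beq3_sv {l m : Ls (Ls (Ls Sv))} (h : Ls.beq (Ls.beq (Ls.beq Sv.beq)) l m = true) :
    l = m :=
  (beq_sound (beq_sound (beq_sound (ok := fun _ => true) fun _ _ h => ⟨sv_beq h, rfl⟩)) l m h).1

theorem beq2_ent {l m : L2} (h : Ls.beq (Ls.beq Ent.beq) l m = true) :
    l = m ∧ l.all (Ls.all Ent.ok) = true := beq_sound (beq_sound ent_beq) l m h

theorem beq3_ent {l m : L3} (h : Ls.beq (Ls.beq (Ls.beq Ent.beq)) l m = true) : l = m :=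
  (beq_sound (beq_sound (beq_sound ent_beq)) l m h).1

theorem tok_of_check {J : Job} {t : Ls (Ls ℕ)} (h : tCheck J t = true) : TOK J t := by
  rw [tCheck, ite'_ble] at h
  split_ifs at h with h6
  intro y z
  unfold mxOf
  by_cases hz : z < t.len
  · have h1 := Ls.all_get h Ls.nil hz
    rw [ite'_ble] at h1
    split_ifs at h1 with h5
    by_cases hy : y < (t.get Ls.nil z).len
    · have h2 := Ls.all_get h1 0 hy
      rw [Nat.ble_eq] at h2
      exact ⟨h2, fun _ => ⟨by omega, by omega⟩⟩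
    · rw [Ls.get_of_len_le _ _ (not_lt.1 hy)]
      exact ⟨Nat.zero_le _, fun e => absurd rfl e⟩
  · rw [Ls.get_of_len_le _ _ (not_lt.1 hz), Ls.get_nil]
    exact ⟨Nat.zero_le _, fun e => absurd rfl e⟩

theorem tanti_of_check {J : Job} {t : Ls (Ls ℕ)} (h0 : TOK J t) (h : tAnti J t = true) :
    TAnti t := by
  have key : ∀ y z, mxOf t (y + 1) z ≤ mxOf t y z ∧ mxOf t y (z + 1) ≤ mxOf t y z := fun y z => by
    by_cases hc : y < J.n5 ∧ z < J.n6
    · have h1 := allLt_spec (allLt_spec h hc.2) hc.1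
      rw [ite'_ble] at h1
      split_ifs at h1 with h2
      rw [Nat.ble_eq] at h1
      exact ⟨h2, h1⟩
    · have h1 := (h0 (y + 1) z).2
      have h2 := (h0 y (z + 1)).2
      omega
  intro y y' z z' hy hz
  exact (antitone_nat_of_succ_le (f := fun y => mxOf t y z') (fun y => (key y z').1) hy).trans
    (antitone_nat_of_succ_le (f := fun z => mxOf t y z) (fun z => (key y z).2) hz)

theorem tle_of_check {J : Job} {t t' : Ls (Ls ℕ)} (h0 : TOK J t) (h : tLe J t t' = true) :
    TLe t t' := by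
  intro y z
  by_cases hc : y < J.n5 ∧ z < J.n6
  · have h1 := allLt_spec (allLt_spec h hc.2) hc.1
    rwa [Nat.ble_eq] at h1
  · have h1 := (h0 y z).2
    omega

theorem TLe.refl (t : Ls (Ls ℕ)) : TLe t t := fun _ _ => le_rfl

theorem BoxesOK.mono {J : Job} {t t' : Ls (Ls ℕ)} {a bnd : ℕ} {bs : Ls L3} (hle : TLe t' t)
    (h : BoxesOK J t a bnd bs) : BoxesOK J t' a bnd bs := by
  induction h with
  | nil => exact BoxesOK.nil
  | cons hB _ ih =>
    obtain ⟨g, e, hg⟩ := hB
    refine BoxesOK.cons ⟨g, e, fun x y z ⟨X, Y, Z, h1, h2, h3, h4⟩ => hg x y z ?_⟩ ih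
    exact ⟨X, Y, Z, h1, h2, h3.trans_le (hle Y Z), h4⟩

theorem chunk_ok {J : Job} {t tl : Ls (Ls ℕ)} {a w bnd z lo n : ℕ} {bs : Ls L3}
    (hL : LevOK J a w bnd) (ht : TOK J t) (hle : TLe t tl) (hb : BoxesOK J tl a bnd bs)
    (hok : (chunk J (J.lev a w) bs t z lo n).all (Ls.all Ent.ok) = true) :
    ChunkOK J t a w z lo n (chunk J (J.lev a w) bs t z lo n) := by
  have hlen : (chunk J (J.lev a w) bs t z lo n).len = n := len_asc _ _ _
  refine ⟨hlen, fun x y h1 h2 hz hy hx => ?_⟩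
  have h3 := Ls.all_get hok Ls.nil (i := y - lo) (by omega)
  have e : (chunk J (J.lev a w) bs t z lo n).get Ls.nil (y - lo) =
      row J (J.lev a w) bs (mxOf t y z) y z := by
    rw [chunk, get_asc, if_pos (by omega), show lo + (y - lo) = y by omega, ite'_ble,
      if_neg (by omega), force_eq]
  rw [e] at h3 ⊢
  exact row_ok hL ht hle hb hz hy hx h3

theorem chunk_ok_of_beq {J : Job} {t tl : Ls (Ls ℕ)} {a w bnd z lo n : ℕ} {bs : Ls L3} {c : L2}
    (hL : LevOK J a w bnd) (ht : TOK J t) (hle : TLe t tl) (hb : BoxesOK J tl a bnd bs)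
    (h : Ls.beq (Ls.beq Ent.beq) (chunk J (J.lev a w) bs t z lo n) c = true) :
    ChunkOK J t a w z lo n c :=
  (beq2_ent h).1 ▸ chunk_ok hL ht hle hb (beq2_ent h).2

theorem chunk_append {J : Job} {t : Ls (Ls ℕ)} {a w z lo n n' : ℕ} {c c' : L2}
    (h : ChunkOK J t a w z lo n c) (h' : ChunkOK J t a w z (lo + n) n' c') :
    ChunkOK J t a w z lo (n + n') (c.append c') := by
  refine ⟨by rw [len_append, h.1, h'.1], fun x y h1 h2 hz hy hx => ?_⟩
  rw [get_append, h.1]
  split_ifs with h3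
  · exact h.2 x y h1 (by omega) hz hy hx
  · rw [Nat.sub_sub]
    exact h'.2 x y (by omega) (by omega) hz hy hx

theorem tblFrom_nil {J : Job} {t : Ls (Ls ℕ)} {a w z0 : ℕ} (ht : TOK J t) (h : J.n6 ≤ z0) :
    TblFrom J t a w z0 Ls.nil := by
  intro x y z h0 _ _ hx
  have := (ht y z).2
  omega

theorem tblFrom_cons {J : Job} {t : Ls (Ls ℕ)} {a w z0 n : ℕ} {c : L2} {tb : L3} (ht : TOK J t)
    (hn : J.n5 ≤ n) (h : ChunkOK J t a w z0 0 n c) (h' : TblFrom J t a w (z0 + 1) tb) :
    TblFrom J t a w z0 (Ls.cons c tb) := by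
  intro x y z h0 hz hy hx
  rcases h0.eq_or_lt with rfl | h1
  · have := (ht y z0).2
    rw [Nat.sub_self, Ls.get_zero]
    exact h.2 x y (Nat.zero_le _) (by omega) hz hy hx
  · rw [show z - z0 = z - (z0 + 1) + 1 by omega, Ls.get_succ]
    exact h' x y z h1 hz hy hx

theorem tblOK_of_from {J : Job} {t : Ls (Ls ℕ)} {a w : ℕ} {tb : L3}
    (h : TblFrom J t a w 0 tb) : TblOK J t a w tb :=
  fun x y z hz hy hx => h x y z (Nat.zero_le _) hz hy hx

theorem tblOf_ok {J : Job} {t tl : Ls (Ls ℕ)} {a w bnd : ℕ} {bs : Ls L3}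
    (hL : LevOK J a w bnd) (ht : TOK J t) (hle : TLe t tl) (hb : BoxesOK J tl a bnd bs)
    (hok : (tblOf J (J.lev a w) bs t).all (Ls.all (Ls.all Ent.ok)) = true) :
    TblOK J t a w (tblOf J (J.lev a w) bs t) := by
  intro x y z hz hy hx
  obtain ⟨h5, h6⟩ := (ht y z).2 (by omega)
  have hlen : (tblOf J (J.lev a w) bs t).len = J.n6 := len_asc _ _ _
  have h3 := Ls.all_get hok Ls.nil (i := z) (by omega)
  have e : (tblOf J (J.lev a w) bs t).get Ls.nil z = chunk J (J.lev a w) bs t z 0 J.n5 := by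
    rw [tblOf, get_asc, if_pos h6, Nat.zero_add]
  rw [e] at h3
  rw [look, e]
  exact (chunk_ok hL ht hle hb h3).2 x y (Nat.zero_le _) (by omega) hz hy hx

end Vale.Agent.P181.K
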