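import Vale.Agent.P181.Six.KSpec

/-! Partitions in terms of keys and positions. -/

namespace Vale.Agent.P181.K

open MvPolynomial

namespace Relay

theorem mk6_anti {a b c d e f : ℕ} (h1 : b ≤ a) (h2 : c ≤ b) (h3 : d ≤ c) (h4 : e ≤ d)
    (h5 : f ≤ e) : Antitone (mk6 a b c d e f) := by
  rw [Fin.antitone_iff_succ_le]
  intro i
  fin_cases i
  exacts [h1, h2, h3, h4, h5]

theorem mk6_add (a b c d e f a' b' c' d' e' f' : ℕ) :
    mk6 a b c d e f + mk6 a' b' c' d' e' f' =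
      mk6 (a + a') (b + b') (c + c') (d + d') (e + e') (f + f') := by
  ext i
  fin_cases i <;> rfl

theorem dl_eq : dl = mk6 5 4 3 2 1 0 := eq_mk6 dl

theorem single_eq (t : ℕ) : (Finsupp.single 0 t : Wt) = mk6 t 0 0 0 0 0 := by
  rw [eq_mk6 (Finsupp.single 0 t)]
  simp

theorem mk6_congr {a b c d e f a' b' c' d' e' f' : ℕ} (h1 : a = a') (h2 : b = b') (h3 : c = c')
    (h4 : d = d') (h5 : e = e') (h6 : f = f') : mk6 a b c d e f = mk6 a' b' c' d' e' f' := by
  rw [h1, h2, h3, h4, h5, h6]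

theorem gf_deg_zero (k : ℕ) : gf k 0 = 1 := by
  have h : mons 0 = {0} := by simp [mons]
  rw [Newton.gf_eq_coeff, h, Finset.prod_singleton]
  simp [Newton.geo]

end Relay

theorem lam_anti {N x y z i r : ℕ} (hz : z < y) (hy : y < x) (h : InTri N x y z i r) :
    Antitone (lam N x y z i r) := by
  unfold InTri at h
  exact Relay.mk6_anti (by omega) (by omega) (by omega) (by omega) (by omega)

theorem lam_sum {N x y z i r : ℕ} (hz : z < y) (hy : y < x) (h : InTri N x y z i r) :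
    ∑ k, lam N x y z i r k = N := by
  unfold InTri at h
  rw [lam, sum_mk6]
  omega

theorem lam_add_dl {N x y z i r : ℕ} (hz : z < y) (hy : y < x) (h : InTri N x y z i r) :
    lam N x y z i r + dl =
      mk6 (N + 15 - ((x + 2 + i) + (x + 1 + r) + x + y + z)) (x + 2 + i) (x + 1 + r) x y z := by
  unfold InTri at h
  rw [lam, Relay.dl_eq, Relay.mk6_add]
  exact Relay.mk6_congr (by omega) (by omega) (by omega) (by omega) (by omega) (by omega)

theorem mult_lam {a m x y z i r : ℕ} (hz : z < y) (hy : y < x) (h : InTri (a * m) x y z i r) :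
    mult a m (lam (a * m) x y z i r) = cf a m (x + 2 + i) (x + 1 + r) x y z := by
  rw [mult, lam_add_dl hz hy h, cf, if_pos]
  unfold InTri at h
  omega

theorem mult_lam_nonneg {a m N x y z i r : ℕ} (hN : N = a * m) (hz : z < y) (hy : y < x)
    (h : InTri N x y z i r) : 0 ≤ mult a m (lam N x y z i r) :=
  mult_nonneg (lam_anti hz hy h) ((lam_sum hz hy h).trans hN)

theorem exists_lam {l : Wt} (hl : Antitone l) :
    l 5 < l 4 + 1 ∧ l 4 + 1 < l 3 + 2 ∧
      InTri (∑ k, l k) (l 3 + 2) (l 4 + 1) (l 5) (l 1 - l 3) (l 2 - l 3) ∧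
      l = lam (∑ k, l k) (l 3 + 2) (l 4 + 1) (l 5) (l 1 - l 3) (l 2 - l 3) := by
  have h1 : l 1 ≤ l 0 := hl (by decide)
  have h2 : l 2 ≤ l 1 := hl (by decide)
  have h3 : l 3 ≤ l 2 := hl (by decide)
  have h4 : l 4 ≤ l 3 := hl (by decide)
  have h5 : l 5 ≤ l 4 := hl (by decide)
  rw [Fin.sum_univ_six]
  refine ⟨by omega, by omega, ⟨by omega, by omega⟩, (eq_mk6 l).trans ?_⟩
  exact Relay.mk6_congr (by omega) (by omega) (by omega) (by omega) (by omega) rfl

theorem mult_row_pos (k : ℕ) : 0 < mult k 6 (Finsupp.single 0 (k * 6)) := by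
  have h0 : Antitone (0 : Wt) := fun _ _ _ => le_rfl
  have h1 := mult_mono (a := k) (m := 0) h0 (by simp) 6
  have h2 := coeff_altn_dl h0 h0
  rw [mult, agf, Relay.gf_deg_zero, mul_one, zero_add (Finsupp.single _ _)] at h1
  rw [if_pos rfl, zero_add] at h2
  rw [zero_add, h2] at h1
  exact lt_of_lt_of_le one_pos h1

/-- the semigroup property in terms of keys -/
theorem mult_lam_le {a d b x y z x' y' z' X Y Z i r i' r' : ℕ} (hb : a + d ≤ b)
    (hz' : z' < y') (hy' : y' < x') (hZ : Z < Y) (hY : Y < X)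
    (hx : x' + X = x + 2) (hy : y' + Y = y + 1) (hz : z' + Z = z)
    (h1 : InTri (a * 6) x' y' z' i r) (h2 : InTri (d * 6) X Y Z i' r')
    (hpos : 0 < mult d 6 (lam (d * 6) X Y Z i' r')) :
    mult a 6 (lam (a * 6) x' y' z' i r) ≤ mult b 6 (lam (6 * b) x y z (i + i') (r + r')) := by
  obtain ⟨k, rfl⟩ := Nat.exists_eq_add_of_le hb
  have h3 := mult_semigroup (lam_anti hz' hy' h1) (lam_sum hz' hy' h1) (lam_anti hZ hY h2)
    (lam_sum hZ hY h2) hpos
  have h4 : Antitone (lam (a * 6) x' y' z' i r + lam (d * 6) X Y Z i' r' : Wt) :=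
    fun _ _ h => Nat.add_le_add (lam_anti hz' hy' h1 h) (lam_anti hZ hY h2 h)
  have h5 : ∑ j, (lam (a * 6) x' y' z' i r + lam (d * 6) X Y Z i' r' : Wt) j = (a + d) * 6 := by
    simp only [Finsupp.add_apply, Finset.sum_add_distrib, lam_sum hz' hy' h1, lam_sum hZ hY h2,
      add_mul]
  have h6 := mult_semigroup h4 h5 (μ := Finsupp.single 0 (k * 6)) (d := k)
    (by rw [Relay.single_eq]; exact Relay.mk6_anti (Nat.zero_le _) le_rfl le_rfl le_rfl le_rfl)
    (by rw [Relay.single_eq, sum_mk6]; rfl) (mult_row_pos k)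
  refine h3.trans (h6.trans (le_of_eq (congrArg _ ?_)))
  unfold InTri at h1 h2
  rw [Relay.single_eq, lam, lam, lam, Relay.mk6_add, Relay.mk6_add]
  exact Relay.mk6_congr (by omega) (by omega) (by omega) (by omega) (by omega) (by omega)

theorem srcOK_of_relTbl {a : ℕ} {t : Ls (Ls ℕ)} {T : Ls (Ls (Ls Sv))} (h : RelTbl a 6 t T) :
    SrcOK ⟨a, T⟩ := by
  intro i y z
  have h1 := h i y z
  split_ifs at h1 with h2
  · exact Or.inr ⟨h2.1, h1⟩
  · exact Or.inl h1

theorem srcsOK_nil : SrcsOK Ls.nil := fun _ _ _ _ => Or.inl rfl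

theorem srcsOK_cons {s : Src} {l : Ls Src} (h : SrcOK s) (h' : SrcsOK l) :
    SrcsOK (Ls.cons s l) := by
  intro k
  cases k with
  | zero => exact h
  | succ k => exact h' k

theorem exOK_nil (b : ℕ) : ExOK b Ls.nil :=
  fun x _ _ _ _ _ _ h => absurd h (Nat.not_lt_zero x)

theorem exsFrom_nil (k : ℕ) : ExsFrom k Ls.nil := fun _ => exOK_nil _

theorem exsFrom_cons {k : ℕ} {t : Ls (Ls ℕ)} {l : Ls (Ls (Ls ℕ))} (h : ExOK k t)
    (h' : ExsFrom (k + 1) l) : ExsFrom k (Ls.cons t l) := by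
  intro b
  cases b with
  | zero => exact h
  | succ b =>
    have := h' b
    rwa [Nat.add_right_comm] at this

theorem final_of_keys (h : ∀ x y z, z < y → y < x → 4 * x + y + z ≤ 153 → KeyOK x y z)
    {b : ℕ} (h7 : 7 ≤ b) (h24 : b ≤ 24) (l : Wt) (hl : Antitone l) (hn : ∑ i, l i = 6 * b) :
    mult 6 b l ≤ mult b 6 l := by
  obtain ⟨h1, h2, h3, h4⟩ := exists_lam hl
  rw [hn] at h3 h4
  have h5 := h _ _ _ h1 h2 (by unfold InTri at h3; omega) b _ _ h7 h24 h3
  rwa [← h4] at h5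

end Vale.Agent.P181.K
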