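import Vale.Agent.P181.Six.KDig
import Vale.Agent.P181.Six.KLam

/-! Soundness of the covering check for one key. -/

namespace Vale.Agent.P181.K

namespace Cover

theorem tri_succ (n Q : ℕ) :
    tri (n + 1) Q = ones 50 (Q / 2 + 1) + Nat.shiftLeft (tri n (Q - 3)) (50 * 81) := by
  change ones 50 (Q / 2 + 1) + Nat.shiftLeft (force (Q - 3) (tri n)) 4050 = _
  rw [force_eq]

theorem dig_ones (n p : ℕ) : dig 50 (ones 50 n) p = if p < n then 1 else 0 := by
  have h := dig_pk (W := 50) (n := n) (f := fun _ => 1) (fun _ _ => by norm_num)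
    (ones_eq (by norm_num) n) p
  split_ifs at h ⊢ <;> exact_mod_cast h

theorem tri_dig (n : ℕ) : ∀ Q ≤ 153, (∀ p, dig 50 (tri n Q) p ≤ 1) ∧
    ∀ r i, r < n → 2 * i + 3 * r ≤ Q → dig 50 (tri n Q) (81 * r + i) = 1 := by
  induction n with
  | zero =>
    intro Q _
    refine ⟨fun p => ?_, fun r i hr => absurd hr (Nat.not_lt_zero r)⟩
    change dig 50 0 p ≤ 1
    rw [dig_zero]
    exact Nat.zero_le 1
  | succ n ih =>
    intro Q hQ
    obtain ⟨h1, h2⟩ := ih (Q - 3) (by omega)
    have h3 : ∀ p, dig 50 (ones 50 (Q / 2 + 1)) p +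
        dig 50 (Nat.shiftLeft (tri n (Q - 3)) (50 * 81)) p ≤ 1 := by
      intro p
      have := h1 (p - 81)
      rw [dig_ones, dig_shiftLeft]
      split_ifs <;> omega
    have h4 := dig_add (W := 50) fun p => lt_of_le_of_lt (h3 p) (by norm_num)
    rw [tri_succ]
    refine ⟨fun p => (h4 p).trans_le (h3 p), fun r i hr hi => ?_⟩
    rw [h4, dig_ones, dig_shiftLeft]
    cases r with
    | zero => rw [if_pos (by omega), if_neg (by omega)]
    | succ r =>
      rw [if_neg (by omega), if_pos (by omega), show 81 * (r + 1) + i - 81 = 81 * r + i by omega,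
        h2 r i (by omega) (by omega)]

end Cover

theorem dom_testBit {Q i r : ℕ} (h1 : r ≤ i) (h2 : 2 * i + r ≤ Q) (hQ : Q ≤ 153) :
    (dom Q).testBit (50 * (i + 80 * r) + 49) = true := by
  have h := (Cover.tri_dig (Q / 3 + 1) Q hQ).2 r (i - r) (by omega) (by omega)
  rw [show 81 * r + (i - r) = i + 80 * r by omega] at h
  have h3 := testBit_dig (W := 50) (j := 0) (by norm_num) (tri (Q / 3 + 1) Q) (i + 80 * r)
  rw [h, Nat.add_zero (50 * (i + 80 * r))] at h3
  have h4 : dom Q = tri (Q / 3 + 1) Q <<< 49 := by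
    change Nat.shiftLeft (force (Q / 3 + 1) fun n => tri n Q) 49 = _
    rw [force_eq]
    rfl
  rw [h4, Nat.testBit_shiftLeft, Nat.add_sub_cancel, ← h3]
  simp

namespace Cover

/-- the inequality to be proved at one position -/
def Ineq (x y z b i r : ℕ) : Prop :=
  mult 6 b (lam (6 * b) x y z i r) ≤ mult b 6 (lam (6 * b) x y z i r)

/-- a set of covered positions, valid from the level `b0` on -/
def Cov (x y z b0 v : ℕ) : Prop :=
  ∀ b i r, b0 ≤ b → b ≤ 24 → InTri (6 * b) x y z i r →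
    v.testBit (50 * (i + 80 * r) + 49) = true → Ineq x y z b i r

def Inv (x y z : ℕ) (s : Cv) : Prop :=
  s.ok = true → (∀ b i r, 7 ≤ b → b < s.b → b ≤ 24 → InTri (6 * b) x y z i r →
    Ineq x y z b i r) ∧ Cov x y z s.b s.cov

theorem inv_false (x y z : ℕ) : Inv x y z ⟨false, 0, 0⟩ := fun h => absurd h (by simp)

theorem Cov.mono {x y z b0 b1 v : ℕ} (h : Cov x y z b0 v) (hb : b0 ≤ b1) : Cov x y z b1 v :=
  fun b i r h1 => h b i r (hb.trans h1)

theorem Cov.lor {x y z b0 u v : ℕ} (hu : Cov x y z b0 u) (hv : Cov x y z b0 v) :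
    Cov x y z b0 (Nat.lor u v) := by
  intro b i r h1 h2 h3 h4
  rw [Nat.lor_eq, Nat.testBit_lor, Bool.or_eq_true] at h4
  exact h4.elim (hu b i r h1 h2 h3) (hv b i r h1 h2 h3)

theorem ge_of_bit {v p : ℕ} (h : v.testBit (50 * p + 49) = true) : 2 ^ 49 ≤ dig 50 v p := by
  rw [← testBit_dig (by norm_num)] at h
  exact Nat.ge_two_pow_of_testBit h

/-- the general covering step -/
theorem cov_add {x y z ku b0 v : ℕ} (hz : z < y) (hy : y < x) (hku : KuOK x y z ku)
    (hv : ∀ p, dig 50 v p ≤ 2 ^ 40)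
    (h : ∀ b i r, b0 ≤ b → b ≤ 24 → InTri (6 * b) x y z i r → dig 50 v (i + 80 * r) ≠ 0 →
      (dig 50 v (i + 80 * r) : ℤ) ≤ mult b 6 (lam (6 * b) x y z i r)) :
    Cov x y z b0 (ku + v) := by
  obtain ⟨n, g, e, hg, hm⟩ := hku
  have hd := dig_pk (W := 50) (n := n) (f := fun p => 2 ^ 49 - g p) (fun p hp => by
    have := abs_le.1 (hg p hp)
    constructor <;> omega) e
  have hs : ∀ p, dig 50 ku p + dig 50 v p < 2 ^ 50 := by
    intro p
    have h1 := hd p
    have h2 := hv p
    split_ifs at h1 with hp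
    · have := abs_le.1 (hg p hp)
      omega
    · omega
  intro b i r h1 h2 h3 h4
  have h5 := ge_of_bit h4
  obtain ⟨h6, h7⟩ := hm b i r h2 h3
  have h8 := hd (i + 80 * r)
  rw [if_pos h6] at h8
  rw [dig_add hs] at h5
  refine h7.trans ?_
  by_cases h9 : dig 50 v (i + 80 * r) = 0
  · have := mult_lam_nonneg (a := b) (m := 6) (Nat.mul_comm 6 b) hz hy h3
    omega
  · have := h b i r h1 h2 h3 h9
    omega

theorem cov_ku {x y z ku : ℕ} (hz : z < y) (hy : y < x) (hku : KuOK x y z ku) (b0 : ℕ) :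
    Cov x y z b0 ku :=
  cov_add (v := 0) hz hy hku (fun p => by rw [dig_zero]; exact Nat.zero_le _)
    fun _ _ _ _ _ _ h => absurd (dig_zero _ _) h

theorem rel_le {a x y z v : ℕ} (h : RelOK a 6 x y z v) (p : ℕ) : dig 50 v p ≤ 2 ^ 40 := by
  have h1 := h p
  split_ifs at h1
  · have := min_le_left (2 ^ 40 : ℤ) (mult a 6 (lam (a * 6) x y z (p % 80) (p / 80)))
    omega
  · omega

theorem rel_ne {a x y z v p : ℕ} (h : RelOK a 6 x y z v) (hp : dig 50 v p ≠ 0) :
    InTri (a * 6) x y z (p % 80) (p / 80) ∧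
      (dig 50 v p : ℤ) ≤ mult a 6 (lam (a * 6) x y z (p % 80) (p / 80)) := by
  have h1 := h p
  split_ifs at h1 with h2
  · exact ⟨h2, h1.trans_le (min_le_right _ _)⟩
  · omega

theorem cov_src {x y z ku b0 y' z' i' q : ℕ} {sa sd : Src} (hz : z < y) (hy : y < x)
    (hku : KuOK x y z ku) (ha : SrcOK sa) (hd : SrcOK sd) (h1 : y' ≤ y) (h2 : z' ≤ z)
    (h3 : y' + 1 + i' + (y + 1 - y') ≤ x + 1) (h4 : sa.a + sd.a ≤ b0)
    (h5 : dig 50 (srcGet sd.t (x + 1 - (y' + 1 + i') - (y + 1 - y')) (y + 1 - y') (z - z')) q ≠ 0) :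
    Cov x y z b0 (ku + Nat.shiftLeft (srcGet sa.t i' y' z') (50 * q)) := by
  rcases hd (x + 1 - (y' + 1 + i') - (y + 1 - y')) (y + 1 - y') (z - z') with h6 | ⟨h6, h7⟩
  · rw [h6, dig_zero] at h5
    exact absurd rfl h5
  obtain ⟨h8, h9⟩ := rel_ne h7 h5
  rcases ha i' y' z' with h10 | ⟨h10, h11⟩
  · refine cov_add hz hy hku (fun p => ?_) fun b i r _ _ _ h => absurd ?_ h
    all_goals rw [dig_shiftLeft, h10, dig_zero, ite_self]
    exact Nat.zero_le _
  refine cov_add hz hy hku (fun p => ?_) fun b i r hb hb' hT h => ?_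
  · rw [dig_shiftLeft]
    split_ifs
    · exact rel_le h11 _
    · exact Nat.zero_le _
  · rw [dig_shiftLeft] at h ⊢
    split_ifs at h ⊢ with hq
    · obtain ⟨h12, h13⟩ := rel_ne h11 h
      have h14 := mult_lam_le (b := b) (x := x) (y := y) (z := z) (h4.trans hb) h10 (by omega) h6
        (by omega) (by omega) (by omega) (by omega) h12 h8 (by omega)
      unfold InTri at h12 h8 hT
      have e1 : (i + 80 * r - q) % 80 + q % 80 = i := by omega
      have e2 : (i + 80 * r - q) / 80 + q / 80 = r := by omega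
      rw [e1, e2] at h14
      exact h13.trans h14
    · exact absurd rfl h

theorem fld_dig (v q : ℕ) : fld v (Nat.mul 50 q) 1125899906842623 = dig 50 v q := by
  have h : (1125899906842623 : ℕ) = 2 ^ 50 - 1 := by norm_num
  rw [fld, dig, h, Nat.land_eq, Nat.and_two_pow_sub_one_eq_mod, Nat.shiftRight_eq,
    Nat.shiftRight_eq_div_pow]
  rfl

theorem inv_src {srcs : Ls Src} {ku x y z : ℕ} (hs : SrcsOK srcs) (hz : z < y) (hy : y < x)
    (hku : KuOK x y z ku) (i : ℕ) {s : Cv} (h : Inv x y z s) :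
    Inv x y z (stepSrc srcs ku x y z i s) := by
  unfold stepSrc
  simp only [force_eq, ite'_ble, ite'_beq, fld_dig]
  split_ifs with h1 h2 h3 h4 h5
  any_goals exact inv_false x y z
  intro hok
  exact ⟨(h hok).1, (h hok).2.lor (cov_src hz hy hku (hs _) (hs _) h1 h2 h3 h4 h5)⟩

theorem inv_chk {x y z : ℕ} (i : ℕ) {s : Cv} (h : Inv x y z s) :
    Inv x y z (stepChk x y z i s) := by
  unfold stepChk
  simp only [force_eq, ite'_ble, ite'_beq, Nat.add_eq, Nat.mul_eq, Nat.sub_eq,
    Nat.succ_eq_add_one]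
  generalize Nat.shiftRight i 2 = b'
  split_ifs with h1 h2 h3 h4
  any_goals exact inv_false x y z
  · intro hok
    refine ⟨fun b i r h5 h6 h7 hT => ?_, (h hok).2.mono (Nat.le_succ_of_le h1)⟩
    by_cases h8 : b < s.b
    · exact (h hok).1 b i r h5 h8 h7 hT
    · refine (h hok).2 b i r (by omega) h7 hT ?_
      have h9 : b < b' + 1 := h6
      unfold InTri at hT
      have h10 := dom_testBit (Q := 6 * b' + 9 - (4 * x + y + z)) hT.1 (by omega) (by omega)
      rw [← h4, Nat.land_eq, Nat.testBit_land, Bool.and_eq_true] at h10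
      exact h10.2
  · intro hok
    refine ⟨fun b i r h5 h6 h7 hT => ?_, (h hok).2.mono (Nat.le_succ_of_le h1)⟩
    have h9 : b < b' + 1 := h6
    unfold InTri at hT
    omega

theorem inv_skip {ex : Ls (Ls (Ls ℕ))} {x y z : ℕ} (he : ExsFrom 0 ex) (hz : z < y) (hy : y < x)
    {s : Cv} (h : Inv x y z s) : Inv x y z (stepSkip ex x y z s) := by
  unfold stepSkip
  simp only [force_eq, ite'_ble]
  split_ifs with h1 h2
  any_goals exact inv_false x y z
  intro hok
  refine ⟨fun b i r h5 h6 h7 hT => ?_, (h hok).2.mono (Nat.le_succ _)⟩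
  by_cases h8 : b < s.b
  · exact (h hok).1 b i r h5 h8 h7 hT
  · have h9 : b < s.b + 1 := h6
    obtain rfl : b = s.b := by omega
    have := he s.b
    rw [Nat.zero_add] at this
    exact this x y z i r hz hy (not_le.1 h2) hT

theorem runCv_succ (srcs : Ls Src) (ex : Ls (Ls (Ls ℕ))) (ku x y z n c : ℕ) (s : Cv) :
    runCv srcs ex ku x y z (n + 1) c s =
      (fun s' : Cv => ite' s'.ok (runCv srcs ex ku x y z n (Nat.shiftRight c 41) s') ⟨false, 0, 0⟩)
      (ite' (Nat.ble 2 (Nat.land (Nat.land c 2199023255551) 3))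
        (stepSrc srcs ku x y z (Nat.land c 2199023255551) s)
        (ite' (Nat.beq (Nat.land (Nat.land c 2199023255551) 3) 0)
          (stepChk x y z (Nat.land c 2199023255551) s) (stepSkip ex x y z s))) := rfl

theorem inv_run {srcs : Ls Src} {ex : Ls (Ls (Ls ℕ))} {ku x y z : ℕ} (hs : SrcsOK srcs)
    (he : ExsFrom 0 ex) (hz : z < y) (hy : y < x) (hku : KuOK x y z ku) (n : ℕ) :
    ∀ (c : ℕ) (s : Cv), Inv x y z s → Inv x y z (runCv srcs ex ku x y z n c s) := by
  induction n with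
  | zero => exact fun _ _ h => h
  | succ n ih =>
    intro c s h
    rw [runCv_succ]
    have h1 : Inv x y z (ite' (Nat.ble 2 (Nat.land (Nat.land c 2199023255551) 3))
        (stepSrc srcs ku x y z (Nat.land c 2199023255551) s)
        (ite' (Nat.beq (Nat.land (Nat.land c 2199023255551) 3) 0)
          (stepChk x y z (Nat.land c 2199023255551) s) (stepSkip ex x y z s))) := by
      rw [ite'_eq, ite'_eq]
      split_ifs
      · exact inv_src hs hz hy hku _ h
      · exact inv_chk _ h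
      · exact inv_skip he hz hy h
    generalize ite' (Nat.ble 2 (Nat.land (Nat.land c 2199023255551) 3)) _ _ = s' at h1 ⊢
    beta_reduce
    rw [ite'_eq]
    split_ifs
    · exact ih _ _ h1
    · exact inv_false x y z

end Cover

theorem coverGo_ok {srcs : Ls Src} {ex : Ls (Ls (Ls ℕ))} {ku x y z c : ℕ} (hs : SrcsOK srcs)
    (he : ExsFrom 0 ex) (hz : z < y) (hy : y < x) (hku : KuOK x y z ku)
    (h : coverGo srcs ex ku x y z c = true) : KeyOK x y z := by
  have h1 := Cover.inv_run hs he hz hy hku (Nat.land c 1023) (Nat.shiftRight c 10) ⟨true, 7, ku⟩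
    fun _ => ⟨fun b _ _ h1 h2 => absurd h2 (not_lt.2 h1), Cover.cov_ku hz hy hku _⟩
  unfold coverGo at h
  generalize runCv srcs ex ku x y z (Nat.land c 1023) (Nat.shiftRight c 10) ⟨true, 7, ku⟩ = s
    at h h1
  beta_reduce at h
  rw [ite'_eq] at h
  split_ifs at h with h2
  rw [Nat.beq_eq] at h
  intro b i r h3 h4 hT
  exact (h1 h2).1 b i r h3 (by omega) h4 hT

end Vale.Agent.P181.K
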