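import Vale.Agent.P181.Six.KU
import Vale.Agent.P181.Six.KCover

/-! Soundness of the covering check. -/

namespace Vale.Agent.P181.K

namespace Exact

theorem half_pk {N n : ℕ} (hn : n ≤ N) :
    ((Nat.land (Nat.shiftLeft (ones 50 N) 49) (msk (50 * n)) : ℕ) : ℤ) =
      pk 50 n fun _ => 2 ^ 49 := by
  have h1 : ((Nat.shiftLeft (ones 50 N) 49 : ℕ) : ℤ) = pk 50 N fun _ => 2 ^ 49 := by
    have h := pk_mul 50 N (2 ^ 49) fun _ => 1
    rw [← ones_eq (by norm_num)] at h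
    simp only [mul_one] at h
    rw [h]
    change ((ones 50 N <<< 49 : ℕ) : ℤ) = _
    rw [Nat.shiftLeft_eq, Nat.cast_mul, mul_comm, Nat.cast_pow, Nat.cast_ofNat]
  have h2 : Nat.land (Nat.shiftLeft (ones 50 N) 49) (msk (50 * n)) < 2 ^ (50 * n) := by
    rw [land_msk]
    exact Nat.mod_lt _ (Nat.two_pow_pos _)
  rw [pk_dig h2]
  refine pk_congr fun p hp => ?_
  rw [dig_land_msk, if_pos hp, dig_pk (fun _ _ => by norm_num) h1, if_pos (hp.trans_le hn)]

theorem ku_ok {x y z n ku : ℕ} {g : ℕ → ℤ} (hz : z < y) (hy : y < x)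
    (hn : n = (153 - (4 * x + y + z)) / 3 + 1)
    (e : (ku : ℤ) = pk 50 (80 * n) (fun _ => 2 ^ 49) - pk 50 (80 * n) g)
    (hg : ∀ p < 80 * n, |g p| ≤ 2 ^ 32)
    (hU : ∀ i r, i < 80 → r < n → x + 2 + i ≤ 76 →
      720 * g (i + 80 * r) = U720 ![x + 2 + i, x + 1 + r, x, y, z]) : KuOK x y z ku := by
  refine ⟨80 * n, g, by rw [e, pk_sub], hg, fun b i r hb h => ?_⟩
  have h1 := h.1
  have h2 := h.2
  refine ⟨by omega, ?_⟩
  have h3 := mult_le_U720 (lam_anti hz hy h) (lam_sum hz hy h)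
  have h4 : (fun k : Fin 5 => (lam (6 * b) x y z i r + dl : Wt) k.succ) =
      ![x + 2 + i, x + 1 + r, x, y, z] := by
    rw [lam_add_dl hz hy h]
    funext k
    fin_cases k <;> rfl
  rw [h4, ← hU i r (by omega) (by omega) (by omega)] at h3
  omega

theorem coverKey_eq (srcs : Ls Src) (ex : Ls (Ls (Ls ℕ))) (l : Ls RhoY) (x y z c : ℕ) :
    coverKey srcs ex l x y z c = (fun n hm : ℕ =>
      Ent.rec (motive := fun _ => Bool) (coverGo srcs ex hm x y z c)
        (fun v => coverGo srcs ex (hm - v.v) x y z c)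
        (fun v => coverGo srcs ex (hm + v.v) x y z c) false (uArr z n l))
      ((153 - (4 * x + y + z)) / 3 + 1) (Nat.land (Nat.shiftLeft (ones 50 4000) 49)
        (msk (4000 * ((153 - (4 * x + y + z)) / 3 + 1)))) := by
  unfold coverKey
  rw [force_eq]
  rfl

theorem coverRow_cons (srcs : Ls Src) (ex : Ls (Ls (Ls ℕ))) (l : Ls RhoY) (x y n z c : ℕ)
    (cs : Ls ℕ) : coverRow srcs ex l x y (n + 1) z (Ls.cons c cs) =
      ite' (coverKey srcs ex l x y z c)
        (force (z + 1) fun z' => coverRow srcs ex l x y n z' cs) false := rfl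

theorem coverRow_nil (srcs : Ls Src) (ex : Ls (Ls (Ls ℕ))) (l : Ls RhoY) (x y n z : ℕ) :
    coverRow srcs ex l x y (n + 1) z Ls.nil = false := rfl

theorem coverSlice_cons (srcs : Ls Src) (ex : Ls (Ls (Ls ℕ))) (l : Ls RhoX) (x n y : ℕ)
    (c : Ls ℕ) (cs : Ls (Ls ℕ)) : coverSlice srcs ex l x (n + 1) y (Ls.cons c cs) =
      ite' (coverRow srcs ex (l.map (rhoY y)) x y (y - (y - (154 - (4 * x + y)))) 0 c)
        (force (y + 1) fun y' => coverSlice srcs ex l x n y' cs) false := rfl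

theorem coverSlice_nil (srcs : Ls Src) (ex : Ls (Ls (Ls ℕ))) (l : Ls RhoX) (x n y : ℕ) :
    coverSlice srcs ex l x (n + 1) y Ls.nil = false := rfl

theorem ite_and {b c : Bool} (h : ite' b c false = true) : b = true ∧ c = true := by
  cases b
  · exact absurd h (by simp)
  · exact ⟨rfl, h⟩

theorem row_keys {srcs : Ls Src} {ex : Ls (Ls (Ls ℕ))} {l : Ls RhoY} {x y : ℕ} (n : ℕ) :
    ∀ (z : ℕ) (cs : Ls ℕ), coverRow srcs ex l x y n z cs = true →
      ∀ z', z ≤ z' → z' < z + n → ∃ c, coverKey srcs ex l x y z' c = true := by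
  induction n with
  | zero => intro z cs _ z' h1 h2; omega
  | succ n ih =>
    intro z cs h z' h1 h2
    cases cs with
    | nil => exact absurd h (by rw [coverRow_nil]; simp)
    | cons c cs =>
      rw [coverRow_cons, force_eq] at h
      obtain ⟨h3, h4⟩ := ite_and h
      rcases h1.eq_or_lt with rfl | h1
      · exact ⟨c, h3⟩
      · exact ih _ cs h4 z' h1 (by omega)

theorem slice_rows {srcs : Ls Src} {ex : Ls (Ls (Ls ℕ))} {l : Ls RhoX} {x : ℕ} (n : ℕ) :
    ∀ (y : ℕ) (cs : Ls (Ls ℕ)), coverSlice srcs ex l x n y cs = true →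
      ∀ y', y ≤ y' → y' < y + n → ∃ c, coverRow srcs ex (l.map (rhoY y')) x y'
        (y' - (y' - (154 - (4 * x + y')))) 0 c = true := by
  induction n with
  | zero => intro y cs _ y' h1 h2; omega
  | succ n ih =>
    intro y cs h y' h1 h2
    cases cs with
    | nil => exact absurd h (by rw [coverSlice_nil]; simp)
    | cons c cs =>
      rw [coverSlice_cons, force_eq] at h
      obtain ⟨h3, h4⟩ := ite_and h
      rcases h1.eq_or_lt with rfl | h1
      · exact ⟨c, h3⟩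
      · exact ih _ cs h4 y' h1 (by omega)

end Exact

theorem coverKey_ok {srcs : Ls Src} {ex : Ls (Ls (Ls ℕ))} {rs : Ls Rho} {x y z c : ℕ}
    (hρ : RhosOK rs) (hz : z < y) (hy : y < x) (hk : 4 * x + y + z ≤ 153)
    (h : coverKey srcs ex ((rs.map (rhoX x)).map (rhoY y)) x y z c = true) :
    ∃ ku, KuOK x y z ku ∧ coverGo srcs ex ku x y z c = true := by
  rw [Exact.coverKey_eq] at h
  obtain ⟨n, hn⟩ : ∃ n, n = (153 - (4 * x + y + z)) / 3 + 1 := ⟨_, rfl⟩
  rw [← hn, show 4000 * n = 50 * (80 * n) by omega] at h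
  have hm := Exact.half_pk (N := 4000) (n := 80 * n) (by omega)
  generalize Nat.land (Nat.shiftLeft (ones 50 4000) 49) (msk (50 * (80 * n))) = H at h hm
  have hU := uArr_ok hρ hz hy hk hn
  beta_reduce at h
  generalize uArr z n ((rs.map (rhoX x)).map (rhoY y)) = e at h hU
  cases e with
  | bad => exact absurd h Bool.false_ne_true
  | zero =>
    obtain ⟨g, h1, h2, h3⟩ := hU (by simp)
    exact ⟨H, Exact.ku_ok hz hy hn (by rw [← h1, hm, Ent.val, sub_zero]) h2 h3, h⟩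
  | pos v =>
    obtain ⟨g, h1, h2, h3⟩ := hU (by simp)
    have h4 := (pk_lt (W := 50) (n := 80 * n) (f := fun p => 2 ^ 49 - g p) fun p hp => by
      have := abs_le.1 (h2 p hp)
      constructor <;> omega).1
    rw [pk_sub, ← hm, ← h1, Ent.val] at h4
    refine ⟨H - v.v, Exact.ku_ok hz hy hn ?_ h2 h3, h⟩
    rw [← h1, ← hm, Ent.val]
    omega
  | neg v =>
    obtain ⟨g, h1, h2, h3⟩ := hU (by simp)
    refine ⟨H + v.v, Exact.ku_ok hz hy hn ?_ h2 h3, h⟩
    rw [← h1, ← hm, Ent.val]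
    omega

theorem cover_ok {srcs : Ls Src} {ex : Ls (Ls (Ls ℕ))} {rs : Ls Rho} {x y n : ℕ}
    {cs : Ls (Ls ℕ)} (hρ : RhosOK rs) (hs : SrcsOK srcs) (he : ExsFrom 0 ex) (hn : y + n ≤ x)
    (h : cover srcs ex rs x y n cs = true) :
    ∀ y' z, y ≤ y' → y' < y + n → z < y' → 4 * x + y' + z ≤ 153 → KeyOK x y' z := by
  intro y' z h1 h2 h3 h4
  obtain ⟨c, hc⟩ := Exact.slice_rows n y cs h y' h1 h2
  obtain ⟨c', hc'⟩ := Exact.row_keys _ 0 c hc z (Nat.zero_le z) (by omega)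
  obtain ⟨ku, h5, h6⟩ := coverKey_ok hρ h3 (by omega) h4 hc'
  exact coverGo_ok hs he h3 (by omega) h5 h6

end Vale.Agent.P181.K
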