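import Vale.Agent.P181.Six.KSpec

/-! Digits of packed numbers. -/

namespace Vale.Agent.P181.K

theorem msk_eq (n : ℕ) : msk n = 2 ^ n - 1 := by
  change (1 <<< n) - 1 = _
  rw [Nat.shiftLeft_eq, one_mul]

theorem land_msk (v n : ℕ) : Nat.land v (msk n) = v % 2 ^ n := by
  rw [msk_eq]
  exact Nat.and_two_pow_sub_one_eq_mod v n

theorem pk_congr {W n : ℕ} {f g : ℕ → ℤ} (h : ∀ p < n, f p = g p) : pk W n f = pk W n g :=
  Finset.sum_congr rfl fun p hp => by rw [h p (Finset.mem_range.1 hp)]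

theorem pk_zero (W n : ℕ) : pk W n (fun _ => 0) = 0 := by
  simp [pk]

theorem pk_add (W n : ℕ) (f g : ℕ → ℤ) :
    pk W n (fun p => f p + g p) = pk W n f + pk W n g := by
  simp [pk, add_mul, Finset.sum_add_distrib]

theorem pk_sub (W n : ℕ) (f g : ℕ → ℤ) :
    pk W n (fun p => f p - g p) = pk W n f - pk W n g := by
  simp [pk, sub_mul, Finset.sum_sub_distrib]

theorem pk_neg (W n : ℕ) (f : ℕ → ℤ) : pk W n (fun p => -f p) = -pk W n f := by
  simp [pk, Finset.sum_neg_distrib]

theorem pk_mul (W n : ℕ) (c : ℤ) (f : ℕ → ℤ) :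
    pk W n (fun p => c * f p) = c * pk W n f := by
  simp [pk, Finset.mul_sum, mul_assoc]

theorem pk_succ (W n : ℕ) (f : ℕ → ℤ) :
    pk W (n + 1) f = f 0 + 2 ^ W * pk W n fun p => f (p + 1) := by
  unfold pk
  rw [Finset.sum_range_succ', Finset.mul_sum, add_comm]
  congr 1
  · simp
  · refine Finset.sum_congr rfl fun p _ => ?_
    rw [mul_add, pow_add, mul_one]
    ring

theorem pk_append (W n k : ℕ) (f : ℕ → ℤ) :
    pk W (n + k) f = pk W n f + 2 ^ (W * n) * pk W k fun p => f (n + p) := by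
  unfold pk
  rw [Finset.sum_range_add, Finset.mul_sum]
  congr 1
  refine Finset.sum_congr rfl fun p _ => ?_
  rw [mul_add, pow_add]
  ring

/-- rows of length `S` -/
theorem pk_rows (W S M : ℕ) (f : ℕ → ℕ → ℤ) :
    pk W (S * M) (fun p => f (p % S) (p / S)) =
      ∑ v ∈ Finset.range M, ∑ u ∈ Finset.range S, f u v * 2 ^ (W * (u + S * v)) := by
  induction M with
  | zero => simp [pk]
  | succ M ih =>
    rw [mul_add, mul_one, pk_append, ih, Finset.sum_range_succ, pk, Finset.mul_sum]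
    congr 1
    refine Finset.sum_congr rfl fun u hu => ?_
    have hu' := Finset.mem_range.1 hu
    have hS : 0 < S := by omega
    rw [Nat.mul_add_mod, Nat.mod_eq_of_lt hu', Nat.mul_add_div hS, Nat.div_eq_of_lt hu', add_zero,
      mul_add W u, pow_add]
    ring

theorem pk_modEq_trunc {W n n' : ℕ} (h : n ≤ n') (f : ℕ → ℤ) :
    pk W n' f ≡ pk W n f [ZMOD 2 ^ (W * n)] := by
  obtain ⟨k, rfl⟩ := Nat.exists_eq_add_of_le h
  rw [pk_append]
  exact (Int.modEq_iff_dvd.2 ⟨-pk W k fun p => f (n + p), by ring⟩)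

theorem pk_unique {W n : ℕ} {f g : ℕ → ℤ} (h : ∀ p < n, |f p - g p| < 2 ^ W)
    (e : pk W n f ≡ pk W n g [ZMOD 2 ^ (W * n)]) : ∀ p < n, f p = g p := by
  induction n generalizing f g with
  | zero => intro p hp; omega
  | succ n ih =>
    rw [pk_succ, pk_succ, mul_add, mul_one, pow_add, mul_comm] at e
    obtain ⟨c, hc⟩ := Int.modEq_iff_dvd.1 e.symm
    have h0 : f 0 = g 0 := by
      have hd : (2 : ℤ) ^ W ∣ f 0 - g 0 :=
        ⟨2 ^ (W * n) * c - (pk W n fun p => f (p + 1)) + pk W n fun p => g (p + 1), by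
          linear_combination hc⟩
      have := Int.eq_zero_of_abs_lt_dvd hd (h 0 (Nat.succ_pos n))
      omega
    have h1 := ih (f := fun p => f (p + 1)) (g := fun p => g (p + 1))
      (fun p hp => h (p + 1) (by omega)) (by
        refine (Int.modEq_iff_dvd.2 ⟨c, ?_⟩).symm
        have h2 : (2 : ℤ) ^ W ≠ 0 := by positivity
        apply mul_left_cancel₀ h2
        rw [h0] at hc
        linear_combination hc)
    intro p hp
    cases p with
    | zero => exact h0
    | succ p => exact h1 p (by omega)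

theorem pk_lt {W n : ℕ} {f : ℕ → ℤ} (hf : ∀ p < n, 0 ≤ f p ∧ f p < 2 ^ W) :
    0 ≤ pk W n f ∧ pk W n f < 2 ^ (W * n) := by
  induction n generalizing f with
  | zero => simp [pk]
  | succ n ih =>
    obtain ⟨h1, h2⟩ := ih (f := fun p => f (p + 1)) fun p hp => hf (p + 1) (by omega)
    obtain ⟨h3, h4⟩ := hf 0 (Nat.succ_pos n)
    have h5 : (0 : ℤ) < 2 ^ W := by positivity
    rw [pk_succ, mul_add, mul_one, pow_add]
    constructor
    · positivity
    · have : (pk W n fun p => f (p + 1)) + 1 ≤ 2 ^ (W * n) := h2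
      nlinarith

theorem ones_eq {W : ℕ} (hW : 0 < W) (n : ℕ) : (ones W n : ℤ) = pk W n fun _ => 1 := by
  have h1 : 1 < 2 ^ W := Nat.one_lt_two_pow (by omega)
  have key : ∀ n, 2 ^ (W * n) = (2 ^ W - 1) * (∑ p ∈ Finset.range n, 2 ^ (W * p)) + 1 := by
    intro n
    induction n with
    | zero => simp
    | succ n ih =>
      obtain ⟨k, hk⟩ : ∃ k, 2 ^ W = k + 1 := ⟨2 ^ W - 1, by omega⟩
      rw [Finset.sum_range_succ, mul_add W, mul_one, pow_add, mul_add, add_right_comm, ← ih, hk,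
        Nat.add_sub_cancel]
      ring
  have e : ones W n = ∑ p ∈ Finset.range n, 2 ^ (W * p) := by
    change msk (W * n) / msk W = _
    rw [msk_eq, msk_eq, key n, Nat.add_sub_cancel, Nat.mul_div_cancel_left _ (by omega)]
  rw [e, pk]
  simp

theorem dig_lt (W v p : ℕ) : dig W v p < 2 ^ W := Nat.mod_lt _ (by positivity)

@[simp] theorem dig_zero (W p : ℕ) : dig W 0 p = 0 := by
  simp [dig]

namespace Dig

theorem dig_succ (W v p : ℕ) : dig W v (p + 1) = dig W (v / 2 ^ W) p := by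
  unfold dig
  rw [Nat.div_div_eq_div_mul, ← pow_add, mul_add, mul_one, add_comm]

theorem dig_big {W n v p : ℕ} (h : v < 2 ^ (W * n)) (hp : n ≤ p) : dig W v p = 0 := by
  unfold dig
  rw [Nat.div_eq_of_lt, Nat.zero_mod]
  exact h.trans_le (Nat.pow_le_pow_right (by omega) (Nat.mul_le_mul_left _ hp))

theorem exists_len {W : ℕ} (hW : 0 < W) (u v p : ℕ) :
    ∃ n, p < n ∧ u < 2 ^ (W * n) ∧ v < 2 ^ (W * n) := by
  have key : ∀ k, k < 2 ^ (W * k) := fun k =>
    (Nat.lt_two_pow_self).trans_le (Nat.pow_le_pow_right (by omega) (Nat.le_mul_of_pos_left k hW))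
  have := key (u + v + p + 1)
  exact ⟨u + v + p + 1, by omega, by omega, by omega⟩

theorem dig_W_zero (v p : ℕ) : dig 0 v p = 0 := by
  simp [dig, Nat.mod_one]

end Dig

open Dig

theorem pk_dig {W n v : ℕ} (h : v < 2 ^ (W * n)) :
    (v : ℤ) = pk W n fun p => (dig W v p : ℤ) := by
  induction n generalizing v with
  | zero =>
    have : v = 0 := by simpa using h
    simp [pk, this]
  | succ n ih =>
    have h1 : v / 2 ^ W < 2 ^ (W * n) := by
      rw [Nat.div_lt_iff_lt_mul (by positivity), ← pow_add]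
      exact h
    rw [pk_succ]
    simp only [dig_succ]
    rw [← ih h1]
    have := Nat.mod_add_div v (2 ^ W)
    simp only [dig, mul_zero, pow_zero, Nat.div_one]
    exact_mod_cast this.symm

theorem dig_pk {W n v : ℕ} {f : ℕ → ℤ} (hf : ∀ p < n, 0 ≤ f p ∧ f p < 2 ^ W)
    (e : (v : ℤ) = pk W n f) (p : ℕ) : (dig W v p : ℤ) = if p < n then f p else 0 := by
  have h : v < 2 ^ (W * n) := by
    have := (pk_lt hf).2
    rw [← e] at this
    exact_mod_cast this
  split_ifs with hp
  · refine pk_unique (f := fun p => (dig W v p : ℤ)) (W := W) (fun q hq => ?_) ?_ p hp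
    · have h1 : ((dig W v q : ℕ) : ℤ) < 2 ^ W := by exact_mod_cast dig_lt W v q
      have h2 := hf q hq
      have h3 : (0 : ℤ) ≤ (dig W v q : ℕ) := Int.natCast_nonneg _
      rw [abs_lt]
      constructor <;> linarith
    · rw [← pk_dig h, e]
  · rw [dig_big h (by omega)]
    rfl

theorem testBit_dig {W j : ℕ} (hj : j < W) (v p : ℕ) :
    (dig W v p).testBit j = v.testBit (W * p + j) := by
  unfold dig
  rw [Nat.testBit_mod_two_pow, Nat.testBit_div_two_pow, add_comm]
  simp [hj]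

namespace Dig

theorem dig_ext {W u p k : ℕ} (hk : k < 2 ^ W)
    (h : ∀ j < W, u.testBit (W * p + j) = k.testBit j) : dig W u p = k := by
  apply Nat.eq_of_testBit_eq
  intro j
  by_cases hj : j < W
  · rw [testBit_dig hj, h j hj]
  · have h2 : 2 ^ W ≤ 2 ^ j := Nat.pow_le_pow_right (by omega) (by omega)
    rw [Nat.testBit_lt_two_pow ((dig_lt W u p).trans_le h2), Nat.testBit_lt_two_pow (hk.trans_le h2)]

end Dig

theorem dig_shiftLeft (W v q p : ℕ) :
    dig W (Nat.shiftLeft v (W * q)) p = if q ≤ p then dig W v (p - q) else 0 := by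
  change dig W (v <<< (W * q)) p = _
  split_ifs with h
  · obtain ⟨k, rfl⟩ := Nat.exists_eq_add_of_le h
    refine dig_ext (dig_lt _ _ _) fun j hj => ?_
    rw [Nat.testBit_shiftLeft, testBit_dig hj, Nat.add_sub_cancel_left, mul_add, add_assoc,
      Nat.add_sub_cancel_left]
    simp
  · refine dig_ext (by positivity) fun j hj => ?_
    have h1 : W * (p + 1) ≤ W * q := Nat.mul_le_mul_left _ (by omega)
    rw [mul_add, mul_one] at h1
    rw [Nat.testBit_shiftLeft]
    have : ¬ W * p + j ≥ W * q := by omega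
    simp [this]

theorem dig_shiftRight (W v q p : ℕ) :
    dig W (Nat.shiftRight v (W * q)) p = dig W v (q + p) := by
  change dig W (v >>> (W * q)) p = _
  refine dig_ext (dig_lt _ _ _) fun j hj => ?_
  rw [Nat.testBit_shiftRight, testBit_dig hj, mul_add, add_assoc]

theorem dig_land_msk (W v n p : ℕ) :
    dig W (Nat.land v (msk (W * n))) p = if p < n then dig W v p else 0 := by
  rw [land_msk]
  split_ifs with h
  · refine dig_ext (dig_lt _ _ _) fun j hj => ?_
    have h1 : W * (p + 1) ≤ W * n := Nat.mul_le_mul_left _ h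
    rw [mul_add, mul_one] at h1
    have : W * p + j < W * n := by omega
    rw [Nat.testBit_mod_two_pow, testBit_dig hj]
    simp [this]
  · exact dig_big (Nat.mod_lt _ (by positivity)) (by omega)

theorem dig_add {W u v : ℕ} (h : ∀ p, dig W u p + dig W v p < 2 ^ W) (p : ℕ) :
    dig W (u + v) p = dig W u p + dig W v p := by
  rcases Nat.eq_zero_or_pos W with rfl | hW
  · simp [dig_W_zero]
  obtain ⟨n, hp, hu, hv⟩ := exists_len hW u v p
  have := dig_pk (W := W) (n := n) (v := u + v) (f := fun p => (dig W u p : ℤ) + (dig W v p : ℤ))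
    (fun q _ => ⟨by positivity, by exact_mod_cast h q⟩)
    (by rw [pk_add, ← pk_dig hu, ← pk_dig hv]; push_cast; rfl) p
  rw [if_pos hp] at this
  exact_mod_cast this

theorem dig_sub {W u v : ℕ} (h : ∀ p, dig W v p ≤ dig W u p) (p : ℕ) :
    dig W (u - v) p = dig W u p - dig W v p := by
  rcases Nat.eq_zero_or_pos W with rfl | hW
  · simp [dig_W_zero]
  obtain ⟨n, hp, hu, hv⟩ := exists_len hW u v p
  have hf : ∀ q < n, 0 ≤ (dig W u q : ℤ) - (dig W v q : ℤ) ∧
      (dig W u q : ℤ) - (dig W v q : ℤ) < 2 ^ W := fun q _ => by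
    have h1 := h q
    have h2 : ((dig W u q : ℕ) : ℤ) < 2 ^ W := by exact_mod_cast dig_lt W u q
    constructor <;> omega
  have e : (u : ℤ) - v = pk W n fun q => (dig W u q : ℤ) - (dig W v q : ℤ) := by
    rw [pk_sub, ← pk_dig hu, ← pk_dig hv]
  have h0 := (pk_lt hf).1
  have := dig_pk (W := W) (n := n) (v := u - v) hf (by rw [← e]; omega) p
  rw [if_pos hp] at this
  have h1 := h p
  omega

/-- digitwise exact division -/
theorem fin_ok {a W w n N off high : ℕ} {r : PN} {t : ℕ → ℤ} (ha : 0 < a) (hn : n ≤ N)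
    (hw : w + 1 ≤ W) (hoff : (off : ℤ) = pk W N fun _ => 2 ^ w)
    (hhigh : (high : ℤ) = pk W N fun _ => 2 ^ W - 2 ^ (w + 1))
    (ht : r.val ≡ pk W n t [ZMOD 2 ^ (W * n)])
    (hb : ∀ p < n, (a : ℤ) * 2 ^ w + |t p| < 2 ^ W)
    (hok : fin a (msk (W * n)) off high r ≠ Ent.bad) :
    ∃ g : ℕ → ℤ, (fin a (msk (W * n)) off high r).val = pk W n g ∧
      ∀ p < n, |g p| ≤ 2 ^ w ∧ (a : ℤ) * g p = t p := by
  have hM : 0 < 2 ^ (W * n) := by positivity
  obtain ⟨R, hR⟩ : ∃ R, R = (r.p % 2 ^ (W * n) + 2 ^ (W * n) - r.n % 2 ^ (W * n) + a * off) %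
      2 ^ (W * n) := ⟨_, rfl⟩
  have e : fin a (msk (W * n)) off high r = if R / a * a = R then
      (if Nat.land (R / a) high = 0 then Ent.sub (R / a) (off % 2 ^ (W * n)) else Ent.bad)
      else Ent.bad := by
    unfold fin
    simp only [ite'_beq, land_msk, Nat.add_eq, Nat.sub_eq, Nat.mul_eq]
    rw [msk_eq, Nat.succ_eq_add_one, Nat.sub_add_cancel hM, ← hR]
    rfl
  rw [e] at hok ⊢
  by_cases h1 : R / a * a = R
  swap
  · rw [if_neg h1] at hok
    exact absurd rfl hok
  rw [if_pos h1] at hok ⊢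
  by_cases h2 : Nat.land (R / a) high = 0
  swap
  · rw [if_neg h2] at hok
    exact absurd rfl hok
  rw [if_pos h2, Ent.val_sub]
  obtain ⟨E, hE⟩ : ∃ E, E = R / a := ⟨_, rfl⟩
  rw [← hE] at h1 h2 ⊢
  have hRlt : R < 2 ^ (W * n) := hR ▸ Nat.mod_lt _ hM
  have hElt : E < 2 ^ (W * n) := (hE ▸ Nat.div_le_self R a).trans_lt hRlt
  have hw1 : (2 : ℤ) ^ (w + 1) ≤ 2 ^ W := pow_le_pow_right₀ (by norm_num) hw
  have hw0 : (0 : ℤ) < 2 ^ w := by positivity
  have hw2 : (2 : ℤ) ^ (w + 1) = 2 * 2 ^ w := by ring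
  have hdig : ∀ p < n, dig W E p < 2 ^ (w + 1) := by
    intro p hp
    apply Nat.lt_pow_two_of_testBit
    intro j hj
    by_cases hjW : j < W
    · have h3 := dig_pk (W := W) (n := N) (v := high) (fun q _ => by constructor <;> omega) hhigh p
      rw [if_pos (by omega)] at h3
      have hw1' : 2 ^ (w + 1) ≤ 2 ^ W := Nat.pow_le_pow_right (by omega) hw
      have h4 : dig W high p = 2 ^ (w + 1) * (2 ^ (W - (w + 1)) - 1) := by
        rw [Nat.mul_sub, ← pow_add, Nat.add_sub_cancel' hw, mul_one]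
        zify [hw1']
        exact h3
      have h5 : high.testBit (W * p + j) = true := by
        rw [← testBit_dig hjW, h4, Nat.testBit_two_pow_mul, Nat.testBit_two_pow_sub_one]
        simp only [Bool.and_eq_true, decide_eq_true_eq]
        omega
      have h6 : (E &&& high).testBit (W * p + j) = false := by
        rw [show E &&& high = 0 from h2, Nat.zero_testBit]
      rw [Nat.testBit_and, h5, Bool.and_true] at h6
      rw [testBit_dig hjW, h6]
    · exact Nat.testBit_lt_two_pow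
        ((dig_lt W E p).trans_le (Nat.pow_le_pow_right (by omega) (by omega)))
  have hoff' : ((off % 2 ^ (W * n) : ℕ) : ℤ) = pk W n fun _ => 2 ^ w := by
    have h3 := pk_lt (W := W) (n := n) (f := fun _ => 2 ^ w) fun q _ => by constructor <;> omega
    have h4 := pk_modEq_trunc (W := W) hn fun _ => 2 ^ w
    rw [← hoff] at h4
    push_cast
    rw [h4, Int.emod_eq_of_lt h3.1 h3.2]
  have hval : (E : ℤ) - (off % 2 ^ (W * n) : ℕ) = pk W n fun p => (dig W E p : ℤ) - 2 ^ w := by
    rw [pk_sub, ← pk_dig hElt, hoff']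
  have hg : ∀ p < n, |(dig W E p : ℤ) - 2 ^ w| ≤ 2 ^ w := by
    intro p hp
    have h3 : ((dig W E p : ℕ) : ℤ) < 2 ^ (w + 1) := by exact_mod_cast hdig p hp
    have h4 : (0 : ℤ) ≤ (dig W E p : ℕ) := Int.natCast_nonneg _
    rw [abs_le]
    constructor <;> omega
  refine ⟨_, hval, fun p hp => ⟨hg p hp, ?_⟩⟩
  refine pk_unique (W := W) (f := fun p => (a : ℤ) * ((dig W E p : ℤ) - 2 ^ w)) (fun q hq => ?_) ?_
    p hp
  · have h3 := hb q hq
    have h4 : |(a : ℤ) * ((dig W E q : ℤ) - 2 ^ w)| ≤ a * 2 ^ w := by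
      rw [abs_mul, Nat.abs_cast]
      exact mul_le_mul_of_nonneg_left (hg q hq) (Int.natCast_nonneg _)
    exact (abs_sub _ _).trans_lt (by omega)
  · rw [pk_mul, ← hval]
    refine Int.ModEq.trans ?_ ht
    have h3 : r.n % 2 ^ (W * n) ≤ r.p % 2 ^ (W * n) + 2 ^ (W * n) :=
      (Nat.mod_lt _ hM).le.trans (Nat.le_add_left _ _)
    have h4 : (E : ℤ) * a = (((r.p : ℤ) % 2 ^ (W * n) + 2 ^ (W * n) - (r.n : ℤ) % 2 ^ (W * n) +
        a * off) % 2 ^ (W * n)) := by
      have := congrArg (Nat.cast : ℕ → ℤ) (h1.trans hR)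
      push_cast [h3] at this
      exact this
    have h5 : (E : ℤ) * a ≡ (r.p : ℤ) + 0 - r.n + a * off [ZMOD 2 ^ (W * n)] := by
      rw [h4]
      refine (Int.mod_modEq _ _).trans ?_
      exact ((((Int.mod_modEq _ _).add (Int.modEq_zero_iff_dvd.2 dvd_rfl)).sub
        (Int.mod_modEq _ _))).add_right _
    have h6 : (a : ℤ) * (off % 2 ^ (W * n) : ℕ) ≡ a * off [ZMOD 2 ^ (W * n)] := by
      push_cast
      exact (Int.mod_modEq _ _).mul_left _
    have h7 := h5.sub h6
    unfold PN.val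
    convert h7 using 1 <;> ring

end Vale.Agent.P181.K
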