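import Vale.Agent.P181.Six.KKey
import Vale.Agent.P181.Six.KLam

/-! Changing the layout. -/

namespace Vale.Agent.P181.K

namespace Relay

theorem dig_at_zero (W Y : ℕ) : dig W Y 0 = Nat.land Y (msk W) := by
  rw [land_msk, dig, Nat.mul_zero, pow_zero, Nat.div_one]

theorem relayRow_succ (W B cap n Y : ℕ) : relayRow W B cap 50 (n + 1) Y =
    (Nat.land Y (msk W) - B) - ((Nat.land Y (msk W) - B) - cap) +
      relayRow W B cap 50 n (Nat.shiftRight Y W) <<< 50 := rfl

theorem relayRow_pk (W B cap n : ℕ) : ∀ Y, (relayRow W B cap 50 n Y : ℤ) =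
    pk 50 n fun i => ((min (dig W Y i - B) cap : ℕ) : ℤ) := by
  induction n with
  | zero => exact fun _ => rfl
  | succ n ih =>
    intro Y
    have h : ∀ i, dig W (Nat.shiftRight Y W) i = dig W Y (i + 1) := fun i => by
      have := dig_shiftRight W Y 1 i
      rwa [Nat.mul_one, Nat.add_comm] at this
    rw [relayRow_succ, pk_succ, ← dig_at_zero, Nat.shiftLeft_eq, Nat.cast_add, Nat.cast_mul, ih]
    simp only [h]
    rw [show dig W Y 0 - B - (dig W Y 0 - B - cap) = min (dig W Y 0 - B) cap by omega]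
    push_cast
    ring

theorem relayRow_dig (W B n Y p : ℕ) : dig 50 (relayRow W B 1099511627776 50 n Y) p =
    if p < n then min (dig W Y p - B) 1099511627776 else 0 := by
  have h := dig_pk (W := 50) (fun p _ => by omega) (relayRow_pk W B 1099511627776 n Y) p
  split_ifs at h ⊢ <;> exact_mod_cast h

theorem relayGo_succ (W sh B cap W2 sh2 n Q X : ℕ) : relayGo W sh B cap W2 sh2 (n + 1) Q X =
    relayRow W B cap W2 (Q / 2 + 1) (Nat.land X (msk (W * (Q / 2 + 1)))) +
      Nat.shiftLeft (relayGo W sh B cap W2 sh2 n (Q - 3) (Nat.shiftRight X sh)) sh2 :=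
  force_eq (Q / 2 + 1) fun cnt => relayRow W B cap W2 cnt (Nat.land X (msk (W * cnt))) +
    Nat.shiftLeft (relayGo W sh B cap W2 sh2 n (Q - 3) (Nat.shiftRight X sh)) sh2

theorem relayGo_dig (W T B n : ℕ) : ∀ Q ≤ 153, ∀ X p,
    dig 50 (relayGo W (W * T) B 1099511627776 50 (50 * 81) n Q X) p =
      if p / 81 < n ∧ p % 81 < (Q - 3 * (p / 81)) / 2 + 1 then
        min (dig W X (T * (p / 81) + p % 81) - B) 1099511627776 else 0 := by
  induction n with
  | zero =>
    intro Q _ X p
    rw [if_neg (by omega)]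
    exact dig_zero _ _
  | succ n ih =>
    intro Q hQ X p
    rw [relayGo_succ, dig_add, relayRow_dig, dig_shiftLeft, ih _ (by omega), dig_land_msk,
      dig_shiftRight]
    · by_cases hp : 81 ≤ p
      · obtain ⟨q, rfl⟩ := Nat.exists_eq_add_of_le hp
        rw [if_neg (by omega), if_pos hp, Nat.add_sub_cancel_left, Nat.zero_add,
          show (81 + q) / 81 = q / 81 + 1 by omega, show (81 + q) % 81 = q % 81 by omega,
          show T * (q / 81 + 1) + q % 81 = T + (T * (q / 81) + q % 81) by ring]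
        exact if_congr (by omega) rfl rfl
      · rw [if_neg hp, Nat.add_zero, show p / 81 = 0 by omega, show p % 81 = p by omega,
          Nat.mul_zero, Nat.mul_zero, Nat.zero_add, Nat.sub_zero]
        by_cases h : p < Q / 2 + 1
        · rw [if_pos h, if_pos h, if_pos ⟨by omega, h⟩]
        · rw [if_neg h, if_neg fun h' => h h'.2]
    · intro p
      rw [relayRow_dig, dig_shiftLeft, ih _ (by omega)]
      split_ifs <;> omega

theorem pk_ite {W n N : ℕ} (h : n ≤ N) (f : ℕ → ℤ) :
    pk W N (fun p => if p < n then f p else 0) = pk W n f := by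
  obtain ⟨k, rfl⟩ := Nat.exists_eq_add_of_le h
  rw [pk_append, pk_congr (n := n) (g := f) fun p hp => if_pos hp,
    pk_congr (n := k) (g := fun _ => 0) fun p _ => if_neg (by omega), pk_zero, mul_zero, add_zero]

theorem pos_lt {S M u v : ℕ} (hu : u < S) (hv : v < M) : u + S * v < S * M :=
  calc u + S * v < S * (v + 1) := by rw [Nat.mul_succ]; omega
    _ ≤ S * M := Nat.mul_le_mul_left S hv

theorem tri_range {J : Job} {a w x y z i r : ℕ} (hc : RelCond J a w) (hz : z < y) (hy : y < x)
    (h : InTri (a * J.m) x y z i r) : x + 2 + i < J.S ∧ x + 1 + r < J.rows (x + y + z) := by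
  obtain ⟨h1, h2, -, -⟩ := hc
  unfold InTri at h
  have : J.rows (x + y + z) = (J.C - (x + y + z)) / 3 := rfl
  omega

theorem ent_digits {J : Job} {a w x y z : ℕ} {e : Ent} (he : EntOK J a w x y z e) (p : ℕ)
    (hp : p < J.S * J.rows (x + y + z)) : |cf a J.m (p % J.S) (p / J.S) x y z| ≤ 2 ^ w := by
  have hS : 0 < J.S := Nat.pos_of_ne_zero fun h => by simp [h] at hp
  exact he.2 _ _ (Nat.mod_lt _ hS) (Nat.div_lt_of_lt_mul hp)

theorem off_add {J : Job} {a w x y z : ℕ} {e : Ent} (hc : RelCond J a w)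
    (he : EntOK J a w x y z e) :
    (J.off w : ℤ) + e.val = pk J.W (J.S * J.rows 0) (fun p => 2 ^ w +
      if p < J.S * J.rows (x + y + z) then cf a J.m (p % J.S) (p / J.S) x y z else 0) ∧
    ∀ p < J.S * J.rows 0, 0 ≤ (2 ^ w +
      if p < J.S * J.rows (x + y + z) then cf a J.m (p % J.S) (p / J.S) x y z else 0) ∧
      (2 ^ w + if p < J.S * J.rows (x + y + z) then cf a J.m (p % J.S) (p / J.S) x y z else 0) <
        2 ^ J.W := by
  have hw := hc.2.2.2
  refine ⟨?_, fun p _ => ?_⟩
  · rw [pk_add, pk_ite (Nat.mul_le_mul_left _ (rows_anti J (Nat.zero_le _))),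
      off_eq J w (by omega), he.1, pcf]
  · have h1 : (2 : ℤ) ^ (w + 2) ≤ 2 ^ J.W := pow_le_pow_right₀ one_le_two hw
    have h2 : (0 : ℤ) < 2 ^ w := by positivity
    rw [pow_add] at h1
    split_ifs with h
    · have := abs_le.1 (ent_digits he p h)
      omega
    · omega

theorem relay_go {J : Job} {a w x y z E Q : ℕ} {e : Ent} (hc : RelCond J a w) (hz : z < y)
    (hy : y < x) (he : EntOK J a w x y z e) (hE : (E : ℤ) = J.off w + e.val)
    (hQ : Q + (4 * x + (y + z)) = a * J.m + 9) :
    RelOK a J.m x y z (relayGo J.W (J.W * (J.S + 1)) (1 <<< w) 1099511627776 50 (50 * 81)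
      (Q / 3 + 1) Q (Nat.shiftRight E (J.W * (J.S * (x + 1) + (x + 2))))) := by
  obtain ⟨h1, h2⟩ := off_add hc he
  have h3 := hc.2.2.1
  intro p
  rw [relayGo_dig _ _ _ _ _ (by omega), dig_shiftRight]
  by_cases h : InTri (a * J.m) x y z (p % 80) (p / 80)
  · obtain ⟨h4, h5⟩ := tri_range hc hz hy h
    have h6 := mult_lam_nonneg rfl hz hy h
    rw [if_pos h]
    rw [mult_lam hz hy h] at h6 ⊢
    unfold InTri at h
    have h7 : p / 81 = p / 80 := by omega
    have h8 : p % 81 = p % 80 - p / 80 := by omega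
    rw [if_pos (by omega), h7, h8]
    generalize p % 80 = i at *
    generalize p / 80 = r at *
    obtain ⟨k, rfl⟩ := Nat.exists_eq_add_of_le h.1
    have h9 := pos_lt h4 h5
    have h10 := dig_pk h2 (hE.trans h1) (x + 2 + (r + k) + J.S * (x + 1 + r))
    rw [if_pos (h9.trans_le (Nat.mul_le_mul_left _ (rows_anti J (Nat.zero_le _)))), if_pos h9,
      Nat.add_mul_mod_self_left, Nat.mod_eq_of_lt h4, Nat.add_mul_div_left _ _ (by omega),
      Nat.div_eq_of_lt h4, Nat.zero_add] at h10
    rw [Nat.add_sub_cancel_left, show J.S * (x + 1) + (x + 2) + ((J.S + 1) * r + k) =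
      x + 2 + (r + k) + J.S * (x + 1 + r) by ring, Nat.one_shiftLeft]
    have h11 : ((2 ^ w : ℕ) : ℤ) = 2 ^ w := by norm_num
    omega
  · rw [if_neg h, if_neg]
    · rfl
    · unfold InTri at h
      omega

theorem relay_zero {J : Job} {a w x y z : ℕ} {e : Ent} (hc : RelCond J a w) (hz : z < y)
    (hy : y < x) (he : EntOK J a w x y z e) (h0 : e.val = 0) : RelOK a J.m x y z 0 := by
  intro p
  rw [dig_zero]
  split_ifs with h
  · obtain ⟨h4, h5⟩ := tri_range hc hz hy h
    have h1 : (2 : ℤ) ^ w < 2 ^ J.W := pow_lt_pow_right₀ one_lt_two (by have := hc.2.2.2; omega)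
    have h2 := pk_unique (W := J.W) (n := J.S * J.rows (x + y + z))
      (f := fun p => cf a J.m (p % J.S) (p / J.S) x y z) (g := fun _ => 0)
      (fun p hp => by rw [sub_zero]; exact (ent_digits he p hp).trans_lt h1)
      (by rw [pk_zero, ← pcf, ← he.1, h0]) _ (pos_lt h4 h5)
    simp only [Nat.add_mul_mod_self_left, Nat.mod_eq_of_lt h4] at h2
    rw [Nat.add_mul_div_left _ _ (by omega), Nat.div_eq_of_lt h4, Nat.zero_add] at h2
    rw [mult_lam hz hy h, h2]
    rfl
  · rfl

end Relay

theorem relay_ok {J : Job} {a w x y z : ℕ} {e : Ent} (hc : RelCond J a w) (hz : z < y)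
    (hy : y < x) (he : EntOK J a w x y z e) :
    RelOK a J.m x y z (relay J a w (J.off w) 1099511627776 80 50 x (y + z) e) := by
  rw [relay, ite'_ble]
  split_ifs with h
  · have hQ : a * J.m + 9 - (4 * x + (y + z)) + (4 * x + (y + z)) = a * J.m + 9 :=
      Nat.sub_add_cancel h
    cases e with
    | zero => exact Relay.relay_zero hc hz hy he rfl
    | bad => exact Relay.relay_zero hc hz hy he rfl
    | pos s => exact Relay.relay_go (E := J.off w + s.v) hc hz hy he (Nat.cast_add _ _) hQ
    | neg s =>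
      obtain ⟨h1, h2⟩ := Relay.off_add hc he
      have h3 := (pk_lt h2).1
      rw [← h1] at h3
      refine Relay.relay_go (E := J.off w - s.v) hc hz hy he ?_ hQ
      simp only [Ent.val] at h3 ⊢
      omega
  · intro p
    rw [dig_zero, if_neg]
    · rfl
    · simp only [Nat.add_eq, Nat.mul_eq] at h
      unfold InTri
      omega

theorem relayTbl_ok {J : Job} {t : Ls (Ls ℕ)} {a w : ℕ} {tb : L3} (hc : RelCond J a w)
    (ht : TOK J t) (h : TblOK J t a w tb) :
    RelTbl a J.m t (relayTbl J a w 1099511627776 80 50 t tb 0 J.n6) := by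
  intro i y z
  unfold srcGet relayTbl
  beta_reduce
  rw [get_asc, Nat.zero_add]
  split_ifs with h1 h2 h3
  · have h4 := ((ht y z).2 (by omega)).1
    rw [get_asc, if_pos h4, Nat.zero_add, ite'_ble, if_neg (by omega), force_eq, relayL1, get_asc,
      if_pos (by rw [Nat.sub_eq]; omega)]
    exact relay_ok hc h1.1 (by omega) (h _ _ _ h1.1 (by omega) h1.2)
  · exact absurd ((ht y z).2 (by omega)).2 h2
  · rw [get_asc, Nat.zero_add, ite'_ble, force_eq]
    split_ifs with h4 h5
    · rfl
    · rw [relayL1, get_asc, if_neg (by rw [Nat.sub_eq]; omega)]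
    · rfl
  · rfl

end Vale.Agent.P181.K
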