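import Vale.Agent.P181.Six.KChunk
import Vale.Agent.P181.Six.KBox
import Vale.Agent.P181.Six.KRelay

/-! Soundness of the exact comparison. -/

namespace Vale.Agent.P181.K

/-- the numerical side conditions of `exact6` -/
def ExCond (J : Job) (w1 w2 w3 w4 w5 w6 : ℕ) : Prop :=
  ZeroCond J ∧ LevOK J 1 w1 1 ∧ LevOK J 2 w2 (1 + 2 ^ w1) ∧
    LevOK J 3 w3 (1 + 2 ^ w1 + 2 ^ w2) ∧ LevOK J 4 w4 (1 + 2 ^ w1 + 2 ^ w2 + 2 ^ w3) ∧
    LevOK J 5 w5 (1 + 2 ^ w1 + 2 ^ w2 + 2 ^ w3 + 2 ^ w4) ∧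
    LevOK J 6 w6 (1 + 2 ^ w1 + 2 ^ w2 + 2 ^ w3 + 2 ^ w4 + 2 ^ w5) ∧ RelCond J 6 w6 ∧ J.m ≤ 24

instance (J : Job) (w1 w2 w3 w4 w5 w6 : ℕ) : Decidable (ExCond J w1 w2 w3 w4 w5 w6) := by
  unfold ExCond
  infer_instance

namespace Exact

theorem and_of_ite {b c : Bool} (h : ite' b c false = true) : b = true ∧ c = true := by
  cases b
  · exact absurd h (by simp)
  · exact ⟨rfl, h⟩

theorem dig_shift {j : ℕ} (hj : j < 50) (N p : ℕ) :
    dig 50 (Nat.shiftLeft (ones 50 N) j) p = if p < N then 2 ^ j else 0 := by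
  have h1 : ((Nat.shiftLeft (ones 50 N) j : ℕ) : ℤ) = pk 50 N fun _ => 2 ^ j := by
    have h := pk_mul 50 N (2 ^ j) fun _ => 1
    rw [← ones_eq (by norm_num)] at h
    simp only [mul_one] at h
    rw [h]
    change ((ones 50 N <<< j : ℕ) : ℤ) = _
    rw [Nat.shiftLeft_eq, Nat.cast_mul, mul_comm, Nat.cast_pow, Nat.cast_ofNat]
  have h2 := dig_pk (fun _ _ => ⟨by positivity, pow_lt_pow_right₀ (by norm_num) hj⟩) h1 p
  split_ifs at h2 ⊢ <;> exact_mod_cast h2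

theorem bit_shift {j N p : ℕ} (hj : j < 50) (hp : p < N) :
    (Nat.shiftLeft (ones 50 N) j).testBit (50 * p + j) = true := by
  rw [← testBit_dig hj, dig_shift hj, if_pos hp]
  exact Nat.testBit_two_pow_self

theorem cmp_gen {N u v : ℕ} (hu : ∀ p, dig 50 u p ≤ 2 ^ 40) (hu' : ∀ p, N ≤ p → dig 50 u p = 0)
    (hv : ∀ p, dig 50 v p ≤ 2 ^ 40) (h1 : Nat.land u (Nat.shiftLeft (ones 50 N) 40) = 0)
    (h2 : Nat.land (Nat.shiftLeft (ones 50 N) 49 + v - u) (Nat.shiftLeft (ones 50 N) 49) =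
      Nat.shiftLeft (ones 50 N) 49) {p : ℕ} (hp : p < N) :
    dig 50 u p < 2 ^ 40 ∧ dig 50 u p ≤ dig 50 v p := by
  constructor
  · refine lt_of_le_of_ne (hu p) fun h => ?_
    have h3 := congrArg (fun n => Nat.testBit n (50 * p + 40)) h1
    simp only [Nat.land_eq, Nat.testBit_and, Nat.zero_testBit] at h3
    rw [bit_shift (by norm_num) hp, ← testBit_dig (by norm_num), h, Nat.testBit_two_pow_self] at h3
    exact absurd h3 (by simp)
  · have hd := dig_shift (j := 49) (by norm_num) N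
    have hb := bit_shift (j := 49) (by norm_num) hp
    generalize Nat.shiftLeft (ones 50 N) 49 = H at h2 hd hb
    have h3 := congrArg (fun n => Nat.testBit n (50 * p + 49)) h2
    simp only [Nat.land_eq, Nat.testBit_and] at h3
    rw [hb, Bool.and_true, ← testBit_dig (by norm_num)] at h3
    have h4 := Nat.ge_two_pow_of_testBit h3
    have h5 := dig_add (W := 50) (u := H) (v := v) fun q => by
      have := hv q
      rw [hd q]
      split_ifs <;> omega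
    rw [dig_sub fun q => by
      have := hu q
      have := hu' q
      rw [h5 q, hd q]
      split_ifs <;> omega, h5 p, hd p, if_pos hp] at h4
    have := hu p
    omega

theorem cmp_ok {u v : ℕ} (hu : ∀ p, dig 50 u p ≤ 2 ^ 40) (hu' : ∀ p, 4000 ≤ p → dig 50 u p = 0)
    (hv : ∀ p, dig 50 v p ≤ 2 ^ 40) (h : cmpArr u v = true) {p : ℕ} (hp : p < 4000) :
    dig 50 u p < 2 ^ 40 ∧ dig 50 u p ≤ dig 50 v p := by
  obtain ⟨h1, h2⟩ := and_of_ite h
  exact cmp_gen hu hu' hv (Nat.eq_of_beq_eq_true h1) (Nat.eq_of_beq_eq_true h2) hp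

theorem cmpRow_cons (t2 : Ls (Ls (Ls Sv))) (y z : ℕ) (h : Sv) (l : Ls Sv) (i : ℕ) :
    cmpRow t2 y z (Ls.cons h l) i =
      ite' (cmpArr h.v (srcGet t2 i y z)) (force (i + 1) (cmpRow t2 y z l)) false := rfl

theorem cmpSlice_cons (t2 : Ls (Ls (Ls Sv))) (z : ℕ) (h : Ls Sv) (l : Ls (Ls Sv)) (y : ℕ) :
    cmpSlice t2 z (Ls.cons h l) y =
      ite' (cmpRow t2 y z h 0) (force (y + 1) (cmpSlice t2 z l)) false := rfl

theorem cmpTbl_cons (t2 : Ls (Ls (Ls Sv))) (h : Ls (Ls Sv)) (l : Ls (Ls (Ls Sv))) (z : ℕ) :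
    cmpTbl t2 (Ls.cons h l) z =
      ite' (cmpSlice t2 z h 0) (force (z + 1) (cmpTbl t2 l)) false := rfl

theorem row_ok {t2 : Ls (Ls (Ls Sv))} {y z : ℕ} (l : Ls Sv) : ∀ i0, cmpRow t2 y z l i0 = true →
    ∀ i, (l.get ⟨0, 0⟩ i).v = 0 ∨ cmpArr (l.get ⟨0, 0⟩ i).v (srcGet t2 (i0 + i) y z) = true := by
  induction l with
  | nil => exact fun _ _ _ => Or.inl rfl
  | cons a l ih =>
    intro i0 h i
    rw [cmpRow_cons, force_eq] at h
    obtain ⟨h1, h2⟩ := and_of_ite h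
    cases i with
    | zero => exact Or.inr h1
    | succ i =>
      rw [Ls.get_succ, ← Nat.add_assoc, Nat.add_right_comm]
      exact ih _ h2 i

theorem slice_ok {t2 : Ls (Ls (Ls Sv))} {z : ℕ} (l : Ls (Ls Sv)) :
    ∀ y0, cmpSlice t2 z l y0 = true → ∀ y i, ((l.get Ls.nil y).get ⟨0, 0⟩ i).v = 0 ∨
      cmpArr ((l.get Ls.nil y).get ⟨0, 0⟩ i).v (srcGet t2 i (y0 + y) z) = true := by
  induction l with
  | nil => exact fun _ _ _ _ => Or.inl rfl
  | cons a l ih =>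
    intro y0 h y i
    rw [cmpSlice_cons, force_eq] at h
    obtain ⟨h1, h2⟩ := and_of_ite h
    cases y with
    | zero =>
      have := row_ok a 0 h1 i
      rwa [Nat.zero_add] at this
    | succ y =>
      rw [Ls.get_succ, ← Nat.add_assoc, Nat.add_right_comm]
      exact ih _ h2 y i

theorem tbl_ok {t2 : Ls (Ls (Ls Sv))} (l : Ls (Ls (Ls Sv))) :
    ∀ z0, cmpTbl t2 l z0 = true → ∀ z y i, srcGet l i y z = 0 ∨
      cmpArr (srcGet l i y z) (srcGet t2 i y (z0 + z)) = true := by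
  induction l with
  | nil => exact fun _ _ _ _ _ => Or.inl rfl
  | cons a l ih =>
    intro z0 h z y i
    rw [cmpTbl_cons, force_eq] at h
    obtain ⟨h1, h2⟩ := and_of_ite h
    cases z with
    | zero =>
      have := slice_ok a 0 h1 y i
      rwa [Nat.zero_add] at this
    | succ z =>
      rw [← Nat.add_assoc, Nat.add_right_comm]
      exact ih _ h2 z y i

/-- one level of `runJob` -/
noncomputable def stp (J : Job) (t : Ls (Ls ℕ)) (w : ℕ) (s : M1) : M1 :=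
  ⟨ite' s.ok ((tblOf J (J.lev (s.a + 1) w) (Ls.cons (mkBox J s.tb) s.bs) t).all
      (Ls.all (Ls.all Ent.ok))) false, s.a + 1, Ls.cons (mkBox J s.tb) s.bs,
    tblOf J (J.lev (s.a + 1) w) (Ls.cons (mkBox J s.tb) s.bs) t⟩

theorem runJob_cons (J : Job) (t : Ls (Ls ℕ)) (w : ℕ) (ws : Ls ℕ) (s : M1) :
    runJob J t (Ls.cons w ws) s = runJob J t ws (stp J t w s) := rfl

theorem runJob_nil (J : Job) (t : Ls (Ls ℕ)) (s : M1) : runJob J t Ls.nil s = s := rfl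

def RunInv (J : Job) (t : Ls (Ls ℕ)) (a w bnd : ℕ) (s : M1) : Prop :=
  s.a = a ∧ (s.ok = true → TblOK J t a w s.tb ∧ BoxesOK J t a bnd s.bs)

theorem RunInv.step {J : Job} {t : Ls (Ls ℕ)} {a w bnd w' : ℕ} {s : M1} (ht : TOK J t)
    (ha : TAnti t) (h : RunInv J t a w bnd s) (hL : LevOK J (a + 1) w' (bnd + 2 ^ w)) :
    RunInv J t (a + 1) w' (bnd + 2 ^ w) (stp J t w' s) := by
  obtain ⟨rfl, h⟩ := h
  refine ⟨rfl, fun hok => ?_⟩
  obtain ⟨h1, h2⟩ := and_of_ite hok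
  have hb := BoxesOK.cons (box_ok ha (h h1).1) (h h1).2
  exact ⟨tblOf_ok hL ht (TLe.refl t) hb h2, hb⟩

theorem rel_dig_le {a m x y z v : ℕ} (h : RelOK a m x y z v) (p : ℕ) : dig 50 v p ≤ 2 ^ 40 := by
  have h1 := h p
  split_ifs at h1
  · have := min_le_left (2 ^ 40 : ℤ) (mult a m (lam (a * m) x y z (p % 80) (p / 80)))
    omega
  · omega

theorem ex_of_cmp {m : ℕ} {t : Ls (Ls ℕ)} {T t2 : Ls (Ls (Ls Sv))} (hm : m ≤ 24)
    (hT : RelTbl 6 m t T) (hs : SrcOK ⟨m, t2⟩) (h : cmpTbl t2 T 0 = true) : ExOK m t := by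
  intro x y z i r hz hy hx hi
  obtain ⟨k, rfl⟩ : ∃ k, x = y + 1 + k := ⟨x - (y + 1), by omega⟩
  have hu := hT k y z
  rw [if_pos ⟨hz, hx⟩] at hu
  have hi1 := hi.1
  have hi2 := hi.2
  have e1 : (i + 80 * r) % 80 = i := by omega
  have e2 : (i + 80 * r) / 80 = r := by omega
  have h0 := mult_lam_nonneg (a := m) (m := 6) (mul_comm 6 m) hz hy hi
  have h1 := hu (i + 80 * r)
  rw [e1, e2, if_pos hi] at h1
  rcases tbl_ok T 0 h z y k with h2 | h2
  · rw [h2, dig_zero] at h1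
    rcases min_choice (2 ^ 40 : ℤ) (mult 6 m (lam (6 * m) (y + 1 + k) y z i r)) with h3 | h3 <;>
      omega
  · rw [Nat.zero_add] at h2
    have hv : (∀ p, dig 50 (srcGet t2 k y z) p ≤ 2 ^ 40) ∧
        (dig 50 (srcGet t2 k y z) (i + 80 * r) : ℤ) ≤
          mult m 6 (lam (6 * m) (y + 1 + k) y z i r) := by
      rcases hs k y z with h3 | ⟨-, h3⟩
      · change srcGet t2 k y z = 0 at h3
        rw [h3]
        exact ⟨fun p => by rw [dig_zero]; exact Nat.zero_le _, by rw [dig_zero]; exact h0⟩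
      · change RelOK m 6 (y + 1 + k) y z (srcGet t2 k y z) at h3
        refine ⟨rel_dig_le h3, ?_⟩
        have h4 := h3 (i + 80 * r)
        rw [e1, e2, mul_comm m 6, if_pos hi] at h4
        exact h4.trans_le (min_le_right _ _)
    have h5 := cmp_ok (rel_dig_le hu) (fun p hp => by
      have h4 := hu p
      rw [if_neg fun h6 => by
        have := h6.1
        have := h6.2
        omega] at h4
      exact_mod_cast h4) hv.1 h2 (p := i + 80 * r) (by omega)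
    have h6 := hv.2
    rcases min_choice (2 ^ 40 : ℤ) (mult 6 m (lam (6 * m) (y + 1 + k) y z i r)) with h3 | h3 <;>
      omega

end Exact

theorem exact6_ok {J : Job} {t : Ls (Ls ℕ)} {w1 w2 w3 w4 w5 w6 : ℕ} {t2 : Ls (Ls (Ls Sv))}
    (hc : ExCond J w1 w2 w3 w4 w5 w6) (ht : TOK J t) (ha : TAnti t) (hs : SrcOK ⟨J.m, t2⟩)
    (h : exact6 J t w1 w2 w3 w4 w5 w6 t2 = true) : ExOK J.m t := by
  obtain ⟨h0, l1, l2, l3, l4, l5, l6, hr, hm⟩ := hc
  have i0 : Exact.RunInv J t 0 0 0 ⟨true, 0, Ls.nil, tbl0 J⟩ :=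
    ⟨rfl, fun _ => ⟨tbl0_ok h0 ht, BoxesOK.nil⟩⟩
  have i6 := (((((i0.step ht ha l1).step ht ha l2).step ht ha l3).step ht ha l4).step ht ha
    l5).step ht ha l6
  unfold exact6 at h
  simp only [Exact.runJob_cons, Exact.runJob_nil] at h
  obtain ⟨h1, h2⟩ := Exact.and_of_ite h
  exact Exact.ex_of_cmp hm (relayTbl_ok hr ht (i6.2 h1).1) hs h2

end Vale.Agent.P181.K
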