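import Vale.Agent.P181.Six.KExact
import Vale.Agent.P181.Six.KCover2

/-! Convenient forms of the soundness theorems. -/

namespace Vale.Agent.P181.K

theorem boxes_step {J : Job} {t : Ls (Ls ℕ)} {a w bnd a' bnd' : ℕ} {tb B : L3} {bs : Ls L3}
    (ha : TAnti t) (h : TblOK J t a w tb)
    (e : Ls.beq (Ls.beq (Ls.beq Ent.beq)) (mkBox J tb) B = true) (hb : BoxesOK J t a bnd bs)
    (h1 : a' = a + 1) (h2 : bnd' = bnd + 2 ^ w) : BoxesOK J t a' bnd' (Ls.cons B bs) := by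
  subst h1 h2
  exact BoxesOK.cons (beq3_ent e ▸ box_ok ha h) hb

theorem src_step {J : Job} {t : Ls (Ls ℕ)} {a w n : ℕ} {tb : L3} {T : Ls (Ls (Ls Sv))}
    (hc : RelCond J a w) (ht : TOK J t) (h : TblOK J t a w tb) (hm : J.m = 6) (hn : J.n6 = n)
    (e : Ls.beq (Ls.beq (Ls.beq Sv.beq)) (relayTbl J a w 1099511627776 80 50 t tb 0 n) T = true) :
    SrcOK ⟨a, T⟩ := by
  have h1 := relayTbl_ok hc ht h
  rw [hn, beq3_sv e, hm] at h1
  exact srcOK_of_relTbl h1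

theorem ex_step {J : Job} {t : Ls (Ls ℕ)} {b w1 w2 w3 w4 w5 w6 : ℕ} {t2 : Ls (Ls (Ls Sv))}
    (hm : J.m = b) (hc : ExCond J w1 w2 w3 w4 w5 w6) (ht : tCheck J t = true)
    (ha : tAnti J t = true) (hs : SrcOK ⟨b, t2⟩)
    (h : exact6 J t w1 w2 w3 w4 w5 w6 t2 = true) : ExOK b t := by
  subst hm
  exact exact6_ok hc (tok_of_check ht) (tanti_of_check (tok_of_check ht) ha) hs h

end Vale.Agent.P181.K
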