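import Vale.Agent.P181.Six.KDig

/-! The traversals `inner`, `mid`, `outer`, `grp`, `overK` and the factors `tList`. -/

namespace Vale.Agent.P181.K

namespace Trav

theorem zeros_succ (n : ℕ) : zeros (n + 1) = Acc.cons 0 0 (zeros n) := rfl

theorem addE_len (e : Ent) (p n : ℕ) (r : Acc) : (addE e p n r).len = r.len + 1 := by
  cases e <;> rfl

theorem addE_at_zero (e : Ent) (p n : ℕ) (r : Acc) :
    (addE e p n r).at 0 = (p : ℤ) - n + e.val := by
  cases e with
  | zero => simp [addE, Acc.at, Ent.val]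
  | pos s => simp only [addE, Acc.at, Ent.val, Nat.add_eq]; push_cast; ring
  | neg s => simp only [addE, Acc.at, Ent.val, Nat.add_eq]; push_cast; ring
  | bad => simp [addE, Acc.at, Ent.val]

theorem addE_at_succ (e : Ent) (p n : ℕ) (r : Acc) (j : ℕ) :
    (addE e p n r).at (j + 1) = r.at j := by
  cases e <;> rfl

theorem inner_nil (k1 : ℕ) (l : L1) : inner k1 Acc.nil l = Acc.nil := rfl

theorem inner_cons_nil (k1 p n : ℕ) (t : Acc) :
    inner k1 (Acc.cons p n t) Ls.nil = Acc.cons p n t := rfl

theorem inner_cons_cons (k1 p n : ℕ) (t : Acc) (e : Ent) (l : L1) :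
    inner k1 (Acc.cons p n t) (Ls.cons e l) = addE e p n (inner k1 t (l.drop k1)) := rfl

theorem inner_len (k1 : ℕ) (acc : Acc) (l : L1) : (inner k1 acc l).len = acc.len := by
  induction acc generalizing l with
  | nil => rfl
  | cons p n t ih =>
    cases l with
    | nil => rfl
    | cons e l => rw [inner_cons_cons, addE_len, ih]; rfl

theorem inner_at (k1 : ℕ) (acc : Acc) (l : L1) {j : ℕ} (hj : j < acc.len) :
    (inner k1 acc l).at j = acc.at j + (l.get Ent.zero ((k1 + 1) * j)).val := by
  induction acc generalizing l j with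
  | nil => simp [Acc.len] at hj
  | cons p n t ih =>
    cases l with
    | nil => simp [inner_cons_nil, Ent.val]
    | cons e l =>
      rw [inner_cons_cons]
      cases j with
      | zero => rw [addE_at_zero]; rfl
      | succ j =>
        rw [addE_at_succ, ih _ (by simpa [Acc.len] using hj), Ls.get_drop]
        have : (k1 + 1) * (j + 1) = k1 + (k1 + 1) * j + 1 := by ring
        rw [this, Ls.get_succ]
        rfl

/-- one step of `lay` -/
noncomputable def layStep {α : Type} (f : Acc → α → Acc) (k1 : ℕ) (fu : Acc) (l : Ls α) :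
    Acc → Acc
  | Acc.nil => Acc.nil
  | Acc.cons p n t => Acc.cons p n (lay f k1 fu t (l.drop k1))

theorem lay_cons_cons {α : Type} (f : Acc → α → Acc) (k1 a b : ℕ) (fu acc : Acc) (x : α)
    (l : Ls α) : lay f k1 (Acc.cons a b fu) acc (Ls.cons x l) = layStep f k1 fu l (f acc x) := by
  change Acc.rec (motive := fun _ => Acc) Acc.nil
    (fun p n t _ => Acc.cons p n (lay f k1 fu t (l.drop k1))) (f acc x) = _
  cases f acc x <;> rfl

theorem lay_len {α : Type} {f : Acc → α → Acc} (hf : ∀ acc x, (f acc x).len = acc.len) (k1 : ℕ)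
    (fu acc : Acc) (l : Ls α) : (lay f k1 fu acc l).len = acc.len := by
  induction fu generalizing acc l with
  | nil => rfl
  | cons a b fu ih =>
    cases l with
    | nil => rfl
    | cons x l =>
      rw [lay_cons_cons, ← hf acc x]
      cases f acc x with
      | nil => rfl
      | cons p n t => simp only [layStep, Acc.len, ih]

theorem lay_at {α : Type} {f : Acc → α → Acc} (hf : ∀ acc x, (f acc x).len = acc.len)
    {F : α → ℕ → ℤ} (hF : ∀ acc x j, j < acc.len → (f acc x).at j = acc.at j + F x j) {d : α}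
    (hd : ∀ j, F d j = 0) (k1 : ℕ) (fu acc : Acc) (l : Ls α) (hl : acc.len ≤ fu.len) {j : ℕ}
    (hj : j < acc.len) : (lay f k1 fu acc l).at j =
      acc.at j + ∑ b ∈ Finset.range (j + 1), F (l.get d ((k1 + 1) * b)) (j - b) := by
  induction fu generalizing acc l j with
  | nil => simp only [Acc.len] at hl; omega
  | cons a b fu ih =>
    cases l with
    | nil =>
      simp only [Ls.get_nil, hd, Finset.sum_const_zero, add_zero]
      rfl
    | cons x l =>
      have h1 := hf acc x
      have h2 := hF acc x j hj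
      rw [lay_cons_cons, Finset.sum_range_succ', mul_zero, Ls.get_zero, Nat.sub_zero]
      cases hx : f acc x with
      | nil => rw [hx] at h1; simp only [Acc.len] at h1; omega
      | cons p n t =>
        rw [hx] at h1 h2
        simp only [Acc.len] at h1 hl
        cases j with
        | zero =>
          simp only [layStep, Finset.range_zero, Finset.sum_empty, zero_add]
          exact h2
        | succ j =>
          simp only [layStep, Acc.at] at h2 ⊢
          rw [ih t _ (by omega) (by omega), h2, add_assoc, add_comm (F x (j + 1))]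
          congr 2
          refine Finset.sum_congr rfl fun c _ => ?_
          have : (k1 + 1) * (c + 1) = k1 + (k1 + 1) * c + 1 := by ring
          rw [this, Ls.get_succ, Ls.get_drop, Nat.add_sub_add_right]

theorem mid_len (k1 : ℕ) (acc : Acc) (l : L2) : (mid k1 acc l).len = acc.len :=
  lay_len (inner_len k1) k1 acc acc l

theorem mid_at (k1 : ℕ) (acc : Acc) (l : L2) (j : ℕ) (hj : j < acc.len) :
    (mid k1 acc l).at j = acc.at j + ∑ b ∈ Finset.range (j + 1),
      ((l.get Ls.nil ((k1 + 1) * b)).get Ent.zero ((k1 + 1) * (j - b))).val :=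
  lay_at (F := fun (x : L1) j => (x.get Ent.zero ((k1 + 1) * j)).val) (inner_len k1)
    (fun acc x _ hj => inner_at k1 acc x hj) (fun _ => rfl) k1 acc acc l le_rfl hj

theorem grp_nil (mask : ℕ) (ts : Ls ℕ) (P N : ℕ) : grp mask Acc.nil ts P N = ⟨P, N⟩ := rfl

theorem grp_cons_nil (mask p n : ℕ) (a : Acc) (P N : ℕ) :
    grp mask (Acc.cons p n a) Ls.nil P N = ⟨P, N⟩ := rfl

theorem grp_cons_cons (mask p n : ℕ) (a : Acc) (t : ℕ) (ts : Ls ℕ) (P N : ℕ) :
    grp mask (Acc.cons p n a) (Ls.cons t ts) P N = ite' (Nat.beq p n) (grp mask a ts P N)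
      (ite' (Nat.ble n p)
        (grp mask a ts (P + Nat.land (p - n) mask * Nat.land t mask) N)
        (grp mask a ts P (N + Nat.land (n - p) mask * Nat.land t mask))) := rfl

theorem overK_nil (mask : ℕ) (zs : Acc) (tt : Ls (Ls ℕ)) (k1 P N : ℕ) :
    overK mask zs Ls.nil tt k1 P N = ⟨P, N⟩ := rfl

theorem overK_cons_nil (mask : ℕ) (zs : Acc) (b : L3) (bs : Ls L3) (k1 P N : ℕ) :
    overK mask zs (Ls.cons b bs) Ls.nil k1 P N = ⟨P, N⟩ := rfl

theorem overK_cons_cons (mask : ℕ) (zs : Acc) (b : L3) (bs : Ls L3) (ts : Ls ℕ)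
    (tt : Ls (Ls ℕ)) (k1 P N : ℕ) :
    overK mask zs (Ls.cons b bs) (Ls.cons ts tt) k1 P N = overK mask zs bs tt (k1 + 1)
      (grp mask (outer k1 zs b) ts P N).p (grp mask (outer k1 zs b) ts P N).n := rfl

theorem cast_mod (v n : ℕ) : ((v % 2 ^ n : ℕ) : ℤ) ≡ v [ZMOD 2 ^ n] := by
  push_cast
  exact Int.mod_modEq _ _

/-- the state of `tList` -/
noncomputable def tSt (S W mask k m : ℕ) : TS :=
  Nat.rec (motive := fun _ => TS) ⟨1, 1, Ls.cons 1 Ls.nil⟩
    (fun j s => (fun g : Nat => (fun t : Nat => (⟨g, t, Ls.cons t s.l⟩ : TS))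
        (Nat.land (Nat.add g (Nat.shiftLeft s.t (Nat.mul W (Nat.mul S k)))) mask))
      (Nat.land (Nat.add s.g (Nat.shiftLeft 1 (Nat.mul W (Nat.mul k (Nat.succ j))))) mask)) m

theorem tSt_g (S W mask k j : ℕ) : (tSt S W mask k (j + 1)).g =
    Nat.land ((tSt S W mask k j).g + 1 <<< (W * (k * (j + 1)))) mask := rfl

theorem tSt_t (S W mask k j : ℕ) : (tSt S W mask k (j + 1)).t =
    Nat.land ((tSt S W mask k (j + 1)).g + (tSt S W mask k j).t <<< (W * (S * k))) mask := rfl

theorem tSt_l (S W mask k j : ℕ) : (tSt S W mask k (j + 1)).l =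
    Ls.cons (tSt S W mask k (j + 1)).t (tSt S W mask k j).l := rfl

theorem tSt_g_spec (S W n k m : ℕ) : ((tSt S W (msk n) k m).g : ℤ) ≡
    ∑ u ∈ Finset.range (m + 1), 2 ^ (W * (k * u)) [ZMOD 2 ^ n] := by
  induction m with
  | zero => simp [tSt]
  | succ m ih =>
    rw [tSt_g, land_msk, Finset.sum_range_succ _ (m + 1)]
    refine (cast_mod _ _).trans ?_
    rw [Nat.shiftLeft_eq, one_mul]
    push_cast
    exact ih.add_right _

theorem hT_succ (W S k m : ℕ) : hT W S k (m + 1) =
    ∑ u ∈ Finset.range (m + 1 + 1), 2 ^ (W * (k * u)) + hT W S k m * 2 ^ (W * (S * k)) := by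
  rw [hT, Finset.sum_range_succ', add_comm, hT, Finset.sum_mul]
  congr 1
  refine Finset.sum_congr rfl fun v _ => ?_
  rw [Nat.add_sub_add_right, Finset.sum_mul]
  refine Finset.sum_congr rfl fun u _ => ?_
  rw [← pow_add]
  congr 1
  ring

theorem tSt_t_spec (S W n k m : ℕ) : ((tSt S W (msk n) k m).t : ℤ) ≡ hT W S k m [ZMOD 2 ^ n] := by
  induction m with
  | zero => simp [tSt, hT]
  | succ m ih =>
    rw [tSt_t, land_msk, hT_succ]
    refine (cast_mod _ _).trans ?_
    rw [Nat.shiftLeft_eq]
    push_cast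
    exact (tSt_g_spec S W n k (m + 1)).add (ih.mul_right _)

end Trav

open Trav

theorem zeros_len (n : ℕ) : (zeros n).len = n := by
  induction n with
  | zero => rfl
  | succ n ih => rw [zeros_succ, Acc.len, ih]

theorem zeros_at (n j : ℕ) : (zeros n).at j = 0 := by
  induction n generalizing j with
  | zero => rfl
  | succ n ih =>
    cases j with
    | zero => rfl
    | succ j => exact ih j

theorem outer_len (k1 : ℕ) (acc : Acc) (l : L3) : (outer k1 acc l).len = acc.len :=
  lay_len (mid_len k1) k1 acc acc l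

theorem outer_at (k1 : ℕ) (acc : Acc) (l : L3) {j : ℕ} (hj : j < acc.len) :
    (outer k1 acc l).at j = acc.at j + ∑ b6 ∈ Finset.range (j + 1),
      ∑ b5 ∈ Finset.range (j + 1 - b6),
        (((l.get Ls.nil ((k1 + 1) * b6)).get Ls.nil ((k1 + 1) * b5)).get Ent.zero
          ((k1 + 1) * (j - b6 - b5))).val := by
  have := lay_at (F := fun (x : L2) j => ∑ b ∈ Finset.range (j + 1),
    ((x.get Ls.nil ((k1 + 1) * b)).get Ent.zero ((k1 + 1) * (j - b))).val) (d := Ls.nil)
    (mid_len k1) (mid_at k1) (fun _ => by simp [Ent.val]) k1 acc acc l le_rfl hj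
  refine this.trans ?_
  congr 1
  refine Finset.sum_congr rfl fun b hb => ?_
  have hb' := Finset.mem_range.1 hb
  have e : j - b + 1 = j + 1 - b := by omega
  rw [e]

theorem grp_spec (n : ℕ) (acc : Acc) (ts : Ls ℕ) (P N : ℕ) :
    (grp (msk n) acc ts P N).val ≡
      (P : ℤ) - N + ∑ j ∈ Finset.range acc.len, acc.at j * (ts.get 0 j : ℕ) [ZMOD 2 ^ n] := by
  induction acc generalizing ts P N with
  | nil => simp [grp_nil, PN.val, Acc.len]
  | cons p q a ih =>
    cases ts with
    | nil => simp [grp_cons_nil, PN.val]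
    | cons t ts =>
      rw [grp_cons_cons, ite'_beq, ite'_ble, Acc.len, Finset.sum_range_succ']
      simp only [Acc.at, Ls.get_succ, Ls.get_zero, land_msk]
      split_ifs with h1 h2
      · refine (ih ts P N).trans ?_
        simp [h1]
      · refine (ih ts _ N).trans ?_
        have := (cast_mod (p - q) n).mul (cast_mod t n)
        rw [Nat.cast_sub h2] at this
        have h3 := this.add_left ((P : ℤ) - N + ∑ j ∈ Finset.range a.len, a.at j * (ts.get 0 j : ℕ))
        rw [Nat.cast_add, Nat.cast_mul]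
        refine Int.ModEq.trans (by rw [Int.ModEq]; congr 1; ring) (h3.trans ?_)
        rw [Int.ModEq]; congr 1; ring
      · refine (ih ts P _).trans ?_
        have := (cast_mod (q - p) n).mul (cast_mod t n)
        rw [Nat.cast_sub (by omega)] at this
        have h3 := this.sub_left ((P : ℤ) - N + ∑ j ∈ Finset.range a.len, a.at j * (ts.get 0 j : ℕ))
        rw [Nat.cast_add, Nat.cast_mul]
        refine Int.ModEq.trans (by rw [Int.ModEq]; congr 1; ring) (h3.trans ?_)
        rw [Int.ModEq]; congr 1; ring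

theorem overK_spec (n : ℕ) (zs : Acc) (bs : Ls L3) (tt : Ls (Ls ℕ)) (k1 P N : ℕ) :
    (overK (msk n) zs bs tt k1 P N).val ≡
      (P : ℤ) - N + ∑ i ∈ Finset.range bs.len, ∑ j ∈ Finset.range zs.len,
        (outer (k1 + i) zs (bs.get Ls.nil i)).at j * ((tt.get Ls.nil i).get 0 j : ℕ)
      [ZMOD 2 ^ n] := by
  induction bs generalizing tt k1 P N with
  | nil => simp [overK_nil, PN.val]
  | cons b bs ih =>
    cases tt with
    | nil => simp [overK_cons_nil, PN.val]
    | cons ts tt =>
      rw [overK_cons_cons, Ls.len_cons, Finset.sum_range_succ']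
      refine (ih tt _ _ _).trans ?_
      have h1 := grp_spec n (outer k1 zs b) ts P N
      rw [outer_len, PN.val] at h1
      refine (h1.add_right _).trans ?_
      simp only [Ls.get_succ, Ls.get_zero, add_zero]
      rw [add_assoc, add_comm (∑ j ∈ Finset.range zs.len, _)]
      simp only [add_assoc k1 1, add_comm 1]
      rfl

theorem tList_spec (S W n k m : ℕ) {j : ℕ} (hj : j ≤ m) :
    (((tList S W (msk n) k m).get 0 j : ℕ) : ℤ) ≡ hT W S k (m - j) [ZMOD 2 ^ n] := by
  change ((((tSt S W (msk n) k m).l).get 0 j : ℕ) : ℤ) ≡ _ [ZMOD 2 ^ n]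
  induction m generalizing j with
  | zero =>
    obtain rfl : j = 0 := by omega
    simp [tSt, hT]
  | succ m ih =>
    rw [tSt_l]
    cases j with
    | zero => exact tSt_t_spec S W n k (m + 1)
    | succ j =>
      rw [Ls.get_succ, Nat.add_sub_add_right]
      exact ih (by omega)

theorem get_cube (g : ℕ → ℕ → ℕ → Ent) (x y z i j k : ℕ) :
    (((cube g (x + 1) (y + 1) (z + 1)).get Ls.nil k).get Ls.nil j).get Ent.zero i =
      if i ≤ x ∧ j ≤ y ∧ k ≤ z then g (x - i) (y - j) (z - k) else Ent.zero := by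
  rw [cube, get_desc]
  by_cases hk : k ≤ z
  · rw [if_pos (by omega), get_desc]
    by_cases hj : j ≤ y
    · rw [if_pos (by omega), get_desc]
      by_cases hi : i ≤ x
      · rw [if_pos (by omega), if_pos ⟨hi, hj, hk⟩]
        rfl
      · rw [if_neg (by omega), if_neg fun h => hi h.1]
    · rw [if_neg (by omega), if_neg fun h => hj h.2.1]
      rfl
  · rw [if_neg (by omega), if_neg fun h => hk h.2.2]
    rfl

end Vale.Agent.P181.K
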