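import Vale.Agent.P181.Six.KNewton
import Vale.Agent.P181.Six.KTrav

/-! Correctness of one entry of a table. -/

namespace Vale.Agent.P181.K

namespace Trav

theorem cuts_get {J : Job} {x y z a bnd : ℕ} {bs : Ls L3} (hb : CutsOK J x y z a bnd bs) :
    ∃ ws : ℕ → ℕ, bs.len = a ∧ ∑ i ∈ Finset.range a, 2 ^ ws i = bnd ∧ ∀ i < a,
      ∃ g : ℕ → ℕ → ℕ → Ent, bs.get Ls.nil i = cube g (x + 1) (y + 1) (z + 1) ∧
        ∀ x' y' z', x' ≤ x → y' ≤ y → z' ≤ z →
          EntOK J (a - (i + 1)) (ws i) x' y' z' (g x' y' z') := by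
  induction hb with
  | nil => exact ⟨fun _ => 0, rfl, rfl, fun i hi => absurd hi (Nat.not_lt_zero i)⟩
  | @cons a bnd w g bs h _ ih =>
    obtain ⟨ws, h1, h2, h3⟩ := ih
    refine ⟨fun i => Nat.casesOn i w ws, by rw [Ls.len_cons, h1], ?_, fun i hi => ?_⟩
    · rw [Finset.sum_range_succ', ← h2]
      rfl
    · cases i with
      | zero => exact ⟨g, rfl, h⟩
      | succ i =>
        obtain ⟨g', h4, h5⟩ := h3 i (by omega)
        refine ⟨g', h4, ?_⟩
        rw [Nat.add_sub_add_right]
        exact h5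

end Trav

open Trav

theorem off_eq (J : Job) (w : ℕ) (hW : 0 < J.W) :
    (J.off w : ℤ) = pk J.W (J.S * J.rows 0) fun _ => 2 ^ w := by
  change ((ones J.W (J.S * J.rows 0) <<< w : ℕ) : ℤ) = _
  rw [Nat.shiftLeft_eq, Nat.cast_mul, ones_eq hW, mul_comm, ← pk_mul]
  simp

theorem rows_anti (J : Job) {s s' : ℕ} (h : s ≤ s') : J.rows s' ≤ J.rows s :=
  Nat.div_le_div_right (Nat.sub_le_sub_left h _)

theorem key_ok {J : Job} {a w bnd x y z : ℕ} {bs : Ls L3} (hL : LevOK J a w bnd)
    (hb : CutsOK J x y z a bnd bs) (hok : key J (J.lev a w) (x + y + z) bs ≠ Ent.bad) :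
    EntOK J a w x y z (key J (J.lev a w) (x + y + z) bs) := by
  obtain ⟨ha, hS, hw, hbd⟩ := hL
  obtain ⟨ws, h1, h2, h3⟩ := cuts_get hb
  have hW : 0 < J.W := by omega
  have hS0 : 0 < J.S := by omega
  have ek : key J (J.lev a w) (x + y + z) bs = if x + y + z ≤ a * J.m + 15 then
      fin a (msk (J.W * (J.S * J.rows (x + y + z)))) (J.off w) (J.lev a w).high
        (overK (msk (J.W * (J.S * J.rows (x + y + z)))) (zeros (J.m + 1)) bs (J.lev a w).tt 0 0 0)
      else Ent.zero := by
    rw [key, ite'_ble]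
    rfl
  rw [ek] at hok ⊢
  split_ifs at hok ⊢ with hs
  · set M := J.rows (x + y + z) with hM
    have hM0 : J.S * M ≤ J.S * J.rows 0 := Nat.mul_le_mul_left _ (rows_anti J (Nat.zero_le _))
    have hhigh : (((J.lev a w).high : ℕ) : ℤ) =
        pk J.W (J.S * J.rows 0) fun _ => 2 ^ J.W - 2 ^ (w + 1) := by
      change ((ones J.W (J.S * J.rows 0) * (1 <<< J.W - 2 <<< w) : ℕ) : ℤ) = _
      have h4 : 2 * 2 ^ w ≤ 2 ^ J.W := by
        rw [← pow_succ']
        exact Nat.pow_le_pow_right (by omega) (by omega)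
      rw [Nat.shiftLeft_eq, Nat.shiftLeft_eq, one_mul, Nat.cast_mul, ones_eq hW, mul_comm,
        ← pk_mul, Nat.cast_sub h4]
      refine pk_congr fun _ _ => ?_
      push_cast
      ring
    have ht : (overK (msk (J.W * (J.S * M))) (zeros (J.m + 1)) bs (J.lev a w).tt 0 0 0).val ≡
        pk J.W (J.S * M) fun p => (a : ℤ) * cf a J.m (p % J.S) (p / J.S) x y z
        [ZMOD 2 ^ (J.W * (J.S * M))] := by
      rw [pk_mul]
      refine (overK_spec _ _ _ _ _ _ _).trans (Int.ModEq.trans ?_ (pcf_newton hS).symm)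
      rw [h1, zeros_len, Nat.cast_zero, sub_zero, zero_add]
      refine Int.ModEq.sum fun i hi => Int.ModEq.sum fun j hj => ?_
      have hi' := Finset.mem_range.1 hi
      have hj' := Finset.mem_range.1 hj
      obtain ⟨g, h4, h5⟩ := h3 i hi'
      refine Int.ModEq.mul ?_ ?_
      · rw [zero_add, outer_at _ _ _ (by rw [zeros_len]; exact hj'), zeros_at, zero_add, h4, conv]
        refine Int.ModEq.sum fun b6 _ => Int.ModEq.sum fun b5 _ => ?_
        rw [get_cube]
        split_ifs with h6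
        · rw [(h5 _ _ _ (Nat.sub_le _ _) (Nat.sub_le _ _) (Nat.sub_le _ _)).1]
          exact pk_modEq_trunc (Nat.mul_le_mul_left _ (rows_anti J (by omega))) _
        · rfl
      · have e : (J.lev a w).tt.get Ls.nil i =
            tList J.S J.W (msk (J.W * (J.S * J.rows 0))) (i + 1) J.m := by
          change (asc _ a 1).get Ls.nil i = _
          rw [get_asc, if_pos hi', add_comm]
          rfl
        rw [e]
        exact (tList_spec _ _ _ _ _ (by omega)).of_dvd
          (pow_dvd_pow _ (Nat.mul_le_mul_left _ hM0))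
    have hbb : ∀ p < J.S * M, (a : ℤ) * 2 ^ w +
        |(a : ℤ) * cf a J.m (p % J.S) (p / J.S) x y z| < 2 ^ J.W := by
      intro p hp
      have hu : p % J.S < J.S := Nat.mod_lt _ hS0
      have hv : p / J.S < M := Nat.div_lt_of_lt_mul hp
      have h4 := cf_bound (a := a) (m := J.m) (u := p % J.S) (v := p / J.S) (x := x) (y := y)
        (z := z) (B := fun i => 2 ^ ws i) fun i hi u' v' x' y' z' hu' hv' hx' hy' hz' => by
          obtain ⟨g, _, h5⟩ := h3 i hi
          have h6 := rows_anti J (s := x' + y' + z') (s' := x + y + z) (by omega)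
          exact (h5 x' y' z' hx' hy' hz').2 u' v' (by omega) (by omega)
      have h7 : ∑ i ∈ Finset.range a, (2 : ℤ) ^ ws i = bnd := by
        rw [← h2]; push_cast; rfl
      rw [h7] at h4
      have h8 : (a : ℤ) * 2 ^ w + ((J.m + 5).choose 5 : ℕ) * (bnd : ℤ) < 2 ^ J.W := by
        exact_mod_cast hbd
      linarith
    obtain ⟨g, h4, h5⟩ := fin_ok ha hM0 (by omega) (off_eq J w hW) hhigh ht hbb hok
    have h6 : ∀ p < J.S * M, g p = cf a J.m (p % J.S) (p / J.S) x y z := fun p hp =>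
      mul_left_cancel₀ (by exact_mod_cast ha.ne') (h5 p hp).2
    refine ⟨h4.trans (pk_congr h6), fun u v hu hv => ?_⟩
    have hp : u + J.S * v < J.S * M := by
      have : J.S * (v + 1) ≤ J.S * M := Nat.mul_le_mul_left _ hv
      rw [mul_add, mul_one] at this
      omega
    have h7 := (h5 _ hp).1
    rw [h6 _ hp, Nat.add_mul_mod_self_left, Nat.mod_eq_of_lt hu, Nat.add_mul_div_left _ _ hS0,
      Nat.div_eq_of_lt hu, zero_add] at h7
    exact h7
  · have h0 : ∀ u v, cf a J.m u v x y z = 0 := fun u v => if_neg (by omega)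
    refine ⟨?_, fun u v _ _ => ?_⟩
    · simp only [pcf, h0, pk_zero]
      rfl
    · rw [h0, abs_zero]
      positivity

end Vale.Agent.P181.K
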