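import Vale.Agent.P181.Six.KDig

/-! The Newton recurrence for packed coefficients. -/

namespace Vale.Agent.P181.K

open MvPolynomial

namespace Newton

theorem agf_newton (a m : ℕ) (ν : Wt) :
    (a : ℤ) * coeff ν (agf a m) = ∑ i ∈ Finset.range a, ∑ β ∈ mons m,
      if (i + 1) • β ≤ ν then coeff (ν - (i + 1) • β) (agf (a - (i + 1)) m) else 0 := by
  have h : C (a : ℤ) * agf a m = ∑ i ∈ Finset.range a, ∑ β ∈ mons m,
      monomial ((i + 1) • β) (1 : ℤ) * agf (a - (i + 1)) m := by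
    rw [map_natCast, agf, mul_left_comm, gf_newton, Finset.mul_sum]
    refine Finset.sum_congr rfl fun i _ => ?_
    rw [mul_left_comm, ph, Finset.sum_mul]
    rfl
  rw [← coeff_C_mul, h, coeff_sum]
  refine Finset.sum_congr rfl fun i _ => ?_
  rw [coeff_sum]
  refine Finset.sum_congr rfl fun β _ => ?_
  rw [coeff_monomial_mul', one_mul]

theorem smul_le_mk6 {k t u v x y z : ℕ} {β : Wt} : k • β ≤ mk6 t u v x y z ↔
    k * β 0 ≤ t ∧ k * β 1 ≤ u ∧ k * β 2 ≤ v ∧ k * β 3 ≤ x ∧ k * β 4 ≤ y ∧ k * β 5 ≤ z := by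
  rw [Finsupp.le_def]
  refine ⟨fun h => ⟨h 0, h 1, h 2, h 3, h 4, h 5⟩, fun ⟨h0, h1, h2, h3, h4, h5⟩ i => ?_⟩
  fin_cases i
  exacts [h0, h1, h2, h3, h4, h5]

theorem mk6_sub_smul (k t u v x y z : ℕ) (β : Wt) : mk6 t u v x y z - k • β =
    mk6 (t - k * β 0) (u - k * β 1) (v - k * β 2) (x - k * β 3) (y - k * β 4) (z - k * β 5) := by
  ext i
  fin_cases i <;> rfl

theorem deg_split {a m i : ℕ} (hi : i < a) {β : Wt} (hβ : β ∈ mons m) :
    a * m = (a - (i + 1)) * m + ((i + 1) * β 0 + (i + 1) * β 1 + (i + 1) * β 2 + (i + 1) * β 3 +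
      (i + 1) * β 4 + (i + 1) * β 5) := by
  have h := mem_mons.1 hβ
  rw [Fin.sum_univ_six] at h
  obtain ⟨b, rfl⟩ := Nat.exists_eq_add_of_lt hi
  rw [show i + b + 1 - (i + 1) = b by omega, ← h]
  ring

theorem shift_range (r : ℤ) (g : ℕ → ℤ) (s M : ℕ) :
    ∑ v ∈ Finset.range M, (if s ≤ v then g (v - s) else 0) * r ^ v =
      ∑ v ∈ Finset.range (M - s), g v * r ^ v * r ^ s := by
  induction M with
  | zero => simp
  | succ M ih =>
    rw [Finset.sum_range_succ, ih]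
    split_ifs with h
    · rw [Nat.succ_sub h, Finset.sum_range_succ, mul_assoc, ← pow_add, Nat.sub_add_cancel h]
    · rw [zero_mul, add_zero, show M + 1 - s = M - s by omega]

theorem shift_exact (r : ℤ) {g : ℕ → ℤ} {s M : ℕ} (h : ∀ v, g v ≠ 0 → v + s < M) :
    ∑ v ∈ Finset.range M, (if s ≤ v then g (v - s) else 0) * r ^ v =
      (∑ v ∈ Finset.range M, g v * r ^ v) * r ^ s := by
  rw [shift_range, Finset.sum_mul]
  refine Finset.sum_subset (Finset.range_subset_range.2 (Nat.sub_le _ _)) fun v _ hv => ?_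
  have : g v = 0 := by
    by_contra e
    have := h v e
    exact hv (Finset.mem_range.2 (by omega))
  rw [this, zero_mul, zero_mul]

theorem shift_mod (r : ℤ) (g : ℕ → ℤ) (s M : ℕ) :
    ∑ v ∈ Finset.range M, (if s ≤ v then g (v - s) else 0) * r ^ v ≡
      (∑ v ∈ Finset.range M, g v * r ^ v) * r ^ s [ZMOD r ^ M] := by
  rw [shift_range, Finset.sum_mul, ← Finset.sum_range_add_sum_Ico _ (Nat.sub_le M s),
    Int.modEq_iff_dvd, add_sub_cancel_left]
  refine Finset.dvd_sum fun v hv => ?_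
  have := (Finset.mem_Ico.1 hv).1
  rw [mul_assoc, ← pow_add]
  exact Dvd.dvd.mul_left (pow_dvd_pow r (by omega)) _

theorem shift_two (W S M : ℕ) {f : ℕ → ℕ → ℤ} {s t : ℕ} (h : ∀ u v, f u v ≠ 0 → u + s < S) :
    ∑ v ∈ Finset.range M, ∑ u ∈ Finset.range S,
        (if s ≤ u ∧ t ≤ v then f (u - s) (v - t) else 0) * 2 ^ (W * (u + S * v)) ≡
      (∑ v ∈ Finset.range M, ∑ u ∈ Finset.range S, f u v * 2 ^ (W * (u + S * v))) *
        2 ^ (W * (s + S * t)) [ZMOD 2 ^ (W * (S * M))] := by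
  have e : ∀ u v, (2 : ℤ) ^ (W * (u + S * v)) = (2 ^ W) ^ u * (2 ^ (W * S)) ^ v := fun u v => by
    rw [← pow_mul, ← pow_mul, ← pow_add, mul_add, mul_assoc]
  have h1 := shift_mod (2 ^ (W * S))
    (fun v => (∑ u ∈ Finset.range S, f u v * (2 ^ W) ^ u) * (2 ^ W) ^ s) t M
  have e1 : ∑ v ∈ Finset.range M, ∑ u ∈ Finset.range S,
        (if s ≤ u ∧ t ≤ v then f (u - s) (v - t) else 0) * 2 ^ (W * (u + S * v)) =
      ∑ v ∈ Finset.range M, (if t ≤ v then
        (∑ u ∈ Finset.range S, f u (v - t) * (2 ^ W) ^ u) * (2 ^ W) ^ s else 0) *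
          (2 ^ (W * S)) ^ v := by
    refine Finset.sum_congr rfl fun v _ => ?_
    by_cases hv : t ≤ v
    · rw [if_pos hv, ← shift_exact _ fun u hu => h u _ hu, Finset.sum_mul]
      refine Finset.sum_congr rfl fun u _ => ?_
      simp only [hv, and_true, e, mul_assoc]
    · simp only [hv, and_false, if_false, zero_mul, Finset.sum_const_zero]
  have e2 : (∑ v ∈ Finset.range M, ∑ u ∈ Finset.range S, f u v * 2 ^ (W * (u + S * v))) *
        2 ^ (W * (s + S * t)) =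
      (∑ v ∈ Finset.range M, (∑ u ∈ Finset.range S, f u v * (2 ^ W) ^ u) * (2 ^ W) ^ s *
        (2 ^ (W * S)) ^ v) * (2 ^ (W * S)) ^ t := by
    simp only [e, Finset.sum_mul]
    refine Finset.sum_congr rfl fun v _ => Finset.sum_congr rfl fun u _ => ?_
    ring
  rw [e1, e2, ← mul_assoc W S M, pow_mul 2 (W * S) M]
  exact h1

theorem sum_mons (m : ℕ) (F : ℕ → ℕ → ℕ → ℕ → ℕ → ℤ) :
    ∑ β ∈ mons m, F (β 1) (β 2) (β 3) (β 4) (β 5) =
      ∑ j ∈ Finset.range (m + 1), ∑ b6 ∈ Finset.range (j + 1), ∑ b5 ∈ Finset.range (j + 1 - b6),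
        ∑ v ∈ Finset.range (m - j + 1), ∑ u ∈ Finset.range (m - j + 1 - v),
          F u v (j - b6 - b5) b5 b6 := by
  simp only [Finset.sum_sigma']
  refine Finset.sum_nbij' (fun β => ⟨β 3 + β 4 + β 5, β 5, β 4, β 2, β 1⟩)
    (fun p => mk6 (m - p.1 - p.2.2.2.1 - p.2.2.2.2) p.2.2.2.2 p.2.2.2.1 (p.1 - p.2.1 - p.2.2.1)
      p.2.2.1 p.2.1) ?_ ?_ ?_ ?_ ?_
  · intro β hβ
    have h := mem_mons.1 hβ
    rw [Fin.sum_univ_six] at h
    simp only [Finset.mem_sigma, Finset.mem_range]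
    omega
  · rintro ⟨j, b6, b5, v, u⟩ hp
    simp only [Finset.mem_sigma, Finset.mem_range] at hp
    rw [mem_mons, sum_mk6]
    dsimp only
    omega
  · intro β hβ
    have h := mem_mons.1 hβ
    rw [Fin.sum_univ_six] at h
    dsimp only
    rw [show m - (β 3 + β 4 + β 5) - β 2 - β 1 = β 0 by omega,
      show β 3 + β 4 + β 5 - β 5 - β 4 = β 3 by omega]
    exact (eq_mk6 β).symm
  · rintro ⟨j, b6, b5, v, u⟩ hp
    simp only [Finset.mem_sigma, Finset.mem_range] at hp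
    simp only [mk6_1, mk6_2, mk6_3, mk6_4, mk6_5]
    rw [show j - b6 - b5 + b5 + b6 = j by omega]
  · intro β _
    dsimp only
    rw [show β 3 + β 4 + β 5 - β 5 - β 4 = β 3 by omega]

end Newton

open K.Newton

theorem cf_support {a m u v x y z : ℕ} (h : cf a m u v x y z ≠ 0) :
    u ≤ a * m + 5 ∧ v ≤ a * m + 5 ∧ x ≤ a * m + 5 ∧ y ≤ a * m + 5 ∧ z ≤ a * m + 5 ∧
      u + v + x + y + z ≤ a * m + 15 := by
  unfold cf at h
  split_ifs at h with hs
  · have h1 := (agf_support h).2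
    exact ⟨h1 1, h1 2, h1 3, h1 4, h1 5, hs⟩
  · exact absurd rfl h

theorem cf_newton (a m u v x y z : ℕ) :
    (a : ℤ) * cf a m u v x y z = ∑ i ∈ Finset.range a, ∑ β ∈ mons m,
      if (i + 1) * β 1 ≤ u ∧ (i + 1) * β 2 ≤ v ∧ (i + 1) * β 3 ≤ x ∧ (i + 1) * β 4 ≤ y ∧
          (i + 1) * β 5 ≤ z then
        cf (a - (i + 1)) m (u - (i + 1) * β 1) (v - (i + 1) * β 2) (x - (i + 1) * β 3)
          (y - (i + 1) * β 4) (z - (i + 1) * β 5) else 0 := by
  by_cases hs : u + v + x + y + z ≤ a * m + 15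
  · rw [cf, if_pos hs, agf_newton]
    refine Finset.sum_congr rfl fun i hi => Finset.sum_congr rfl fun β hβ => ?_
    have e := deg_split (Finset.mem_range.1 hi) hβ
    rw [mk6_sub_smul, cf]
    by_cases h1 : (i + 1) • β ≤ mk6 (a * m + 15 - (u + v + x + y + z)) u v x y z
    · rw [if_pos h1]
      obtain ⟨h0, h2⟩ := smul_le_mk6.1 h1
      rw [if_pos h2, if_pos (by omega)]
      congr 2
      omega
    · rw [if_neg h1]
      split_ifs with h2 h3
      · exact absurd (smul_le_mk6.2 ⟨by omega, h2⟩) h1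
      · rfl
      · rfl
  · rw [cf, if_neg hs, mul_zero]
    refine (Finset.sum_eq_zero fun i hi => Finset.sum_eq_zero fun β hβ => ?_).symm
    have e := deg_split (Finset.mem_range.1 hi) hβ
    split_ifs with h2
    · rw [cf, if_neg (by omega)]
    · rfl

theorem card_mons (m : ℕ) : (mons m).card = (m + 5).choose 5 := by
  rw [mons, Finset.card_finsuppAntidiag_nat_eq_choose, Finset.card_univ, Fintype.card_fin,
    show 6 + m - 1 = m + 5 by omega]
  exact Nat.choose_symm_add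

theorem cf_bound {a m u v x y z : ℕ} {B : ℕ → ℤ}
    (h : ∀ i < a, ∀ u' v' x' y' z', u' ≤ u → v' ≤ v → x' ≤ x → y' ≤ y → z' ≤ z →
      |cf (a - (i + 1)) m u' v' x' y' z'| ≤ B i) :
    |(a : ℤ) * cf a m u v x y z| ≤ ((m + 5).choose 5 : ℕ) * ∑ i ∈ Finset.range a, B i := by
  rw [cf_newton, Finset.mul_sum]
  refine (Finset.abs_sum_le_sum_abs _ _).trans (Finset.sum_le_sum fun i hi => ?_)
  have hi' := Finset.mem_range.1 hi
  rw [← card_mons, ← nsmul_eq_mul]
  refine (Finset.abs_sum_le_sum_abs _ _).trans (Finset.sum_le_card_nsmul _ _ _ fun β _ => ?_)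
  split_ifs
  · exact h i hi' _ _ _ _ _ (Nat.sub_le _ _) (Nat.sub_le _ _) (Nat.sub_le _ _) (Nat.sub_le _ _)
      (Nat.sub_le _ _)
  · rw [abs_zero]
    exact (abs_nonneg _).trans (h i hi' u v x y z le_rfl le_rfl le_rfl le_rfl le_rfl)

/-- the convolution over the last three variables, in degree `j` -/
noncomputable def conv (W S M a m k x y z j : ℕ) : ℤ :=
  ∑ b6 ∈ Finset.range (j + 1), ∑ b5 ∈ Finset.range (j + 1 - b6),
    if k * (j - b6 - b5) ≤ x ∧ k * b5 ≤ y ∧ k * b6 ≤ z then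
      pcf W S M a m (x - k * (j - b6 - b5)) (y - k * b5) (z - k * b6) else 0

theorem pcf_newton {W S M a m x y z : ℕ} (hS : a * m + 6 ≤ S) :
    (a : ℤ) * pcf W S M a m x y z ≡ ∑ i ∈ Finset.range a, ∑ j ∈ Finset.range (m + 1),
      conv W S M (a - (i + 1)) m (i + 1) x y z j * hT W S (i + 1) (m - j)
      [ZMOD 2 ^ (W * (S * M))] := by
  have e1 : (a : ℤ) * pcf W S M a m x y z = ∑ i ∈ Finset.range a, ∑ β ∈ mons m,
      ∑ v ∈ Finset.range M, ∑ u ∈ Finset.range S,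
        (if (i + 1) * β 1 ≤ u ∧ (i + 1) * β 2 ≤ v ∧ (i + 1) * β 3 ≤ x ∧ (i + 1) * β 4 ≤ y ∧
          (i + 1) * β 5 ≤ z then
        cf (a - (i + 1)) m (u - (i + 1) * β 1) (v - (i + 1) * β 2) (x - (i + 1) * β 3)
          (y - (i + 1) * β 4) (z - (i + 1) * β 5) else 0) * 2 ^ (W * (u + S * v)) := by
    rw [pcf, pk_rows W S M fun u v => cf a m u v x y z]
    simp only [Finset.mul_sum, ← mul_assoc, cf_newton a m, Finset.sum_mul]
    simp only [Finset.sum_comm (s := Finset.range S) (t := Finset.range a),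
      Finset.sum_comm (s := Finset.range S) (t := mons m)]
    rw [Finset.sum_comm]
    exact Finset.sum_congr rfl fun i _ => Finset.sum_comm
  rw [e1]
  refine Int.ModEq.sum fun i hi => ?_
  have e2 : ∑ j ∈ Finset.range (m + 1),
      conv W S M (a - (i + 1)) m (i + 1) x y z j * hT W S (i + 1) (m - j) =
      ∑ β ∈ mons m, (if (i + 1) * β 3 ≤ x ∧ (i + 1) * β 4 ≤ y ∧ (i + 1) * β 5 ≤ z then
        pcf W S M (a - (i + 1)) m (x - (i + 1) * β 3) (y - (i + 1) * β 4) (z - (i + 1) * β 5)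
        else 0) * 2 ^ (W * ((i + 1) * β 1 + S * ((i + 1) * β 2))) := by
    rw [sum_mons m fun b1 b2 b3 b4 b5 =>
      (if (i + 1) * b3 ≤ x ∧ (i + 1) * b4 ≤ y ∧ (i + 1) * b5 ≤ z then
        pcf W S M (a - (i + 1)) m (x - (i + 1) * b3) (y - (i + 1) * b4) (z - (i + 1) * b5)
        else 0) * 2 ^ (W * ((i + 1) * b1 + S * ((i + 1) * b2)))]
    refine Finset.sum_congr rfl fun j _ => ?_
    rw [conv, hT, Finset.sum_mul]
    refine Finset.sum_congr rfl fun b6 _ => ?_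
    rw [Finset.sum_mul]
    refine Finset.sum_congr rfl fun b5 _ => ?_
    rw [Finset.mul_sum]
    exact Finset.sum_congr rfl fun v _ => Finset.mul_sum _ _ _
  rw [e2]
  refine Int.ModEq.sum fun β hβ => ?_
  have e := deg_split (Finset.mem_range.1 hi) hβ
  by_cases hc : (i + 1) * β 3 ≤ x ∧ (i + 1) * β 4 ≤ y ∧ (i + 1) * β 5 ≤ z
  · rw [if_pos hc, pcf, pk_rows W S M fun u v => cf (a - (i + 1)) m u v (x - (i + 1) * β 3)
      (y - (i + 1) * β 4) (z - (i + 1) * β 5)]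
    simp only [hc, and_true]
    refine shift_two W S M (f := fun u v => cf (a - (i + 1)) m u v (x - (i + 1) * β 3)
      (y - (i + 1) * β 4) (z - (i + 1) * β 5)) fun u v huv => ?_
    have := (cf_support huv).1
    omega
  · simp only [hc, and_false, if_false, zero_mul, Finset.sum_const_zero]
    exact Int.ModEq.refl _

end Vale.Agent.P181.K
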