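import Vale.Agent.P181.Six.KSpec
import Vale.Agent.P181.Six.U.Rhos

/-! The stable bound after column elimination, and the table of its columns. -/

namespace Vale.Agent.P181.K

namespace Psi

open PowerSeries

theorem phiZ_eq (ρ : List ℕ) (n k : ℕ) :
    phiZ ρ ((n : ℤ) - k) = coeff n (X ^ k * phiS ρ) := by
  rw [coeff_X_pow_mul', phiZ]
  by_cases h : k ≤ n
  · rw [if_pos (by omega), if_pos h, show ((n : ℤ) - k).toNat = n - k by omega]
  · rw [if_neg (by omega), if_neg h]

/-- the matrix of the column operations -/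
def tri : Matrix (Fin 5) (Fin 5) ℤ :=
  !![1, -1, 1, -1, 1; 0, 1, -2, 3, -4; 0, 0, 1, -3, 6; 0, 0, 0, 1, -4; 0, 0, 0, 0, 1]

theorem det_tri : tri.det = 1 := by
  have h : ∀ i j : Fin 5, j < i → tri i j = 0 := fun i j h => by
    fin_cases i <;> fin_cases j <;> first | rfl | exact absurd h (by decide)
  rw [Matrix.det_of_isUpperTriangular fun i j hij => h i j hij]
  decide

theorem psi_eq (ρ : List ℕ) (n : ℕ) (j : Fin 5) :
    psi ρ j n = ∑ k : Fin 5, coeff n (X ^ (4 - (k : ℕ)) * phiS ρ) * tri k j := by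
  have h : (X ^ (4 - (j : ℕ)) * (1 - X) ^ (j : ℕ) : PowerSeries ℤ) =
      ∑ k : Fin 5, X ^ (4 - (k : ℕ)) * C (tri k j) := by
    fin_cases j <;> simp [Fin.sum_univ_succ, tri] <;> ring
  rw [psi, h, Finset.sum_mul, map_sum]
  refine Finset.sum_congr rfl fun k _ => ?_
  rw [mul_right_comm, coeff_mul_C]

/-- multiplication by `1 - x ^ k` on lists of coefficients -/
def dif (k : ℕ) (l : List ℤ) : List ℤ := List.zipWith (· - ·) l (List.replicate k 0 ++ l)

def Rep (l : List ℤ) (f : PowerSeries ℤ) : Prop :=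
  l.length = 77 ∧ ∀ n < 77, l.getD n 0 = coeff n f

theorem Rep.dif {l : List ℤ} {f : PowerSeries ℤ} (h : Rep l f) (k : ℕ) :
    Rep (dif k l) ((1 - X ^ k) * f) := by
  have h1 : (Psi.dif k l).length = 77 := by
    simp only [Psi.dif, List.length_zipWith, List.length_append, List.length_replicate, h.1]
    omega
  refine ⟨h1, fun n hn => ?_⟩
  rw [sub_mul, one_mul, map_sub, coeff_X_pow_mul', List.getD_eq_getElem _ _ (by omega),
    ← h.2 n hn, List.getD_eq_getElem _ _ (by rw [h.1]; exact hn)]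
  simp only [Psi.dif, List.getElem_zipWith]
  congr 1
  split_ifs with hk
  · rw [List.getElem_append_right (by simpa using hk), ← h.2 _ (by omega),
      List.getD_eq_getElem _ _ (by rw [h.1]; omega)]
    simp
  · rw [List.getElem_append_left (by simpa using hk), List.getElem_replicate]

theorem Rep.fold {l : List ℤ} {f : PowerSeries ℤ} (h : Rep l f) (ρ : List ℕ) :
    Rep (ρ.foldr Psi.dif l) ((ρ.map fun k => 1 - X ^ k).prod * f) := by
  induction ρ with
  | nil => simpa using h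
  | cons k ρ ih =>
    rw [List.foldr_cons, List.map_cons, List.prod_cons, mul_assoc]
    exact ih.dif k

theorem geom {k : ℕ} (hk : 0 < k) :
    (1 - X ^ k) * (mk fun n => if k ∣ n then (1 : ℤ) else 0) = 1 := by
  ext n
  rw [sub_mul, one_mul, map_sub, coeff_X_pow_mul', coeff_mk, coeff_mk, coeff_one]
  by_cases h : k ≤ n
  · rw [if_pos h, if_neg (show n ≠ 0 by omega)]
    simp only [← Nat.dvd_sub_iff_left h dvd_rfl, sub_self]
  · rw [if_neg h, sub_zero]
    exact if_congr ⟨fun h1 => Nat.eq_zero_of_dvd_of_lt h1 (by omega), fun h1 => h1 ▸ dvd_zero k⟩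
      rfl rfl

theorem geom_prod (ρ : List ℕ) (h : ∀ k ∈ ρ, 0 < k) : (ρ.map fun k => 1 - X ^ k).prod *
    (ρ.map fun k => mk fun n => if k ∣ n then (1 : ℤ) else 0).prod = 1 := by
  induction ρ with
  | nil => simp
  | cons k ρ ih =>
    rw [List.map_cons, List.map_cons, List.prod_cons, List.prod_cons, mul_mul_mul_comm,
      geom (h k List.mem_cons_self), ih fun a ha => h a (List.mem_cons_of_mem _ ha), mul_one]

/-- the coefficients of `x ^ k` -/
def unit (k : ℕ) : List ℤ := List.replicate k 0 ++ 1 :: List.replicate (76 - k) 0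

theorem rep_unit {k : ℕ} (hk : k ≤ 4) : Rep (unit k) (X ^ k) := by
  refine ⟨by simp [unit]; omega, fun n hn => ?_⟩
  rw [coeff_X_pow]
  revert n
  interval_cases k <;> decide

theorem psi_of_check {ρ : List ℕ} (hρ : ∀ k ∈ ρ, 0 < k) (j : Fin 5) {l : List ℤ}
    (hl : l.length = 77)
    (h : ρ.foldr dif l = (List.replicate (j + 1) 1).foldr dif (unit (4 - j))) :
    ∀ n < 77, l.getD n 0 = psi ρ j n := by
  have h1 := Rep.fold (l := l) (f := mk fun n => l.getD n 0) ⟨hl, fun n _ => by rw [coeff_mk]⟩ ρ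
  have h2 := (rep_unit (Nat.sub_le 4 j)).fold (List.replicate (j + 1) 1)
  rw [List.map_replicate, List.prod_replicate, pow_one, ← h] at h2
  have h3 : (X : PowerSeries ℤ) ^ 77 ∣ (ρ.map fun k => 1 - X ^ k).prod * (mk fun n => l.getD n 0) -
      (1 - X) ^ ((j : ℕ) + 1) * X ^ (4 - (j : ℕ)) :=
    X_pow_dvd_iff.2 fun n hn => by rw [map_sub, ← h1.2 n hn, ← h2.2 n hn, sub_self]
  have h4 := h3.mul_left (ρ.map fun k => mk fun n => if k ∣ n then (1 : ℤ) else 0).prod
  rw [mul_sub, ← mul_assoc, mul_comm _ (ρ.map fun k => 1 - X ^ k).prod, geom_prod ρ hρ,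
    one_mul] at h4
  intro n hn
  have h5 := X_pow_dvd_iff.1 h4 n hn
  rw [map_sub, coeff_mk, sub_eq_zero] at h5
  rw [h5, psi, phiS]
  congr 1
  ring

def sel (v : P5) : ℕ → ℕ
  | 0 => v.a
  | 1 => v.b
  | 2 => v.c
  | 3 => v.d
  | _ => v.e

theorem at_eq (v : P5) (j : Fin 5) : v.at j = sel v j := by
  fin_cases j <;> rfl

theorem length_toList {α : Type} (l : Ls α) : l.toList.length = l.len := by
  induction l with
  | nil => rfl
  | cons a t ih => simp [Ls.toList, ih]

theorem get_eq {α : Type} (l : Ls α) (d : α) (n : ℕ) : l.get d n = l.toList.getD n d := by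
  induction l generalizing n with
  | nil => rfl
  | cons a t ih =>
    cases n with
    | zero => rfl
    | succ n => exact ih n

/-- the check of one table -/
noncomputable def chk (c : ℤ × List ℕ) (ρ : Rho) : Bool :=
  decide ((ρ.c : ℤ) = c.1) && decide (0 < ρ.c) && decide (ρ.c ≤ 144) &&
    decide (ρ.tab.len = 77) && c.2.all (fun k => decide (0 < k)) &&
    (List.range 5).all fun j =>
      decide (c.2.foldr dif (ρ.tab.toList.map fun v => rv (sel v j)) =
        (List.replicate (j + 1) 1).foldr dif (unit (4 - j))) &&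
      ρ.tab.toList.all (fun v => decide (sel v j < 2 ^ 64) &&
        decide ((rv (sel v j)).natAbs ≤ sel ρ.r j)) &&
      (ρ.tab.toList.take 52).all (fun v => decide ((rv (sel v j)).natAbs ≤ sel ρ.s j)) &&
      (ρ.tab.toList.take 39).all fun v => decide ((rv (sel v j)).natAbs ≤ 2 ^ 17)

theorem chk_ok {c : ℤ × List ℕ} {ρ : Rho} (h : chk c ρ = true) : RhoOK c ρ := by
  simp only [chk, Bool.and_eq_true, decide_eq_true_eq, List.all_eq_true, List.mem_range] at h
  obtain ⟨⟨⟨⟨⟨h1, h2⟩, h3⟩, h4⟩, h5⟩, h6⟩ := h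
  refine ⟨h1, h2, h3, h4, fun n hn j => ?_⟩
  obtain ⟨⟨⟨e, b1⟩, b2⟩, b3⟩ := h6 j j.2
  have hl : ρ.tab.toList.length = 77 := by rw [length_toList, h4]
  have hp := psi_of_check h5 j (by rw [List.length_map, hl]) e n (by omega)
  rw [List.getD_eq_getElem _ _ (by rw [List.length_map, hl]; omega), List.getElem_map] at hp
  rw [get_eq, List.getD_eq_getElem _ _ (by omega), at_eq, at_eq, at_eq, ← hp, Int.abs_eq_natAbs]
  have hm : ∀ m, n < m → ρ.tab.toList[n]'(by omega) ∈ ρ.tab.toList.take m := fun m hm =>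
    List.mem_take_iff_getElem.2 ⟨n, by omega, rfl⟩
  refine ⟨(b1 _ (List.getElem_mem _)).1, rfl, by exact_mod_cast (b1 _ (List.getElem_mem _)).2,
    fun h => by exact_mod_cast b2 _ (hm 52 (by omega)),
    fun h => by exact_mod_cast b3 _ (hm 39 (by omega))⟩

end Psi

theorem U720_eq_psi (ν : Fin 5 → ℕ) : U720 ν =
    (cyc.map fun c => c.1 * (Matrix.of fun i j : Fin 5 => psi c.2 j (ν i)).det).sum := by
  rw [U720]
  congr 1
  refine List.map_congr_left fun c _ => ?_
  congr 1
  rw [← mul_one (Matrix.det _), ← Psi.det_tri, ← Matrix.det_mul]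
  congr 1
  ext i j
  rw [Matrix.mul_apply, Matrix.of_apply, Psi.psi_eq]
  refine Finset.sum_congr rfl fun k _ => ?_
  rw [Matrix.of_apply, ← Psi.phiZ_eq, Nat.cast_sub (by omega)]
  rfl

/-- a `2 × 2` minor -/
def m2 (r c : Fin 5 → ℤ) (a b : Fin 5) : ℤ := r a * c b - r b * c a

/-- a `3 × 3` minor -/
def m3 (u v w : Fin 5 → ℤ) (a b c : Fin 5) : ℤ :=
  w a * m2 u v b c - w b * m2 u v a c + w c * m2 u v a b

/-- Laplace expansion along the first two rows -/
theorem det5_laplace (r c u v w : Fin 5 → ℤ) : (Matrix.of ![r, c, u, v, w]).det =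
    m3 u v w 2 3 4 * m2 r c 0 1 - m3 u v w 1 3 4 * m2 r c 0 2 + m3 u v w 1 2 4 * m2 r c 0 3
    - m3 u v w 1 2 3 * m2 r c 0 4 + m3 u v w 0 3 4 * m2 r c 1 2 - m3 u v w 0 2 4 * m2 r c 1 3
    + m3 u v w 0 2 3 * m2 r c 1 4 + m3 u v w 0 1 4 * m2 r c 2 3 - m3 u v w 0 1 3 * m2 r c 2 4
    + m3 u v w 0 1 2 * m2 r c 3 4 := by
  simp only [m3, m2, Matrix.det_succ_row_zero, Fin.sum_univ_succ, Matrix.det_unique,
    Matrix.submatrix_apply, Matrix.of_apply, Finset.univ_unique, Finset.sum_singleton]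
  simp [Fin.succAbove]
  ring

set_option maxRecDepth 100000 in
theorem rhos_ok : RhosOK rhos := by
  refine .cons ?_ (.cons ?_ (.cons ?_ (.cons ?_ (.cons ?_ (.cons ?_ (.cons ?_ (.cons ?_ (.cons ?_
    (.cons ?_ (.cons ?_ .nil)))))))))) <;> exact Psi.chk_ok (by decide +kernel)

end Vale.Agent.P181.K
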