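import Vale.Agent.P181.Six.Bridge
import Vale.Agent.P181.Six.K2

/-! Specifications for the kernel-evaluated programs of `K` and `K2`. -/

namespace Vale.Agent.P181.K

open MvPolynomial

/-! ### equation lemmas -/

@[simp] theorem force_eq {α : Type} (n : ℕ) (f : ℕ → α) : force n f = f n := by
  cases n <;> rfl

@[simp] theorem ite'_true {α : Type} (x y : α) : ite' true x y = x := rfl
@[simp] theorem ite'_false {α : Type} (x y : α) : ite' false x y = y := rfl

theorem ite'_eq {α : Type} (b : Bool) (x y : α) : ite' b x y = if b = true then x else y := by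
  cases b <;> rfl

theorem ite'_ble {α : Type} (a b : ℕ) (x y : α) :
    ite' (Nat.ble a b) x y = if a ≤ b then x else y := by
  simp only [ite'_eq, Nat.ble_eq]

theorem ite'_beq {α : Type} (a b : ℕ) (x y : α) :
    ite' (Nat.beq a b) x y = if a = b then x else y := by
  simp only [ite'_eq, Nat.beq_eq]

section
variable {α β : Type}

@[simp] theorem Ls.tail_nil : (Ls.nil : Ls α).tail = Ls.nil := rfl
@[simp] theorem Ls.tail_cons (h : α) (t : Ls α) : (Ls.cons h t).tail = t := rfl
@[simp] theorem Ls.drop_nil (n : ℕ) : (Ls.nil : Ls α).drop n = Ls.nil := rfl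
@[simp] theorem Ls.drop_zero (l : Ls α) : l.drop 0 = l := by cases l <;> rfl
@[simp] theorem Ls.drop_succ (h : α) (t : Ls α) (n : ℕ) :
    (Ls.cons h t).drop (n + 1) = t.drop n := rfl
@[simp] theorem Ls.get_nil (d : α) (n : ℕ) : (Ls.nil : Ls α).get d n = d := rfl
@[simp] theorem Ls.get_zero (h d : α) (t : Ls α) : (Ls.cons h t).get d 0 = h := rfl
@[simp] theorem Ls.get_succ (h d : α) (t : Ls α) (n : ℕ) :
    (Ls.cons h t).get d (n + 1) = t.get d n := rfl
@[simp] theorem Ls.map_nil (f : α → β) : (Ls.nil : Ls α).map f = Ls.nil := rfl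
@[simp] theorem Ls.map_cons (f : α → β) (h : α) (t : Ls α) :
    (Ls.cons h t).map f = Ls.cons (f h) (t.map f) := rfl
@[simp] theorem Ls.append_nil (m : Ls α) : (Ls.nil : Ls α).append m = m := rfl
@[simp] theorem Ls.append_cons (h : α) (t m : Ls α) :
    (Ls.cons h t).append m = Ls.cons h (t.append m) := rfl
@[simp] theorem Ls.all_nil (f : α → Bool) : (Ls.nil : Ls α).all f = true := rfl
@[simp] theorem Ls.all_cons (f : α → Bool) (h : α) (t : Ls α) :
    (Ls.cons h t).all f = (f h && t.all f) := by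
  change Bool.rec (motive := fun _ => Bool) false (t.all f) (f h) = _
  cases f h <;> rfl
@[simp] theorem Ls.len_nil : (Ls.nil : Ls α).len = 0 := rfl
@[simp] theorem Ls.len_cons (h : α) (t : Ls α) : (Ls.cons h t).len = t.len + 1 := rfl
@[simp] theorem Ls.beq_nil_nil (f : α → α → Bool) : Ls.beq f Ls.nil Ls.nil = true := rfl
@[simp] theorem Ls.beq_nil_cons (f : α → α → Bool) (h : α) (t : Ls α) :
    Ls.beq f Ls.nil (Ls.cons h t) = false := rfl
@[simp] theorem Ls.beq_cons_nil (f : α → α → Bool) (h : α) (t : Ls α) :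
    Ls.beq f (Ls.cons h t) Ls.nil = false := rfl
@[simp] theorem Ls.beq_cons_cons (f : α → α → Bool) (h h' : α) (t t' : Ls α) :
    Ls.beq f (Ls.cons h t) (Ls.cons h' t') = (f h h' && Ls.beq f t t') := by
  change Bool.rec (motive := fun _ => Bool) false (Ls.beq f t t') (f h h') = _
  cases f h h' <;> rfl
@[simp] theorem desc_zero (f : ℕ → α) : desc f 0 = Ls.nil := rfl
@[simp] theorem desc_succ (f : ℕ → α) (n : ℕ) : desc f (n + 1) = Ls.cons (f n) (desc f n) := rfl
@[simp] theorem descFrom_zero (f : ℕ → α) (lo : ℕ) : descFrom f lo 0 = Ls.nil := rfl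
@[simp] theorem descFrom_succ (f : ℕ → α) (lo n : ℕ) :
    descFrom f lo (n + 1) = Ls.cons (f (lo + n)) (descFrom f lo n) := by
  change Ls.cons (force (lo + n) f) _ = _
  rw [force_eq]
  rfl
@[simp] theorem asc_zero (f : ℕ → α) (lo : ℕ) : asc f 0 lo = Ls.nil := rfl
@[simp] theorem asc_succ (f : ℕ → α) (n lo : ℕ) :
    asc f (n + 1) lo = Ls.cons (f lo) (asc f n (lo + 1)) := by
  change Ls.cons (f lo) (force (lo + 1) (asc f n)) = _
  rw [force_eq]

theorem Ls.get_drop (l : Ls α) (d : α) (n i : ℕ) : (l.drop n).get d i = l.get d (n + i) := by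
  induction l generalizing n with
  | nil => rfl
  | cons h t ih =>
    cases n with
    | zero => simp
    | succ n => rw [Ls.drop_succ, ih, Nat.add_right_comm, Ls.get_succ]

theorem Ls.get_of_len_le (l : Ls α) (d : α) {i : ℕ} (h : l.len ≤ i) : l.get d i = d := by
  induction l generalizing i with
  | nil => rfl
  | cons a t ih =>
    cases i with
    | zero => simp at h
    | succ i => exact ih (by simpa using h)

theorem Ls.get_map (f : α → β) (l : Ls α) (d : α) (i : ℕ) :
    (l.map f).get (f d) i = f (l.get d i) := by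
  induction l generalizing i with
  | nil => rfl
  | cons a t ih =>
    cases i with
    | zero => rfl
    | succ i => exact ih i

@[simp] theorem Ls.len_map (f : α → β) (l : Ls α) : (l.map f).len = l.len := by
  induction l with
  | nil => rfl
  | cons a t ih => simp [ih]

theorem Ls.all_get {f : α → Bool} {l : Ls α} (h : l.all f = true) (d : α) {i : ℕ}
    (hi : i < l.len) : f (l.get d i) = true := by
  induction l generalizing i with
  | nil => simp at hi
  | cons a t ih =>
    rw [Ls.all_cons, Bool.and_eq_true] at h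
    cases i with
    | zero => exact h.1
    | succ i => exact ih h.2 (by simpa using hi)

@[simp] theorem len_desc (f : ℕ → α) (n : ℕ) : (desc f n).len = n := by
  induction n with
  | zero => rfl
  | succ n ih => simp [ih]

@[simp] theorem len_asc (f : ℕ → α) (n lo : ℕ) : (asc f n lo).len = n := by
  induction n generalizing lo with
  | zero => rfl
  | succ n ih => simp [ih]

theorem get_desc (f : ℕ → α) (d : α) (n i : ℕ) :
    (desc f n).get d i = if i < n then f (n - 1 - i) else d := by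
  induction n generalizing i with
  | zero => simp
  | succ n ih =>
    cases i with
    | zero => simp
    | succ i =>
      rw [desc_succ, Ls.get_succ, ih]
      simp only [Nat.add_lt_add_iff_right]
      congr 2
      omega

theorem get_descFrom (f : ℕ → α) (d : α) (lo n i : ℕ) :
    (descFrom f lo n).get d i = if i < n then f (lo + (n - 1 - i)) else d := by
  induction n generalizing i with
  | zero => simp
  | succ n ih =>
    cases i with
    | zero => simp
    | succ i =>
      rw [descFrom_succ, Ls.get_succ, ih]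
      simp only [Nat.add_lt_add_iff_right]
      congr 3
      omega

theorem get_asc (f : ℕ → α) (d : α) (n lo i : ℕ) :
    (asc f n lo).get d i = if i < n then f (lo + i) else d := by
  induction n generalizing lo i with
  | zero => simp
  | succ n ih =>
    cases i with
    | zero => simp
    | succ i =>
      rw [asc_succ, Ls.get_succ, ih]
      simp only [Nat.add_lt_add_iff_right]
      congr 2
      omega

theorem drop_desc (f : ℕ → α) (n k : ℕ) : (desc f n).drop k = desc f (n - k) := by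
  induction n generalizing k with
  | zero => simp
  | succ n ih =>
    cases k with
    | zero => simp
    | succ k => rw [desc_succ, Ls.drop_succ, ih, Nat.add_sub_add_right]

theorem map_desc (g : α → β) (f : ℕ → α) (n : ℕ) :
    (desc f n).map g = desc (fun i => g (f i)) n := by
  induction n with
  | zero => rfl
  | succ n ih => simp [ih]

/-- conversion to ordinary lists -/
def Ls.toList : Ls α → List α
  | Ls.nil => []
  | Ls.cons h t => h :: t.toList

end

/-! ### values -/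

/-- the integer represented by an entry -/
def Ent.val : Ent → ℤ
  | Ent.zero => 0
  | Ent.pos s => s.v
  | Ent.neg s => -s.v
  | Ent.bad => 0

theorem Ent.val_flip (e : Ent) : e.flip.val = -e.val := by
  cases e <;> simp [Ent.flip, Ent.val]

theorem Ent.val_sub (p n : ℕ) : (Ent.sub p n).val = (p : ℤ) - n := by
  rw [Ent.sub, ite'_beq, ite'_ble]
  split_ifs with h1 h2
  · simp [Ent.val, h1]
  · simp only [Ent.val, sv, Nat.sub_eq]
    omega
  · simp only [Ent.val, sv, Nat.sub_eq]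
    omega

theorem Ent.ok_iff (e : Ent) : e.ok = true ↔ e ≠ Ent.bad := by
  cases e <;> simp [Ent.ok]

/-- the integer at position `j` -/
def Acc.at : Acc → ℕ → ℤ
  | Acc.nil, _ => 0
  | Acc.cons p n _, 0 => (p : ℤ) - n
  | Acc.cons _ _ t, j + 1 => t.at j

def Acc.len : Acc → ℕ
  | Acc.nil => 0
  | Acc.cons _ _ t => t.len + 1

def PN.val (r : PN) : ℤ := (r.p : ℤ) - r.n

/-- the number with digits `f 0, ..., f (n - 1)` in base `2 ^ W` -/
def pk (W n : ℕ) (f : ℕ → ℤ) : ℤ := ∑ p ∈ Finset.range n, f p * 2 ^ (W * p)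

/-- the digit at position `p` in base `2 ^ W` -/
def dig (W v p : ℕ) : ℕ := v / 2 ^ (W * p) % 2 ^ W

/-- the weight with the given entries -/
noncomputable def mk6 (a b c d e f : ℕ) : Wt := Finsupp.equivFunOnFinite.symm ![a, b, c, d, e, f]

@[simp] theorem mk6_0 (a b c d e f : ℕ) : mk6 a b c d e f 0 = a := rfl
@[simp] theorem mk6_1 (a b c d e f : ℕ) : mk6 a b c d e f 1 = b := rfl
@[simp] theorem mk6_2 (a b c d e f : ℕ) : mk6 a b c d e f 2 = c := rfl
@[simp] theorem mk6_3 (a b c d e f : ℕ) : mk6 a b c d e f 3 = d := rfl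
@[simp] theorem mk6_4 (a b c d e f : ℕ) : mk6 a b c d e f 4 = e := rfl
@[simp] theorem mk6_5 (a b c d e f : ℕ) : mk6 a b c d e f 5 = f := rfl

theorem sum_mk6 (a b c d e f : ℕ) : ∑ i, mk6 a b c d e f i = a + b + c + d + e + f := by
  simp [Fin.sum_univ_six]

theorem eq_mk6 (l : Wt) : l = mk6 (l 0) (l 1) (l 2) (l 3) (l 4) (l 5) := by
  ext i
  fin_cases i <;> rfl

/-- a coefficient of `agf a m`; the first exponent is determined by the degree -/
noncomputable def cf (a m u v x y z : ℕ) : ℤ :=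
  if u + v + x + y + z ≤ a * m + 15 then
    coeff (mk6 (a * m + 15 - (u + v + x + y + z)) u v x y z) (agf a m) else 0

/-- `M` rows of coefficients, packed with stride `S` and width `W` -/
noncomputable def pcf (W S M a m x y z : ℕ) : ℤ :=
  pk W (S * M) fun p => cf a m (p % S) (p / S) x y z

/-- `h_j (1, q ^ k, q ^ (S k))` at `q = 2 ^ W` -/
def hT (W S k j : ℕ) : ℤ :=
  ∑ v ∈ Finset.range (j + 1), ∑ u ∈ Finset.range (j + 1 - v), 2 ^ (W * (k * u + S * (k * v)))

/-! ### the plethysm tables -/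

/-- the entry `e` holds the coefficients of `agf a J.m` at the key `(x, y, z)` -/
def EntOK (J : Job) (a w x y z : ℕ) (e : Ent) : Prop :=
  e.val = pcf J.W J.S (J.rows (x + y + z)) a J.m x y z ∧
    ∀ u v, u < J.S → v < J.rows (x + y + z) → |cf a J.m u v x y z| ≤ 2 ^ w

/-- the table of bounds fits the dimensions of the job -/
def TOK (J : Job) (t : Ls (Ls ℕ)) : Prop :=
  ∀ y z, mxOf t y z ≤ J.n4 ∧ (mxOf t y z ≠ 0 → y < J.n5 ∧ z < J.n6)

def TAnti (t : Ls (Ls ℕ)) : Prop :=
  ∀ y y' z z', y ≤ y' → z ≤ z' → mxOf t y' z' ≤ mxOf t y z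

def TLe (t t' : Ls (Ls ℕ)) : Prop := ∀ y z, mxOf t y z ≤ mxOf t' y z

/-- the key `(x, y, z)` lies below a sorted key of the region -/
def Dom (t : Ls (Ls ℕ)) (x y z : ℕ) : Prop :=
  ∃ X Y Z, Z < Y ∧ Y < X ∧ X < mxOf t Y Z ∧ x ≤ X ∧ y ≤ Y ∧ z ≤ Z

/-- the array of the values of `g` with descending indices -/
noncomputable def cube (g : ℕ → ℕ → ℕ → Ent) (n4 n5 n6 : ℕ) : L3 :=
  desc (fun z => desc (fun y => desc (fun x => g x y z) n4) n5) n6

def BoxOK (J : Job) (t : Ls (Ls ℕ)) (a w : ℕ) (B : L3) : Prop :=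
  ∃ g : ℕ → ℕ → ℕ → Ent, B = cube g J.n4 J.n5 J.n6 ∧
    ∀ x y z, Dom t x y z → EntOK J a w x y z (g x y z)

/-- the boxes of the levels `a - 1, ..., 0`, with the sum of the digit bounds -/
inductive BoxesOK (J : Job) (t : Ls (Ls ℕ)) : ℕ → ℕ → Ls L3 → Prop
  | nil : BoxesOK J t 0 0 Ls.nil
  | cons {a bnd w : ℕ} {B : L3} {bs : Ls L3} : BoxOK J t a w B → BoxesOK J t a bnd bs →
      BoxesOK J t (a + 1) (bnd + 2 ^ w) (Ls.cons B bs)

/-- the same, cut at the key `(x, y, z)` -/
inductive CutsOK (J : Job) (x y z : ℕ) : ℕ → ℕ → Ls L3 → Prop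
  | nil : CutsOK J x y z 0 0 Ls.nil
  | cons {a bnd w : ℕ} {g : ℕ → ℕ → ℕ → Ent} {bs : Ls L3} :
      (∀ x' y' z', x' ≤ x → y' ≤ y → z' ≤ z → EntOK J a w x' y' z' (g x' y' z')) →
      CutsOK J x y z a bnd bs →
      CutsOK J x y z (a + 1) (bnd + 2 ^ w) (Ls.cons (cube g (x + 1) (y + 1) (z + 1)) bs)

/-- the numerical side conditions at level `a` -/
def LevOK (J : Job) (a w bnd : ℕ) : Prop :=
  0 < a ∧ a * J.m + 6 ≤ J.S ∧ w + 2 ≤ J.W ∧ a * 2 ^ w + (J.m + 5).choose 5 * bnd < 2 ^ J.W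

instance (J : Job) (a w bnd : ℕ) : Decidable (LevOK J a w bnd) := by
  unfold LevOK
  infer_instance

/-- the rows `lo, ..., lo + n - 1` of the slice `z` -/
def ChunkOK (J : Job) (t : Ls (Ls ℕ)) (a w z lo n : ℕ) (c : L2) : Prop :=
  c.len = n ∧ ∀ x y, lo ≤ y → y < lo + n → z < y → y < x → x < mxOf t y z →
    EntOK J a w x y z ((c.get Ls.nil (y - lo)).get Ent.zero (J.n4 - (x + 1)))

/-- the slices `z0, z0 + 1, ...` -/
def TblFrom (J : Job) (t : Ls (Ls ℕ)) (a w z0 : ℕ) (tb : L3) : Prop :=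
  ∀ x y z, z0 ≤ z → z < y → y < x → x < mxOf t y z →
    EntOK J a w x y z (((tb.get Ls.nil (z - z0)).get Ls.nil y).get Ent.zero (J.n4 - (x + 1)))

def TblOK (J : Job) (t : Ls (Ls ℕ)) (a w : ℕ) (tb : L3) : Prop :=
  ∀ x y z, z < y → y < x → x < mxOf t y z → EntOK J a w x y z (look J tb x y z)

/-! ### the tables of multiplicities -/

/-- the partition of `N` with key `(x, y, z)` at the position `(i, r)` -/
noncomputable def lam (N x y z i r : ℕ) : Wt :=
  mk6 (N - ((x - 2 + i) + (x - 2 + r) + (x - 2) + (y - 1) + z)) (x - 2 + i) (x - 2 + r) (x - 2)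
    (y - 1) z

def InTri (N x y z i r : ℕ) : Prop := r ≤ i ∧ 2 * i + r + (4 * x + y + z) ≤ N + 9

instance (N x y z i r : ℕ) : Decidable (InTri N x y z i r) := by
  unfold InTri
  infer_instance

/-- the digits of `v` are the multiplicities in `Sym^a Sym^m`, cut off at `2 ^ 40` -/
def RelOK (a m x y z v : ℕ) : Prop :=
  ∀ p, (dig 50 v p : ℤ) = if InTri (a * m) x y z (p % 80) (p / 80) then
    min (2 ^ 40) (mult a m (lam (a * m) x y z (p % 80) (p / 80))) else 0

def RelTbl (a m : ℕ) (t : Ls (Ls ℕ)) (T : Ls (Ls (Ls Sv))) : Prop :=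
  ∀ i y z, if z < y ∧ y + 1 + i < mxOf t y z then RelOK a m (y + 1 + i) y z (srcGet T i y z)
    else srcGet T i y z = 0

def SrcOK (s : Src) : Prop :=
  ∀ i y z, srcGet s.t i y z = 0 ∨ (z < y ∧ RelOK s.a 6 (y + 1 + i) y z (srcGet s.t i y z))

def SrcsOK (srcs : Ls Src) : Prop := ∀ k, SrcOK (srcs.get src0 k)

def ExOK (b : ℕ) (t : Ls (Ls ℕ)) : Prop :=
  ∀ x y z i r, z < y → y < x → x < mxOf t y z → InTri (6 * b) x y z i r →
    mult 6 b (lam (6 * b) x y z i r) ≤ mult b 6 (lam (6 * b) x y z i r)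

def ExsFrom (k : ℕ) (ex : Ls (Ls (Ls ℕ))) : Prop := ∀ b, ExOK (k + b) (ex.get Ls.nil b)

/-- the numerical side conditions for changing the layout -/
def RelCond (J : Job) (a w : ℕ) : Prop :=
  a * J.m + 6 ≤ J.S ∧ a * J.m + 15 ≤ J.C ∧ a * J.m ≤ 150 ∧ w + 2 ≤ J.W

instance (J : Job) (a w : ℕ) : Decidable (RelCond J a w) := by
  unfold RelCond
  infer_instance

/-- the numerical side conditions for level zero -/
def ZeroCond (J : Job) : Prop := 6 ≤ J.S ∧ 30 ≤ J.C ∧ 6 ≤ J.n4

instance (J : Job) : Decidable (ZeroCond J) := by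
  unfold ZeroCond
  infer_instance

/-! ### the stable bound -/

def P5.at (v : P5) : Fin 5 → ℕ := ![v.a, v.b, v.c, v.d, v.e]

/-- the integer represented by a residue modulo `2 ^ 64` -/
noncomputable def rv (r : ℕ) : ℤ := (rpos r : ℤ) - rneg r

/-- the columns after elimination -/
noncomputable def psi (ρ : List ℕ) (j : Fin 5) (n : ℕ) : ℤ :=
  PowerSeries.coeff n (PowerSeries.X ^ (4 - (j : ℕ)) * (1 - PowerSeries.X) ^ (j : ℕ) * phiS ρ)

def RhoOK (c : ℤ × List ℕ) (ρ : Rho) : Prop :=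
  (ρ.c : ℤ) = c.1 ∧ 0 < ρ.c ∧ ρ.c ≤ 144 ∧ ρ.tab.len = 77 ∧ ∀ n ≤ 76, ∀ j : Fin 5,
    (ρ.tab.get p50 n).at j < 2 ^ 64 ∧ rv ((ρ.tab.get p50 n).at j) = psi c.2 j n ∧
      |psi c.2 j n| ≤ ρ.r.at j ∧ (n ≤ 51 → |psi c.2 j n| ≤ ρ.s.at j) ∧
      (n ≤ 38 → |psi c.2 j n| ≤ 2 ^ 17)

def RhosOK (rhos : Ls Rho) : Prop := List.Forall₂ RhoOK cyc rhos.toList

/-- the digits of `ku` are `2 ^ 49` minus upper bounds for the multiplicities in `Sym^6 Sym^b` -/
def KuOK (x y z ku : ℕ) : Prop :=
  ∃ (n : ℕ) (g : ℕ → ℤ), (ku : ℤ) = pk 50 n (fun p => 2 ^ 49 - g p) ∧ (∀ p < n, |g p| ≤ 2 ^ 32) ∧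
    ∀ b i r, b ≤ 24 → InTri (6 * b) x y z i r →
      i + 80 * r < n ∧ mult 6 b (lam (6 * b) x y z i r) ≤ g (i + 80 * r)

def KeyOK (x y z : ℕ) : Prop :=
  ∀ b i r, 7 ≤ b → b ≤ 24 → InTri (6 * b) x y z i r →
    mult 6 b (lam (6 * b) x y z i r) ≤ mult b 6 (lam (6 * b) x y z i r)

end Vale.Agent.P181.K
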