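import Vale.Agent.P181.Six.KDig
import Vale.Agent.P181.Six.KLam
import Vale.Agent.P181.Six.KPsi

/-! Correctness of the array of stable multiplicities. -/

namespace Vale.Agent.P181.K

namespace UArr

theorem rv_zero : rv 0 = 0 := by simp [rv, rpos, rneg]

theorem rv_modEq {r : ℕ} (h : r < 2 ^ 64) : (r : ℤ) ≡ rv r [ZMOD 2 ^ 64] := by
  have h1 : Nat.shiftRight r 63 = r / 2 ^ 63 := by
    rw [Nat.shiftRight_eq, Nat.shiftRight_eq_div_pow]
  rw [rv, rpos, rneg, h1, Nat.mul_eq, Nat.mul_eq, Nat.sub_eq, Nat.sub_eq]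
  have h2 : r / 2 ^ 63 = 0 ∨ r / 2 ^ 63 = 1 := by omega
  rcases h2 with h2 | h2 <;> rw [h2] <;> unfold Int.ModEq <;> omega

theorem hor_cons (f : P5 → ℕ) (sh n : ℕ) (h : P5) (t : Ls P5) :
    hor f sh (n + 1) (Ls.cons h t) = ⟨rpos (f h) + (hor f sh n t).p <<< sh,
      rneg (f h) + (hor f sh n t).n <<< sh⟩ := rfl

theorem hor_val (f : P5 → ℕ) (hf : f p50 = 0) (sh n : ℕ) (l : Ls P5) :
    (hor f sh n l).val = pk sh n fun i => rv (f (l.get p50 i)) := by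
  induction n generalizing l with
  | zero => rfl
  | succ n ih =>
    cases l with
    | nil =>
      simp only [Ls.get_nil, hf, rv_zero, pk_zero]
      rfl
    | cons h t =>
      rw [pk_succ, hor_cons]
      simp only [Ls.get_zero, Ls.get_succ]
      rw [← ih t]
      simp only [PN.val, rv, Nat.shiftLeft_eq]
      push_cast
      ring

theorem det2_val (r r' c c' : PN) :
    (det2 r r' c c').val = r.val * c'.val - r'.val * c.val := by
  rw [det2, Ent.val_sub]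
  simp only [PN.val, Nat.add_eq, Nat.mul_eq]
  push_cast
  ring

theorem pk_prod (M : ℕ) (R C : ℕ → ℤ) :
    pk 50 80 R * pk 4000 M C = pk 50 (80 * M) fun p => R (p % 80) * C (p / 80) := by
  rw [pk_rows 50 80 M fun u v => R u * C v, pk, pk, Finset.sum_mul_sum, Finset.sum_comm]
  refine Finset.sum_congr rfl fun v _ => Finset.sum_congr rfl fun u _ => ?_
  rw [show 50 * (u + 80 * v) = 50 * u + 4000 * v by ring, pow_add]
  ring

/-- the entry `e` holds the digits `m`, which are bounded by `b` -/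
def EB (N : ℕ) (e : Ent) (b : ℕ) (m : ℕ → ℤ) : Prop :=
  e.val = pk 50 N m ∧ ∀ p < N, |m p| ≤ b

/-- the state holds the digits `T` -/
def SB (N : ℕ) (s : St) (T : ℕ → ℤ) : Prop :=
  (s.p : ℤ) - s.n = pk 50 N T ∧ ∀ p < N, |T p| ≤ s.b

theorem SB.congr {N : ℕ} {s : St} {T T' : ℕ → ℤ} (h : SB N s T) (e : ∀ p, T p = T' p) :
    SB N s T' := (funext e : T = T') ▸ h

theorem stepU_eq (t : ℕ) (e : Ent) (b : ℕ) (s : St) (ht : t < 2 ^ 64) {τ : ℤ}
    (h : (t : ℤ) ≡ τ [ZMOD 2 ^ 64]) (hτ : |τ| < 2 ^ 63) :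
    ((stepU t e b s).p : ℤ) - (stepU t e b s).n = τ * e.val + (s.p - s.n) ∧
      ((stepU t e b s).b : ℤ) = |τ| * b + s.b := by
  rw [stepU, ite'_ble]
  rw [abs_lt] at hτ
  unfold Int.ModEq at h
  split_ifs with h1
  · have h2 : τ = t := by omega
    subst h2
    rw [abs_of_nonneg (Nat.cast_nonneg t)]
    cases e <;> simp only [Ent.val, Nat.add_eq, Nat.mul_eq] <;> push_cast <;>
      constructor <;> ring
  · rw [Nat.sub_eq]
    generalize ht' : 18446744073709551616 - t = t'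
    have h2 : τ = -(t' : ℤ) := by omega
    subst h2
    rw [abs_neg, abs_of_nonneg (Nat.cast_nonneg t')]
    cases e <;> simp only [Ent.val, Nat.add_eq, Nat.mul_eq] <;> push_cast <;>
      constructor <;> ring

/-- `t` is the residue of the small integer `τ` -/
def Res (t : ℕ) (τ : ℤ) : Prop := t < 2 ^ 64 ∧ (t : ℤ) ≡ τ [ZMOD 2 ^ 64] ∧ |τ| < 2 ^ 63

theorem SB.step {N t b : ℕ} {τ : ℤ} {e : Ent} {m T : ℕ → ℤ} {s : St} (ht : Res t τ)
    (he : EB N e b m) (hs : SB N s T) : SB N (stepU t e b s) fun p => τ * m p + T p := by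
  obtain ⟨h1, h2⟩ := stepU_eq t e b s ht.1 ht.2.1 ht.2.2
  refine ⟨by rw [h1, pk_add, pk_mul, he.1, hs.1], fun p hp => ?_⟩
  rw [h2]
  refine (abs_add_le _ _).trans (add_le_add ?_ (hs.2 p hp))
  rw [abs_mul]
  exact mul_le_mul_of_nonneg_left (he.2 p hp) (abs_nonneg _)

theorem land_lt (v : ℕ) : Nat.land v 18446744073709551615 < 2 ^ 64 ∧
    ((Nat.land v 18446744073709551615 : ℕ) : ℤ) ≡ v [ZMOD 2 ^ 64] := by
  have h : (18446744073709551615 : ℕ) = 2 ^ 64 - 1 := by norm_num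
  rw [h, Nat.land_eq, Nat.and_two_pow_sub_one_eq_mod]
  unfold Int.ModEq
  omega

theorem neg_one_modEq : ((18446744073709551615 : ℕ) : ℤ) ≡ -1 [ZMOD 2 ^ 64] := by decide

/-- the program for a `2 × 2` minor of residues -/
noncomputable def mm (r r' c c' : ℕ) : ℕ :=
  Nat.land (Nat.add (Nat.mul r c') (Nat.mul 18446744073709551615 (Nat.mul r' c)))
    18446744073709551615

theorem mm_modEq {u v : P5} {U V : Fin 5 → ℤ} (hu : ∀ j, (u.at j : ℤ) ≡ U j [ZMOD 2 ^ 64])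
    (hv : ∀ j, (v.at j : ℤ) ≡ V j [ZMOD 2 ^ 64]) (a b : Fin 5) :
    (mm (u.at a) (u.at b) (v.at a) (v.at b) : ℤ) ≡ m2 U V a b [ZMOD 2 ^ 64] := by
  refine (land_lt _).2.trans ?_
  rw [Nat.add_eq, Nat.mul_eq, Nat.mul_eq, Nat.mul_eq, Nat.cast_add, Nat.cast_mul, Nat.cast_mul,
    Nat.cast_mul, m2, sub_eq_add_neg, ← neg_one_mul]
  exact ((hu a).mul (hv b)).add (neg_one_modEq.mul ((hu b).mul (hv a)))

theorem m2_le {U V : Fin 5 → ℤ} {a b : Fin 5} {A A' B B' : ℤ} (h1 : |U a| ≤ A) (h2 : |U b| ≤ A')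
    (h3 : |V a| ≤ B) (h4 : |V b| ≤ B') : |m2 U V a b| ≤ A * B' + A' * B := by
  refine (abs_sub _ _).trans ?_
  rw [abs_mul, abs_mul]
  exact add_le_add (mul_le_mul h1 h4 (abs_nonneg _) ((abs_nonneg _).trans h1))
    (mul_le_mul h2 h3 (abs_nonneg _) ((abs_nonneg _).trans h2))

theorem min3_res {u v w : P5} {U V W : Fin 5 → ℤ} (hu : ∀ j, (u.at j : ℤ) ≡ U j [ZMOD 2 ^ 64])
    (hv : ∀ j, (v.at j : ℤ) ≡ V j [ZMOD 2 ^ 64]) (hw : ∀ j, (w.at j : ℤ) ≡ W j [ZMOD 2 ^ 64])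
    (hU : ∀ j, |U j| ≤ 2 ^ 17) (hV : ∀ j, |V j| ≤ 2 ^ 17) (hW : ∀ j, |W j| ≤ 2 ^ 17)
    {k : ℕ} {κ : ℤ} (hk : (k : ℤ) ≡ κ [ZMOD 2 ^ 64]) (hκ : |κ| ≤ 144) (a b c : Fin 5) :
    Res (min3 k (w.at a) (w.at b) (w.at c) (mm (u.at b) (u.at c) (v.at b) (v.at c))
      (mm (u.at a) (u.at c) (v.at a) (v.at c)) (mm (u.at a) (u.at b) (v.at a) (v.at b)))
      (κ * m3 U V W a b c) := by
  refine ⟨(land_lt _).1, (land_lt _).2.trans ?_, ?_⟩
  · simp only [Nat.add_eq, Nat.mul_eq]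
    rw [Nat.cast_mul, Nat.cast_add, Nat.cast_add, Nat.cast_mul, Nat.cast_mul, Nat.cast_mul,
      Nat.cast_mul, show m3 U V W a b c = W a * m2 U V b c + W c * m2 U V a b +
        -1 * (W b * m2 U V a c) by rw [m3]; ring]
    exact hk.mul ((((hw a).mul (mm_modEq hu hv b c)).add ((hw c).mul (mm_modEq hu hv a b))).add
      (neg_one_modEq.mul ((hw b).mul (mm_modEq hu hv a c))))
  · have h : ∀ a b c, |W a * m2 U V b c| ≤ 2 ^ 17 * (2 ^ 17 * 2 ^ 17 + 2 ^ 17 * 2 ^ 17) := by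
      intro a b c
      rw [abs_mul]
      exact mul_le_mul (hW a) (m2_le (hU b) (hU c) (hV b) (hV c)) (abs_nonneg _) (by norm_num)
    have h1 : |m3 U V W a b c| ≤ 3 * 2 ^ 52 := by
      have h1 := abs_le.1 (h a b c)
      have h2 := abs_le.1 (h b a c)
      have h3 := abs_le.1 (h c a b)
      rw [m3, abs_le]
      constructor <;> omega
    rw [abs_mul]
    exact (mul_le_mul hκ h1 (abs_nonneg _) (by norm_num)).trans_lt (by norm_num)

/-- the columns, cut off beyond the end of the table -/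
noncomputable def ps (ρ : List ℕ) (n : ℕ) (j : Fin 5) : ℤ := if n ≤ 76 then psi ρ j n else 0

theorem at_p50 (j : Fin 5) : p50.at j = 0 := by fin_cases j <;> rfl

theorem rv_tab {c : ℤ × List ℕ} {ρ : Rho} (h : RhoOK c ρ) (n : ℕ) (j : Fin 5) :
    rv ((ρ.tab.get p50 n).at j) = ps c.2 n j := by
  unfold ps
  split_ifs with hn
  · exact (h.2.2.2.2 n hn j).2.1
  · rw [Ls.get_of_len_le _ _ (by rw [h.2.2.2.1]; omega), at_p50, rv_zero]

theorem ps_r {c : ℤ × List ℕ} {ρ : Rho} (h : RhoOK c ρ) (n : ℕ) (j : Fin 5) :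
    |ps c.2 n j| ≤ ρ.r.at j := by
  unfold ps
  split_ifs with hn
  · exact (h.2.2.2.2 n hn j).2.2.1
  · simp

theorem ps_s {c : ℤ × List ℕ} {ρ : Rho} (h : RhoOK c ρ) {n : ℕ} (hn : n ≤ 51) (j : Fin 5) :
    |ps c.2 n j| ≤ ρ.s.at j := by
  rw [ps, if_pos (by omega)]
  exact (h.2.2.2.2 n (by omega) j).2.2.2.1 hn

theorem ps_small {c : ℤ × List ℕ} {ρ : Rho} (h : RhoOK c ρ) {n : ℕ} (hn : n ≤ 38) (j : Fin 5) :
    |ps c.2 n j| ≤ 2 ^ 17 := by
  rw [ps, if_pos (by omega)]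
  exact (h.2.2.2.2 n (by omega) j).2.2.2.2 hn

theorem tab_modEq {c : ℤ × List ℕ} {ρ : Rho} (h : RhoOK c ρ) {n : ℕ} (hn : n ≤ 38) (j : Fin 5) :
    ((ρ.tab.get p50 n).at j : ℤ) ≡ ps c.2 n j [ZMOD 2 ^ 64] := by
  rw [← rv_tab h]
  exact rv_modEq (h.2.2.2.2 n (by omega) j).1

theorem det2_EB {c : ℤ × List ℕ} {ρ : Rho} (h : RhoOK c ρ) {x M : ℕ} (hM : x + M ≤ 51)
    (a b : Fin 5) :
    EB (80 * M) (det2 (hor (·.at a) 50 80 (ρ.tab.drop (x + 2)))
      (hor (·.at b) 50 80 (ρ.tab.drop (x + 2))) (hor (·.at a) 4000 M (ρ.tab.drop (x + 1)))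
      (hor (·.at b) 4000 M (ρ.tab.drop (x + 1))))
      (ρ.r.at a * ρ.s.at b + ρ.r.at b * ρ.s.at a)
      fun p => m2 (ps c.2 (x + 2 + p % 80)) (ps c.2 (x + 1 + p / 80)) a b := by
  refine ⟨?_, fun p hp => ?_⟩
  · rw [det2_val, hor_val (·.at a) (at_p50 a), hor_val (·.at b) (at_p50 b),
      hor_val (·.at a) (at_p50 a), hor_val (·.at b) (at_p50 b), pk_prod, pk_prod, ← pk_sub]
    simp only [Ls.get_drop, rv_tab h, m2]
  · push_cast
    exact m2_le (ps_r h _ a) (ps_r h _ b) (ps_s h (by omega) a) (ps_s h (by omega) b)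

/-- the determinant at the position `p` -/
noncomputable def DD (x y z : ℕ) (ρ : List ℕ) (p : ℕ) : ℤ :=
  (Matrix.of ![ps ρ (x + 2 + p % 80), ps ρ (x + 1 + p / 80), ps ρ x, ps ρ y, ps ρ z]).det

theorem acc_SB {c : ℤ × List ℕ} {ρ : Rho} (h : RhoOK c ρ) {x y z : ℕ} (hz : z < y) (hy : y < x)
    (hk : 4 * x ≤ 153) {s : St} {T : ℕ → ℤ} (hs : SB (80 * ((153 - 4 * x) / 3 + 1)) s T) :
    SB (80 * ((153 - 4 * x) / 3 + 1)) (accU z (rhoY y (rhoX x ρ)) s)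
      fun p => c.1 * DD x y z c.2 p + T p := by
  have hM : x + ((153 - 4 * x) / 3 + 1) ≤ 51 := by omega
  have he := det2_EB h hM
  have h1 : (ρ.c : ℤ) ≡ c.1 [ZMOD 2 ^ 64] := by rw [h.1]
  have h0 := h.2.2.1
  have h2 : ((18446744073709551616 - ρ.c : ℕ) : ℤ) ≡ -c.1 [ZMOD 2 ^ 64] := by
    rw [← h.1]
    unfold Int.ModEq
    omega
  have h3 : |c.1| ≤ 144 := by
    rw [← h.1, abs_le]
    omega
  have h4 : |-c.1| ≤ 144 := by rwa [abs_neg]
  have hm := @min3_res _ _ _ _ _ _ (tab_modEq h (n := x) (by omega))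
    (tab_modEq h (n := y) (by omega)) (tab_modEq h (n := z) (by omega))
    (ps_small h (by omega)) (ps_small h (by omega)) (ps_small h (by omega))
  have hp := hm h1 h3
  have hn := hm h2 h4
  refine (SB.step (hp 2 3 4) (he 0 1) (SB.step (hn 1 3 4) (he 0 2) (SB.step (hp 1 2 4) (he 0 3)
    (SB.step (hn 1 2 3) (he 0 4) (SB.step (hp 0 3 4) (he 1 2) (SB.step (hn 0 2 4) (he 1 3)
    (SB.step (hp 0 2 3) (he 1 4) (SB.step (hp 0 1 4) (he 2 3) (SB.step (hn 0 1 3) (he 2 4)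
    (SB.step (hp 0 1 2) (he 3 4) hs)))))))))).congr fun p => ?_
  rw [DD, det5_laplace]
  ring

theorem sum_SB {x y z : ℕ} (hz : z < y) (hy : y < x) (hk : 4 * x ≤ 153) (rs : Ls Rho) :
    ∀ cs : List (ℤ × List ℕ), List.Forall₂ RhoOK cs rs.toList →
      SB (80 * ((153 - 4 * x) / 3 + 1)) (sumU z ((rs.map (rhoX x)).map (rhoY y)))
        fun p => (cs.map fun c => c.1 * DD x y z c.2 p).sum := by
  induction rs with
  | nil =>
    intro cs h
    cases h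
    exact ⟨(pk_zero _ _).symm, fun _ _ => le_rfl⟩
  | cons ρ t ih =>
    intro cs h
    cases h with
    | cons h1 h2 => exact acc_SB h1 hz hy hk (ih _ h2)

end UArr

theorem uArr_ok {rs : Ls Rho} {x y z n : ℕ} (hρ : RhosOK rs) (hz : z < y) (hy : y < x)
    (hk : 4 * x + y + z ≤ 153) (hn : n = (153 - (4 * x + y + z)) / 3 + 1)
    (hok : uArr z n ((rs.map (rhoX x)).map (rhoY y)) ≠ Ent.bad) :
    ∃ g : ℕ → ℤ, (uArr z n ((rs.map (rhoX x)).map (rhoY y))).val = pk 50 (80 * n) g ∧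
      (∀ p < 80 * n, |g p| ≤ 2 ^ 32) ∧ ∀ i r, i < 80 → r < n → x + 2 + i ≤ 76 →
        720 * g (i + 80 * r) = U720 ![x + 2 + i, x + 1 + r, x, y, z] := by
  obtain ⟨h1, h2⟩ := UArr.sum_SB hz hy (by omega) rs cyc hρ
  unfold uArr at hok ⊢
  generalize sumU z ((rs.map (rhoX x)).map (rhoY y)) = s at h1 h2 hok ⊢
  have hone : (ones50 : ℤ) = pk 50 4000 fun _ => 1 := ones_eq (by norm_num) 4000
  generalize ones50 = o at hok hone ⊢
  beta_reduce at hok ⊢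
  rw [ite'_ble, show Nat.mul 4000 n = 50 * (80 * n) by rw [Nat.mul_eq]; ring] at hok ⊢
  split_ifs at hok ⊢ with hb
  swap
  · exact absurd rfl hok
  have hle : 80 * n ≤ 80 * ((153 - 4 * x) / 3 + 1) := by omega
  have e1 : ((Nat.shiftLeft o 32 : ℕ) : ℤ) = pk 50 4000 fun _ => 2 ^ 32 := by
    rw [Nat.shiftLeft_eq', Nat.shiftLeft_eq, Nat.cast_mul, hone, mul_comm, ← pk_mul]
    exact pk_congr fun _ _ => by norm_num
  have e2 : ((Nat.mul o 1125891316908032 : ℕ) : ℤ) =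
      pk 50 4000 fun _ => 2 ^ 50 - 2 ^ (32 + 1) := by
    rw [Nat.mul_eq, Nat.cast_mul, hone, mul_comm, ← pk_mul]
    exact pk_congr fun _ _ => by norm_num
  have e3 := pk_modEq_trunc (W := 50) hle
    fun p => (cyc.map fun c => c.1 * UArr.DD x y z c.2 p).sum
  rw [← h1] at e3
  obtain ⟨g, h3, h4⟩ := fin_ok (a := 720) (W := 50) (w := 32) (n := 80 * n) (N := 4000)
    (r := ⟨s.p, s.n⟩) (by norm_num) (by omega) (by norm_num) e1 e2 e3 (fun p hp => by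
      have := h2 p (by omega)
      beta_reduce at this
      omega) hok
  refine ⟨g, h3, fun p hp => (h4 p hp).1, fun i r hi hr hx => ?_⟩
  have h5 := (h4 (i + 80 * r) (by omega)).2
  rw [Nat.cast_ofNat] at h5
  rw [h5, U720_eq_psi]
  refine congrArg List.sum (List.map_congr_left fun c _ => ?_)
  rw [UArr.DD, show (i + 80 * r) % 80 = i by omega, show (i + 80 * r) / 80 = r by omega]
  refine congrArg (fun m : Matrix (Fin 5) (Fin 5) ℤ => c.1 * m.det) ?_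
  ext a j
  fin_cases a <;> exact if_pos (by omega)

end Vale.Agent.P181.K
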