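import Vale.Agent.P181.Six.JT

/-! Newton's recurrence for the plethysm and symmetry properties. -/

namespace Vale.Agent.P181

open MvPolynomial

namespace Newton

/-- the geometric series `1 / (1 - x t)` -/
noncomputable def geo {R : Type*} [CommRing R] (x : R) : PowerSeries R :=
  PowerSeries.mk fun n => x ^ n

theorem deriv_geo {R : Type*} [CommRing R] (x : R) :
    PowerSeries.derivative R (geo x) = (PowerSeries.C x * geo x) * geo x := by
  ext n
  rw [PowerSeries.coeff_derivative, mul_assoc, PowerSeries.coeff_C_mul, PowerSeries.coeff_mul]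
  have h : ∀ p ∈ Finset.HasAntidiagonal.antidiagonal n,
      PowerSeries.coeff p.1 (geo x) * PowerSeries.coeff p.2 (geo x) = x ^ n := by
    intro p hp
    rw [Finset.HasAntidiagonal.mem_antidiagonal] at hp
    simp only [geo, PowerSeries.coeff_mk]
    rw [← pow_add, hp]
  rw [Finset.sum_congr rfl h, Finset.sum_const, Finset.Nat.card_antidiagonal]
  simp only [geo, PowerSeries.coeff_mk, nsmul_eq_mul]
  push_cast
  ring

theorem deriv_prod_geo {R ι : Type*} [CommRing R] [DecidableEq ι] (x : ι → R) (S : Finset ι) :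
    PowerSeries.derivative R (∏ b ∈ S, geo (x b)) =
      (∑ b ∈ S, PowerSeries.C (x b) * geo (x b)) * ∏ b ∈ S, geo (x b) := by
  induction S using Finset.induction_on with
  | empty => simp
  | insert a S ha ih =>
    rw [Finset.prod_insert ha, Finset.sum_insert ha, Derivation.leibniz, ih, deriv_geo]
    simp only [smul_eq_mul]
    ring

theorem newton_geo {R ι : Type*} [CommRing R] [DecidableEq ι] (x : ι → R) (S : Finset ι) (a : ℕ) :
    (a : R) * PowerSeries.coeff a (∏ b ∈ S, geo (x b)) =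
      ∑ k ∈ Finset.range a, (∑ b ∈ S, x b ^ (k + 1)) *
        PowerSeries.coeff (a - (k + 1)) (∏ b ∈ S, geo (x b)) := by
  rcases a with _ | a
  · simp
  have h := congrArg (PowerSeries.coeff a) (deriv_prod_geo x S)
  rw [PowerSeries.coeff_derivative, PowerSeries.coeff_mul,
    Finset.Nat.sum_antidiagonal_eq_sum_range_succ_mk] at h
  rw [mul_comm]
  push_cast
  rw [h]
  refine Finset.sum_congr rfl fun k _ => ?_
  rw [map_sum]
  congr 1
  refine Finset.sum_congr rfl fun b _ => ?_
  rw [PowerSeries.coeff_C_mul]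
  simp only [geo, PowerSeries.coeff_mk]
  ring

theorem wt_eq_sum {c : Wt →₀ ℕ} {S : Finset Wt} (h : c.support ⊆ S) :
    wt c = ∑ b ∈ S, c b • b :=
  Finsupp.sum_of_support_subset c h _ fun b _ => zero_smul ℕ b

theorem gf_eq_coeff (a m : ℕ) :
    gf a m = PowerSeries.coeff a
      (∏ b ∈ mons m, geo (monomial b (1 : ℤ) : MvPolynomial (Fin 6) ℤ)) := by
  rw [PowerSeries.coeff_prod, gf]
  refine Finset.sum_congr rfl fun c hc => ?_
  rw [Finset.mem_finsuppAntidiag] at hc
  rw [wt_eq_sum hc.2, monomial_sum_one]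
  refine Finset.prod_congr rfl fun b _ => ?_
  simp only [geo, PowerSeries.coeff_mk]
  rw [monomial_pow, one_pow]

theorem sum_mapDomain (σ : Equiv.Perm (Fin 6)) (b : Wt) :
    ∑ i, (b.mapDomain σ) i = ∑ i, b i := by
  simp only [Finsupp.mapDomain_equiv_apply]
  exact Equiv.sum_comp σ.symm b

theorem sum_dl : ∑ i, dl i = 15 := by
  simp only [dl_apply]
  decide

theorem gf_support {a m : ℕ} {α : Wt} (h : coeff α (gf a m) ≠ 0) : ∑ i, α i = a * m := by
  rw [gf, coeff_sum] at h
  obtain ⟨c, hc, hne⟩ := Finset.exists_ne_zero_of_sum_ne_zero h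
  rw [coeff_monomial] at hne
  have e : wt c = α := by
    by_contra e
    exact hne (if_neg e)
  rw [Finset.mem_finsuppAntidiag] at hc
  rw [← e, wt_eq_sum hc.2]
  simp only [Finsupp.coe_finsetSum, Finset.sum_apply, Finsupp.coe_smul, Pi.smul_apply,
    smul_eq_mul]
  rw [Finset.sum_comm, ← hc.1, Finset.sum_mul]
  refine Finset.sum_congr rfl fun b hb => ?_
  rw [← Finset.mul_sum, mem_mons.1 hb]

end Newton

open Newton

theorem gf_zero (m : ℕ) : gf 0 m = 1 := by
  rw [gf_eq_coeff, PowerSeries.coeff_zero_eq_constantCoeff, map_prod]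
  refine Finset.prod_eq_one fun b _ => ?_
  simp [geo]

theorem gf_newton (a m : ℕ) :
    (a : MvPolynomial (Fin 6) ℤ) * gf a m =
      ∑ k ∈ Finset.range a, ph (k + 1) m * gf (a - (k + 1)) m := by
  rw [gf_eq_coeff, newton_geo]
  refine Finset.sum_congr rfl fun k _ => ?_
  rw [gf_eq_coeff, ph]
  congr 1
  refine Finset.sum_congr rfl fun b _ => ?_
  rw [monomial_pow, one_pow]

theorem rename_gf (σ : Equiv.Perm (Fin 6)) (a m : ℕ) : rename σ (gf a m) = gf a m := by
  have h := PowerSeries.coeff_map (rename σ : MvPolynomial (Fin 6) ℤ →ₐ[ℤ] _).toRingHom a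
    (∏ b ∈ mons m, geo (monomial b (1 : ℤ) : MvPolynomial (Fin 6) ℤ))
  rw [gf_eq_coeff]
  refine h.symm.trans ?_
  rw [map_prod]
  congr 1
  refine Finset.prod_equiv (Finsupp.equivCongrLeft σ) (fun b => ?_) (fun b _ => ?_)
  · rw [mem_mons, mem_mons, Finsupp.equivCongrLeft_apply, Finsupp.equivMapDomain_eq_mapDomain,
      sum_mapDomain]
  · ext1 n
    rw [PowerSeries.coeff_map]
    simp only [geo, PowerSeries.coeff_mk, map_pow]
    rw [Finsupp.equivCongrLeft_apply, Finsupp.equivMapDomain_eq_mapDomain, ← rename_monomial]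
    rfl

theorem coeff_agf_perm (σ : Equiv.Perm (Fin 6)) (a m : ℕ) (ν : Wt) :
    coeff (ν.mapDomain σ) (agf a m) = ((Equiv.Perm.sign σ : ℤˣ) : ℤ) * coeff ν (agf a m) := by
  have h := coeff_rename_mapDomain σ σ.injective (agf a m) ν
  rw [← h, agf, map_mul, rename_altn, rename_gf, smul_mul_assoc, coeff_smul, smul_eq_mul,
    ← mul_assoc, ← Units.val_mul, Int.units_mul_self, Units.val_one, one_mul]

/-- support of the antisymmetrized character -/
theorem agf_support {a m : ℕ} {ν : Wt} (h : coeff ν (agf a m) ≠ 0) :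
    ∑ i, ν i = a * m + 15 ∧ ∀ i, ν i ≤ a * m + 5 := by
  rw [agf, coeff_altn_mul] at h
  obtain ⟨w, -, hne⟩ := Finset.exists_ne_zero_of_sum_ne_zero h
  have hne' := right_ne_zero_of_mul hne
  have hle : dl.mapDomain w ≤ ν := by
    by_contra e
    exact hne' (if_neg e)
  rw [if_pos hle] at hne'
  have hs := gf_support hne'
  have hν : ∀ i, ν i = (ν - dl.mapDomain w) i + dl.mapDomain w i := by
    intro i
    rw [Finsupp.tsub_apply, Nat.sub_add_cancel (hle i)]
  refine ⟨?_, fun i => ?_⟩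
  · rw [Finset.sum_congr rfl fun i _ => hν i, Finset.sum_add_distrib, hs, sum_mapDomain, sum_dl]
  · rw [hν i, ← hs]
    refine add_le_add (Finset.single_le_sum (f := fun i => (ν - dl.mapDomain w) i)
      (fun _ _ => Nat.zero_le _) (Finset.mem_univ i)) ?_
    rw [Finsupp.mapDomain_equiv_apply, dl_apply]
    exact Nat.sub_le _ _

/-- the cycle index of `S_6` -/
theorem gf_six (m : ℕ) :
    720 * gf 6 m = (cyc.map fun c => C c.1 * (c.2.map fun k => ph k m).prod).sum := by
  have n0 := gf_zero m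
  have n1 := gf_newton 1 m
  have n2 := gf_newton 2 m
  have n3 := gf_newton 3 m
  have n4 := gf_newton 4 m
  have n5 := gf_newton 5 m
  have n6 := gf_newton 6 m
  simp only [Finset.sum_range_succ, Finset.sum_range_zero, Nat.reduceAdd, Nat.reduceSub, n0,
    Nat.cast_ofNat, Nat.cast_one, zero_add] at n1 n2 n3 n4 n5 n6
  simp only [cyc, List.map_cons, List.map_nil, List.sum_cons, List.sum_nil, List.prod_cons,
    List.prod_nil, eq_intCast, Int.cast_ofNat, Int.cast_one]
  generalize ph 1 m = p1 at *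
  generalize ph 2 m = p2 at *
  generalize ph 3 m = p3 at *
  generalize ph 4 m = p4 at *
  generalize ph 5 m = p5 at *
  generalize ph 6 m = p6 at *
  generalize gf 1 m = g1 at *
  generalize gf 2 m = g2 at *
  generalize gf 3 m = g3 at *
  generalize gf 4 m = g4 at *
  generalize gf 5 m = g5 at *
  generalize gf 6 m = g6 at *
  have h1 : g1 = p1 := by linear_combination n1
  have h2 : 2 * g2 = p1 ^ 2 + p2 := by linear_combination n2 + p1 * h1
  have h3 : 6 * g3 = p1 ^ 3 + 3 * p1 * p2 + 2 * p3 := by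
    linear_combination 2 * n3 + p1 * h2 + 2 * p2 * h1
  have h4 : 24 * g4 = p1 ^ 4 + 6 * p1 ^ 2 * p2 + 3 * p2 ^ 2 + 8 * p1 * p3 + 6 * p4 := by
    linear_combination 6 * n4 + p1 * h3 + 3 * p2 * h2 + 6 * p3 * h1
  have h5 : 120 * g5 = p1 ^ 5 + 10 * p1 ^ 3 * p2 + 15 * p1 * p2 ^ 2 + 20 * p1 ^ 2 * p3
      + 20 * p2 * p3 + 30 * p1 * p4 + 24 * p5 := by
    linear_combination 24 * n5 + p1 * h4 + 4 * p2 * h3 + 12 * p3 * h2 + 24 * p4 * h1
  linear_combination 120 * n6 + p1 * h5 + 5 * p2 * h4 + 20 * p3 * h3 + 60 * p4 * h2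
    + 120 * p5 * h1

end Vale.Agent.P181
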