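import Vale.Agent.P181.Six.Basic

/-! Dimensions of fixed vectors in weight spaces are orbit counts. -/

namespace Vale.Agent.P181

open MvPolynomial Module

namespace Orbit

variable {P Q β : Type} [Fintype P] [Fintype Q]

/-- the content of a word in an arbitrary alphabet -/
noncomputable def gc (w : P → β) : β →₀ ℕ := ∑ p, Finsupp.single (w p) 1

theorem gc_apply [DecidableEq β] (w : P → β) (b : β) :
    gc w b = ∑ p, if w p = b then 1 else 0 := by
  simp only [gc, Finsupp.finsetSum_apply, Finsupp.single_apply]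

theorem gc_comp (w : P → β) (e : Q ≃ P) : gc (w ∘ e) = gc w :=
  e.sum_comp fun p => Finsupp.single (w p) 1

theorem exists_equiv_of_gc {w : P → β} {w' : Q → β} (h : gc w = gc w') :
    ∃ e : Q ≃ P, w' = w ∘ e := by
  classical
  have h1 : ∀ b, Fintype.card {q // w' q = b} = Fintype.card {p // w p = b} := fun b => by
    have := DFunLike.congr_fun h b
    rw [gc_apply, gc_apply, ← Finset.card_filter, ← Finset.card_filter] at this
    rw [Fintype.card_subtype, Fintype.card_subtype, this]
  exact ⟨Equiv.ofFiberEquiv fun b => Fintype.equivOfCardEq (h1 b),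
    funext fun q => (Equiv.ofFiberEquiv_map _ q).symm⟩

theorem degree_gc (w : P → β) : (gc w).degree = Fintype.card P := by
  simp [gc]

theorem exists_gc {c : β →₀ ℕ} (h : c.degree = Fintype.card P) : ∃ w : P → β, gc w = c := by
  have h1 : gc (fun x : Σ b : c.support, Fin (c b) => (x.1 : β)) = c := by
    rw [gc, Fintype.sum_sigma]
    simp only [Finset.sum_const, Finset.card_univ, Fintype.card_fin, Finsupp.smul_single,
      smul_eq_mul, mul_one]
    rw [Finset.sum_coe_sort c.support fun b => Finsupp.single b (c b)]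
    exact c.sum_single
  have h2 := degree_gc (fun x : Σ b : c.support, Fin (c b) => (x.1 : β))
  rw [h1, h] at h2
  exact ⟨_, (gc_comp _ (Fintype.equivOfCardEq h2)).trans h1⟩

theorem mem_support_gc [DecidableEq β] {w : P → β} {b : β} :
    b ∈ (gc w).support ↔ ∃ p, w p = b := by
  simp [gc_apply]

theorem cont_mem_mons (w : P → Fin 6) : cont w ∈ mons (Fintype.card P) := by
  rw [mem_mons, ← Finsupp.degree_eq_sum]
  exact degree_gc w

theorem exists_cont {α : Wt} (h : α ∈ mons (Fintype.card P)) : ∃ w : P → Fin 6, cont w = α := by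
  rw [mem_mons, ← Finsupp.degree_eq_sum] at h
  exact exists_gc h

theorem sum_gc_fst (z : P → Fin 6 × Fin 6) (r : Fin 6) :
    ∑ i, gc z (r, i) = cont (fun p => (z p).1) r := by
  rw [show cont (fun p => (z p).1) = gc (fun p => (z p).1) from rfl]
  simp only [gc_apply]
  rw [Finset.sum_comm]
  refine Finset.sum_congr rfl fun p _ => ?_
  by_cases h : (z p).1 = r <;> simp [Prod.ext_iff, h]

theorem sum_gc_snd (z : P → Fin 6 × Fin 6) (i : Fin 6) :
    ∑ r, gc z (r, i) = cont (fun p => (z p).2) i := by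
  rw [show cont (fun p => (z p).2) = gc (fun p => (z p).2) from rfl]
  simp only [gc_apply]
  rw [Finset.sum_comm]
  refine Finset.sum_congr rfl fun p _ => ?_
  by_cases h : (z p).2 = i <;> simp [Prod.ext_iff, h]

theorem sum_fiber {γ : Type} (T : Finset γ) (S : Finset Wt) (f : γ → Wt) (h : ∀ c ∈ T, f c ∈ S) :
    ∑ α ∈ S, monomial α ((T.filter fun c => f c = α).card : ℤ) = ∑ c ∈ T, monomial (f c) 1 := by
  rw [← Finset.sum_fiberwise_of_maps_to h]
  refine Finset.sum_congr rfl fun α _ => ?_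
  rw [Finset.sum_congr rfl fun c hc => by rw [(Finset.mem_filter.mp hc).2], Finset.sum_const,
    ← map_nsmul, nsmul_one]

theorem wt_gc (g : P → Wt) : wt (gc g) = ∑ p, g p := by
  rw [wt, gc, ← Finsupp.sum_finsetSum_index (by simp) (by simp [add_smul])]
  simp

/-- the contents of a word on the fibres of another word -/
noncomputable def fibc (w₀ w : P → Fin 6) (r : Fin 6) : Wt :=
  Finsupp.equivFunOnFinite.symm fun i => gc (fun p => (w₀ p, w p)) (r, i)

theorem fibc_apply (w₀ w : P → Fin 6) (r i : Fin 6) :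
    fibc w₀ w r i = gc (fun p => (w₀ p, w p)) (r, i) := rfl

theorem fibc_eq_iff [DecidableEq P] (w₀ w w' : P → Fin 6) :
    fibc w₀ w = fibc w₀ w' ↔ ∃ h ∈ stab w₀, w' = w ∘ h := by
  constructor
  · intro h
    obtain ⟨e, he⟩ := exists_equiv_of_gc (w := fun p => (w₀ p, w p)) (w' := fun p => (w₀ p, w' p))
      (Finsupp.ext fun x => DFunLike.congr_fun (congrFun h x.1) x.2)
    exact ⟨e, funext fun p => (congrArg Prod.fst (congrFun he p)).symm,
      funext fun p => congrArg Prod.snd (congrFun he p)⟩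
  · rintro ⟨h, hh, rfl⟩
    ext r i
    rw [fibc_apply, fibc_apply, ← gc_comp _ h]
    congr 2
    funext p
    exact Prod.ext (congrFun hh p) rfl

theorem sum_fibc (w₀ w : P → Fin 6) : ∑ r, fibc w₀ w r = cont w := by
  ext i
  rw [Finsupp.finsetSum_apply]
  exact sum_gc_snd _ i

theorem exists_fibc (w₀ : P → Fin 6) {c : Fin 6 → Wt} (hc : ∀ r, c r ∈ mons (cont w₀ r)) :
    ∃ w, fibc w₀ w = c := by
  obtain ⟨z, hz⟩ := exists_gc (P := P)
    (c := Finsupp.equivFunOnFinite.symm fun x : Fin 6 × Fin 6 => c x.1 x.2) (by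
      rw [Finsupp.degree_eq_sum, Fintype.sum_prod_type, ← mem_mons.mp (cont_mem_mons w₀)]
      exact Finset.sum_congr rfl fun r _ => mem_mons.mp (hc r))
  obtain ⟨e, he⟩ := exists_equiv_of_gc (w := fun p => (z p).1) (w' := w₀) (Finsupp.ext fun r => by
    refine (sum_gc_fst z r).symm.trans ?_
    rw [hz]
    exact mem_mons.mp (hc r))
  refine ⟨fun p => (z (e p)).2, ?_⟩
  ext r i
  rw [fibc_apply, he]
  exact DFunLike.congr_fun ((gc_comp z e).trans hz) (r, i)

theorem image_fibc [DecidableEq P] (w₀ : P → Fin 6) (α : Wt) :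
    (Finset.univ.filter fun w : P → Fin 6 => cont w = α).image (fibc w₀) =
      (Fintype.piFinset fun r => mons (cont w₀ r)).filter fun c => ∑ r, c r = α := by
  ext c
  simp only [Finset.mem_image, Finset.mem_filter, Finset.mem_univ, true_and, Fintype.mem_piFinset]
  constructor
  · rintro ⟨w, rfl, rfl⟩
    exact ⟨fun r => mem_mons.mpr (sum_gc_fst _ r), sum_fibc w₀ w⟩
  · rintro ⟨hc, rfl⟩
    obtain ⟨w, rfl⟩ := exists_fibc w₀ hc
    exact ⟨w, (sum_fibc w₀ w).symm, rfl⟩

end Orbit

open Orbit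

variable {P : Type} [Fintype P] [DecidableEq P]

theorem finrank_XW_inv {M : Type} [DecidableEq M] (H : Subgroup (Equiv.Perm P))
    (m : (P → Fin 6) → M) (hm : ∀ w w', m w = m w' ↔ ∃ h ∈ H, w' = w ∘ h) (α : Wt) :
    finrank ℂ ↥(XW P α ⊓ Inv (rho P) H) =
      ((Finset.univ.filter fun w : P → Fin 6 => cont w = α).image m).card := by
  let T := (Finset.univ.filter fun w : P → Fin 6 => cont w = α).image m
  have hT : ∀ w, cont w = α → m w ∈ T := fun w h =>
    Finset.mem_image_of_mem _ (Finset.mem_filter.mpr ⟨Finset.mem_univ _, h⟩)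
  have hT' : ∀ t : T, ∃ w, cont w = α ∧ m w = t := fun t => by
    simpa only [T, Finset.mem_image, Finset.mem_filter, Finset.mem_univ, true_and] using t.2
  choose s hs hs' using hT'
  let Φ : (T → ℂ) →ₗ[ℂ] XX P :=
    { toFun := fun c w => if h : cont w = α then c ⟨m w, hT w h⟩ else 0
      map_add' := fun c c' => by
        funext w
        by_cases h : cont w = α <;> simp [h]
      map_smul' := fun a c => by
        funext w
        by_cases h : cont w = α <;> simp [h] }
  have hΦ : ∀ c w, Φ c w = if h : cont w = α then c ⟨m w, hT w h⟩ else 0 := fun _ _ => rfl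
  have h1 : Function.Injective Φ := fun c c' h => funext fun t => by
    simpa only [hΦ, hs, hs', dif_pos] using congrFun h (s t)
  have h2 : LinearMap.range Φ = XW P α ⊓ Inv (rho P) H := by
    refine le_antisymm ?_ ?_
    · rintro _ ⟨c, rfl⟩
      refine ⟨fun w hw => dif_neg hw, fun h hh => funext fun w => ?_⟩
      have h3 : cont (w ∘ h) = cont w := gc_comp w h
      have h4 : m (w ∘ h) = m w := ((hm _ _).mpr ⟨h, hh, rfl⟩).symm
      simp only [rho_apply, hΦ, h3, h4]
    · rintro f ⟨hf, hf'⟩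
      refine ⟨fun t => f (s t), funext fun w => ?_⟩
      rw [hΦ]
      split_ifs with hw
      · obtain ⟨h, hh, h3⟩ := (hm _ _).mp (hs' ⟨m w, hT w hw⟩)
        rw [← hf' h hh, rho_apply, ← h3, hf' h hh]
      · exact (hf w hw).symm
  rw [← h2, LinearMap.finrank_range_of_inj h1, finrank_fintype_fun_eq_card, Fintype.card_coe]

theorem GH_stab (w₀ : P → Fin 6) : GH (stab w₀) = ∏ i, hh (cont w₀ i) := by
  simp only [GH, finrank_XW_inv _ _ (fibc_eq_iff w₀), image_fibc, hh]
  rw [Finset.prod_univ_sum, sum_fiber _ _ _ fun c hc => ?_]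
  · refine Finset.sum_congr rfl fun c _ => ?_
    rw [monomial_sum_one]
  · obtain ⟨w, rfl⟩ := exists_fibc w₀ (Fintype.mem_piFinset.mp hc)
    rw [sum_fibc]
    exact cont_mem_mons w

/-- the multiset of the contents of the rows of a word -/
noncomputable def rowc {a m : ℕ} (κ : P ≃ Fin a × Fin m) (w : P → Fin 6) : Wt →₀ ℕ :=
  ∑ i : Fin a, Finsupp.single (cont fun j : Fin m => w (κ.symm (i, j))) 1

theorem rowc_eq_iff {a m : ℕ} (κ : P ≃ Fin a × Fin m) (w w' : P → Fin 6) :
    rowc κ w = rowc κ w' ↔ ∃ h ∈ wr κ, w' = w ∘ h := by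
  constructor
  · intro h
    obtain ⟨e, he⟩ := exists_equiv_of_gc h
    choose τ hτ using fun i => exists_equiv_of_gc (congrFun he i).symm
    refine ⟨κ.trans ((e.prodShear τ).trans κ.symm), ⟨e, τ, fun i j => by simp⟩, funext fun p => ?_⟩
    simpa using congrFun (hτ (κ p).1) (κ p).2
  · rintro ⟨h, ⟨π, τ, hh⟩, rfl⟩
    refine (gc_comp _ π).symm.trans (congrArg gc (funext fun i => ?_))
    refine (gc_comp _ (τ i)).symm.trans (congrArg gc (funext fun j => ?_))
    simp [← hh]

omit [DecidableEq P] in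
theorem Orbit.wt_rowc {a m : ℕ} (κ : P ≃ Fin a × Fin m) (w : P → Fin 6) :
    wt (rowc κ w) = cont w := by
  refine (wt_gc _).trans ?_
  refine Eq.trans ?_ (gc_comp w κ.symm)
  rw [gc, Fintype.sum_prod_type]
  rfl

omit [Fintype P] [DecidableEq P] in
theorem Orbit.exists_rowc {a m : ℕ} (κ : P ≃ Fin a × Fin m) {c : Wt →₀ ℕ}
    (hc : c ∈ (mons m).finsuppAntidiag a) : ∃ w, rowc κ w = c := by
  obtain ⟨h1, h2⟩ := Finset.mem_finsuppAntidiag.mp hc
  obtain ⟨g, rfl⟩ := exists_gc (P := Fin a) (c := c) (by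
    rw [Fintype.card_fin, ← h1, Finsupp.degree_apply]
    exact Finset.sum_subset h2 fun b _ hb => Finsupp.notMem_support_iff.mp hb)
  choose u hu using fun i => Orbit.exists_cont (P := Fin m) (α := g i)
    (by rw [Fintype.card_fin]; exact h2 (mem_support_gc.mpr ⟨i, rfl⟩))
  refine ⟨fun p => u (κ p).1 (κ p).2, congrArg gc (funext fun i => ?_)⟩
  simpa using hu i

theorem image_rowc {a m : ℕ} (κ : P ≃ Fin a × Fin m) (α : Wt) :
    (Finset.univ.filter fun w : P → Fin 6 => cont w = α).image (rowc κ) = monSet a m α := by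
  ext c
  simp only [Finset.mem_image, Finset.mem_filter, Finset.mem_univ, true_and, monSet,
    Finset.mem_finsuppAntidiag]
  constructor
  · rintro ⟨w, rfl, rfl⟩
    have h2 : (rowc κ w).support ⊆ mons m := fun b hb => by
      obtain ⟨i, rfl⟩ := mem_support_gc.mp hb
      simpa using cont_mem_mons fun j : Fin m => w (κ.symm (i, j))
    refine ⟨⟨?_, h2⟩, wt_rowc κ w⟩
    rw [← Finset.sum_subset h2 fun b _ hb => Finsupp.notMem_support_iff.mp hb,
      ← Finsupp.degree_apply]
    exact (degree_gc _).trans (Fintype.card_fin a)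
  · rintro ⟨hc, h⟩
    obtain ⟨w, hw⟩ := exists_rowc κ (Finset.mem_finsuppAntidiag.mpr hc)
    exact ⟨w, by rw [← wt_rowc κ w, hw, h], hw⟩

theorem GH_wr {a m : ℕ} (κ : P ≃ Fin a × Fin m) : GH (wr κ) = gf a m := by
  simp only [GH, finrank_XW_inv _ _ (rowc_eq_iff κ), image_rowc, monSet, gf]
  refine sum_fiber _ _ _ fun c hc => ?_
  obtain ⟨w, rfl⟩ := exists_rowc κ hc
  rw [wt_rowc]
  exact cont_mem_mons w

end Vale.Agent.P181
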