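import Vale.Agent.P181.Six.Blocks
import Vale.Agent.P181.Six.JT
import Vale.Agent.P181.Six.Orbit
import Vale.Agent.P181.Six.Tri

/-! Weyl's formula for highest weight vectors in the tensor model. -/

namespace Vale.Agent.P181

open MvPolynomial Module

variable {P : Type} [Fintype P] [DecidableEq P]

namespace Tensor

variable {I : Type} [Fintype I]

/-- the properties of a system of block idempotents that are used -/
structure IsBl (ε : I → MonoidAlgebra ℂ (Equiv.Perm P))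
    (r : MonoidAlgebra ℂ (Equiv.Perm P) → I → ℕ) : Prop where
  idem : ∀ j, IsIdempotentElem (ε j)
  h1 : ∀ M : Submodule ℂ (XX P), (∀ g, ∀ x ∈ M, rho P g x ∈ M) →
    ∀ e, IsIdempotentElem e → finrank ℂ (M.map ((rho P).asAlgebraHom e)) =
      ∑ j, r e j * finrank ℂ (M.map ((rho P).asAlgebraHom (ε j)))
  h2 : ∀ e, IsIdempotentElem e → ∀ j, finrank ℂ (LinearMap.range
    (LinearMap.mulLeft ℂ (ε j) ∘ₗ LinearMap.mulRight ℂ e)) = r e j

/-- weight multiplicities -/
noncomputable def K (e : MonoidAlgebra ℂ (Equiv.Perm P)) (α : Wt) : ℕ :=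
  finrank ℂ ((XW P α).map ((rho P).asAlgebraHom e))

/-- highest weight multiplicities -/
noncomputable def t (e : MonoidAlgebra ℂ (Equiv.Perm P)) (l : Wt) : ℕ :=
  finrank ℂ ((TT P l).map ((rho P).asAlgebraHom e))

/-- the character -/
noncomputable def F (e : MonoidAlgebra ℂ (Equiv.Perm P)) : MvPolynomial (Fin 6) ℤ :=
  ∑ α ∈ mons (Fintype.card P), monomial α (K e α : ℤ)

/-- the coefficients in the Schur basis -/
noncomputable def c (e : MonoidAlgebra ℂ (Equiv.Perm P)) (l : Wt) : ℤ :=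
  coeff (l + dl) (altn dl * F e)

/-- `l` is the lexicographically largest weight -/
def IsTop (e : MonoidAlgebra ℂ (Equiv.Perm P)) (l : Wt) : Prop :=
  K e l ≠ 0 ∧ ∀ α, K e α ≠ 0 → toLex α ≤ toLex l

theorem alg_mem {M : Submodule ℂ (XX P)} (hM : ∀ g, ∀ x ∈ M, rho P g x ∈ M)
    (e : MonoidAlgebra ℂ (Equiv.Perm P)) {x : XX P} (hx : x ∈ M) :
    (rho P).asAlgebraHom e x ∈ M := by
  induction e using MonoidAlgebra.induction_on with
  | of g => simpa using hM g x hx
  | add f g hf hg =>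
    rw [map_add, LinearMap.add_apply]
    exact add_mem hf hg
  | smul a f hf =>
    rw [map_smul, LinearMap.smul_apply]
    exact M.smul_mem a hf

theorem sum_of_K {e : MonoidAlgebra ℂ (Equiv.Perm P)} {α : Wt} (h : K e α ≠ 0) :
    ∑ i, α i = Fintype.card P := by
  by_contra h'
  have : XW P α = ⊥ := (Submodule.eq_bot_iff _).2 fun x hx =>
    funext fun w => hx w fun e => h' (e ▸ sum_cont w)
  exact h (by rw [K, this, Submodule.map_bot, finrank_bot])

theorem coeff_F (e : MonoidAlgebra ℂ (Equiv.Perm P)) (α : Wt) : coeff α (F e) = K e α := by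
  classical
  rw [F, coeff_sum]
  simp only [coeff_monomial, Finset.sum_ite_eq', mem_mons]
  split_ifs with h
  · rfl
  · exact_mod_cast (by_contra fun h' => h (sum_of_K h') : K e α = 0).symm

theorem t_le (e : MonoidAlgebra ℂ (Equiv.Perm P)) (l : Wt) : t e l ≤ K e l :=
  Submodule.finrank_mono (Submodule.map_mono inf_le_left)

theorem exists_top {e : MonoidAlgebra ℂ (Equiv.Perm P)} {α : Wt} (h : K e α ≠ 0) :
    ∃ l, IsTop e l := by
  classical
  obtain ⟨l, h1, h2⟩ := Finset.exists_max_image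
    ((mons (Fintype.card P)).filter fun α => K e α ≠ 0) toLex
    ⟨α, Finset.mem_filter.2 ⟨mem_mons.2 (sum_of_K h), h⟩⟩
  exact ⟨l, (Finset.mem_filter.1 h1).2, fun β hβ =>
    h2 β (Finset.mem_filter.2 ⟨mem_mons.2 (sum_of_K hβ), hβ⟩)⟩

theorem IsTop.anti {e : MonoidAlgebra ℂ (Equiv.Perm P)} {l : Wt} (h : IsTop e l) : Antitone l := by
  refine antitone_iff_forall_lt.2 fun i i' hi => not_lt.1 fun hlt => ?_
  refine (h.2 (l.mapDomain (Equiv.swap i i')) (by
    rw [K, finrank_map_XW_perm]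
    exact h.1)).not_gt (Finsupp.Lex.lt_iff.2 ⟨i, fun d hd => ?_, ?_⟩)
  · simp only [ofLex_toLex, Finsupp.mapDomain_equiv_apply, Equiv.symm_swap]
    rw [Equiv.swap_apply_of_ne_of_ne hd.ne (hd.trans hi).ne]
  · simpa only [ofLex_toLex, Finsupp.mapDomain_equiv_apply, Equiv.symm_swap,
      Equiv.swap_apply_left] using hlt

theorem IsTop.c_eq {e : MonoidAlgebra ℂ (Equiv.Perm P)} {l : Wt} (h : IsTop e l) :
    c e l = K e l := by
  rw [c, coeff_altn_mul_of_top l _ fun α hα => h.2 α (by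
    rw [coeff_F] at hα
    exact_mod_cast hα), coeff_F]

theorem IsTop.t_eq {e : MonoidAlgebra ℂ (Equiv.Perm P)} (he : IsIdempotentElem e) {l : Wt}
    (h : IsTop e l) : t e l = K e l := by
  refine (t_le e l).antisymm (Submodule.finrank_mono ?_)
  rintro _ ⟨x, hx, rfl⟩
  refine ⟨(rho P).asAlgebraHom e x, ⟨alg_mem (rho_mem_XW l) e hx, ?_⟩, by
    rw [← Module.End.mul_apply, ← map_mul, he.eq]⟩
  simp only [SetLike.mem_coe, Submodule.mem_iInf, LinearMap.mem_ker]
  intro i j hij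
  rw [EE_comm]
  rcases EE_raise (P := P) hij l with h1 | ⟨β, h1, h2⟩
  · rw [h1 x hx, map_zero]
  · have : K e β = 0 := by_contra fun h' => (h.2 β h').not_gt h1
    exact (Submodule.eq_bot_iff _).1 (Submodule.finrank_eq_zero.1 this) _ ⟨_, h2 x hx, rfl⟩

variable {ε : I → MonoidAlgebra ℂ (Equiv.Perm P)} {r : MonoidAlgebra ℂ (Equiv.Perm P) → I → ℕ}
  (h : IsBl ε r)
include h

theorem inv_TT (H : Subgroup (Equiv.Perm P)) (l : Wt) :
    finrank ℂ ↥(TT P l ⊓ Inv (rho P) H) = ∑ j, r (eH H) j * t (ε j) l := by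
  rw [← map_eH _ H _ (rho_mem_TT l)]
  exact h.h1 _ (rho_mem_TT l) _ (eH_idem H)

theorem GH_eq (H : Subgroup (Equiv.Perm P)) : GH H = ∑ j, (r (eH H) j : ℤ) • F (ε j) := by
  simp only [GH, F, Finset.smul_sum]
  rw [Finset.sum_comm]
  refine Finset.sum_congr rfl fun α _ => ?_
  rw [← map_eH _ H _ (rho_mem_XW α), h.h1 _ (rho_mem_XW α) _ (eH_idem H), Nat.cast_sum, map_sum]
  refine Finset.sum_congr rfl fun j _ => ?_
  rw [smul_monomial, smul_eq_mul, Nat.cast_mul, K]

theorem K_cont (j : I) (w₀ : P → Fin 6) : K (ε j) (cont w₀) = r (eH (stab w₀)) j :=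
  (finrank_map_XW_cont w₀ _).trans (h.h2 _ (eH_idem _) j)

theorem prod_hh {β : Wt} (hβ : ∑ i, β i = Fintype.card P) :
    ∏ i, hh (β i) = ∑ j, (K (ε j) β : ℤ) • F (ε j) := by
  obtain ⟨w, rfl⟩ := exists_cont hβ
  simp only [← GH_stab, GH_eq h, K_cont h]

theorem orth {l μ : Wt} (hl : Antitone l) (hμ : Antitone μ) (hn : ∑ i, μ i = Fintype.card P) :
    ∑ j, c (ε j) μ * c (ε j) l = if l = μ then 1 else 0 := by
  rw [← coeff_altn_dl hl hμ, ← altn_mul_jt (μ + dl)]
  have : ∑ w : Equiv.Perm (Fin 6), ((Equiv.Perm.sign w : ℤˣ) : ℤ) •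
      (if dl.mapDomain w ≤ μ + dl then ∏ i, hh ((μ + dl - dl.mapDomain w) i) else 0) =
      ∑ j, c (ε j) μ • F (ε j) := by
    simp only [c, coeff_altn_mul, Finset.sum_smul]
    rw [Finset.sum_comm]
    refine Finset.sum_congr rfl fun w _ => ?_
    split_ifs with hw
    · rw [prod_hh h, Finset.smul_sum]
      · simp only [coeff_F, mul_smul]
      · have h1 : ∑ i, (μ + dl - dl.mapDomain w + dl.mapDomain w) i = ∑ i, (μ + dl) i := by
          rw [tsub_add_cancel_of_le hw]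
        have h2 : ∑ i, dl.mapDomain w i = ∑ i, dl i := by
          simp only [Finsupp.mapDomain_equiv_apply]
          exact Equiv.sum_comp w.symm dl
        simp only [Finsupp.add_apply, Finset.sum_add_distrib] at h1
        omega
    · simp
  rw [this, Finset.mul_sum, coeff_sum]
  refine Finset.sum_congr rfl fun j _ => ?_
  rw [mul_smul_comm, coeff_smul, smul_eq_mul, c, c]

theorem c_top [DecidableEq I] {j : I} {l : Wt} (hl : IsTop (ε j) l) (j' : I) :
    c (ε j') l = if j' = j then 1 else 0 := by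
  have h1 := orth h hl.anti hl.anti (sum_of_K hl.1)
  rw [if_pos rfl, ← Finset.add_sum_erase _ _ (Finset.mem_univ j)] at h1
  have h2 : 1 ≤ c (ε j) l := by
    rw [hl.c_eq]
    exact_mod_cast Nat.pos_of_ne_zero hl.1
  have h3 : ∀ i ∈ Finset.univ.erase j, 0 ≤ c (ε i) l * c (ε i) l := fun i _ => mul_self_nonneg _
  have h4 := Finset.sum_nonneg h3
  split_ifs with e
  · subst e
    nlinarith
  · exact mul_self_eq_zero.1 ((Finset.sum_eq_zero_iff_of_nonneg h3).1 (by nlinarith) j'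
      (Finset.mem_erase.2 ⟨e, Finset.mem_univ _⟩))

theorem t_eq_c (j : I) {l : Wt} (hl : Antitone l) (hn : ∑ i, l i = Fintype.card P) :
    (t (ε j) l : ℤ) = c (ε j) l := by
  classical
  by_cases h0 : ∃ α, K (ε j) α ≠ 0
  · obtain ⟨α, hα⟩ := h0
    obtain ⟨μ, hμ⟩ := exists_top hα
    by_cases e : l = μ
    · rw [e, hμ.t_eq (h.idem j), hμ.c_eq]
    have h1 := orth h hl hμ.anti (sum_of_K hμ.1)
    simp only [if_neg e, c_top h hμ, ite_mul, one_mul, zero_mul, Finset.sum_ite_eq',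
      Finset.mem_univ, if_true] at h1
    rw [h1, Nat.cast_eq_zero]
    by_contra h2
    obtain ⟨w, rfl⟩ := exists_cont (sum_of_K hμ.1)
    refine e (toLex.injective (le_antisymm (hμ.2 l fun h3 => h2 (Nat.le_zero.1 (h3 ▸ t_le _ l)))
      (lex_le_of_TT_inv l w fun h3 => ?_)))
    have h4 := inv_TT h (stab w) l
    rw [h3, finrank_bot, eq_comm, Finset.sum_eq_zero_iff] at h4
    exact mul_ne_zero (K_cont h j w ▸ hμ.1) h2 (h4 j (Finset.mem_univ j))
  · have h1 : ∀ α, K (ε j) α = 0 := fun α => by_contra fun h' => h0 ⟨α, h'⟩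
    have h2 : F (ε j) = 0 := by simp [F, h1]
    rw [c, h2, mul_zero, coeff_zero, Nat.le_zero.1 ((t_le (ε j) l).trans (h1 l).le), Nat.cast_zero]

end Tensor

open Tensor in
theorem tensor_weyl (H : Subgroup (Equiv.Perm P)) {l : Wt} (hl : Antitone l)
    (hn : ∑ i, l i = Fintype.card P) :
    (finrank ℂ ↥(TT P l ⊓ Inv (rho P) H) : ℤ) = coeff (l + dl) (altn dl * GH H) := by
  obtain ⟨I, _, ε, r, h0, h1, h2, -⟩ := exists_blocks (Equiv.Perm P)
  have h : IsBl ε r := ⟨h0, h1 _ _, h2⟩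
  rw [inv_TT h, GH_eq h, Finset.mul_sum, coeff_sum, Nat.cast_sum]
  refine Finset.sum_congr rfl fun j _ => ?_
  rw [mul_smul_comm, coeff_smul, smul_eq_mul, Nat.cast_mul, t_eq_c h j hl hn, c]

open Tensor in
theorem tensor_uv (H₁ H₂ : Subgroup (Equiv.Perm P)) (w₀ : P → Fin 6) (h₀ : stab w₀ ≤ H₁)
    (h : ∀ l : Wt, Antitone l → ∑ i, l i = Fintype.card P →
      finrank ℂ ↥(TT P l ⊓ Inv (rho P) H₁) ≤ finrank ℂ ↥(TT P l ⊓ Inv (rho P) H₂)) :
    ∃ u v : MonoidAlgebra ℂ (Equiv.Perm P), v * u = eH H₁ ∧ eH H₂ * u = u := by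
  classical
  obtain ⟨I, _, ε, r, h0, h1, h2, h3⟩ := exists_blocks (Equiv.Perm P)
  have hb : IsBl ε r := ⟨h0, h1 _ _, h2⟩
  refine h3 _ _ (eH_idem _) (eH_idem _) fun j => ?_
  rcases Nat.eq_zero_or_pos (r (eH H₁) j) with e | e
  · exact e ▸ Nat.zero_le _
  have h4 : r (eH H₁) j ≤ K (ε j) (cont w₀) := by
    rw [K_cont hb, ← h2 _ (eH_idem _), ← h2 _ (eH_idem _)]
    refine Submodule.finrank_mono ?_
    rintro _ ⟨x, rfl⟩
    exact ⟨x * eH H₁, by simp [mul_assoc, eH_mul_of_le h₀]⟩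
  obtain ⟨l, hl⟩ := exists_top (e.trans_le h4).ne'
  have h5 : ∀ j', t (ε j') l = if j' = j then 1 else 0 := fun j' => by
    have := (t_eq_c hb j' hl.anti (sum_of_K hl.1)).trans (c_top hb hl j')
    exact_mod_cast this
  simpa [inv_TT hb, h5] using h l hl.anti (sum_of_K hl.1)

end Vale.Agent.P181
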